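import Vale.Agent.P139.B2.Def

/-! P139 B2: uniform bounds for the free solution with `ℓ = 5/2`.
Plan: `b2_yF_le`: `‖(1 + i s)^(ℓ-ν)‖ = ‖1 + i s‖^(ℓ - re ν) * exp (arg * im ν) ≤ (1 + s) e^π`
(`norm_cpow_of_ne_zero`/`norm_cpow_le`, `1 ≤ ‖1 + i s‖ ≤ 1 + s`, `ℓ - re ν ≤ 1`), `‖s^(ℓ+ν-1)‖ = s^(u-1)`,
`u = ℓ + re ν ∈ [4, 6]`; `∫ e^(-X s) s^(u-1) = Γ(u) X^(-u)`
(`Real.integral_rpow_mul_exp_neg_mul_Ioi`), `norm_integral_le_of_norm_le`, and `Γ(u), Γ(u+1)` are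
bounded on `[4,6]` (monotone, `Real.Gamma_strictMonoOn_Ici`, or continuity on a compact set).
`b2_yF_ge`: `yF_continuous`, `yF_ne` on the compact set; `IsCompact.exists_isMinOn`.
`b2_NF_le`: `NF_H`, `‖N‖² ≤ ℓ² + 2 ‖ν‖ ‖N‖`. -/

noncomputable section

open MeasureTheory Filter Topology Set Complex
open scoped ComplexConjugate ContDiff

namespace Vale.Agent.P139

theorem b2yf_int {a r : ℝ} (ha : 0 < a) (hr : 0 < r) :
    IntegrableOn (fun t : ℝ => t ^ (a - 1) * Real.exp (-(r * t))) (Ioi 0) :=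
  Integrable.of_integral_ne_zero (by
    rw [Real.integral_rpow_mul_exp_neg_mul_Ioi ha hr]
    exact (mul_pos (by positivity) (Real.Gamma_pos_of_pos ha)).ne')

theorem b2yf_gam {a u X : ℝ} (h1 : 2 ≤ a) (h2 : a ≤ 7) (h3 : u ≤ a) (hX : 1 ≤ X) :
    (1 / X) ^ a * Real.Gamma a ≤ X ^ (-u) * Real.Gamma 7 := by
  have h0 : 0 < X := one_pos.trans_le hX
  rw [one_div, Real.inv_rpow h0.le, ← Real.rpow_neg h0.le]
  exact mul_le_mul (Real.rpow_le_rpow_of_exponent_le hX (neg_le_neg h3))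
    (Real.Gamma_strictMonoOn_Ici.monotoneOn h1 (h1.trans h2) h2)
    (Real.Gamma_pos_of_pos (by linarith)).le (by positivity)

theorem b2_yF_le : ∃ K : ℝ, 1 ≤ K ∧ ∀ (ν : ℂ) (X : ℝ), ν.re ∈ Icc (3 / 2 : ℝ) (7 / 2) →
    |ν.im| ≤ 1 → 1 ≤ X → ‖yF ν (5 / 2) X‖ ≤ K * X ^ (-ν.re) := by
  have g0 : 0 < Real.Gamma 7 := Real.Gamma_pos_of_pos (by norm_num)
  refine ⟨Real.exp Real.pi * (2 * Real.Gamma 7) + 1, le_add_of_nonneg_left (by positivity),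
    fun ν X h1 h2 hX => ?_⟩
  have h0 : 0 < X := one_pos.trans_le hX
  have u1 : 0 < 5 / 2 + ν.re := by linarith [h1.1]
  have u2 : 0 < 5 / 2 + ν.re + 1 := by linarith
  have i1 := b2yf_int u1 h0
  have i2 := b2yf_int u2 h0
  have h3 := norm_integral_le_of_norm_le (f := nK (((5 / 2 : ℝ) : ℂ) + ν) (((5 / 2 : ℝ) : ℂ) - ν) X)
    ((i1.add i2).const_mul (Real.exp Real.pi))
    ((ae_restrict_mem measurableSet_Ioi).mono fun s (hs : 0 < s) => by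
      refine (n_K_norm _ _ X hs).trans (mul_le_mul (Real.exp_le_exp.2 ?_) ?_ (by positivity)
        (by positivity))
      · rw [sub_im, ofReal_im, zero_sub, abs_neg]
        exact mul_le_of_le_one_right Real.pi_pos.le h2
      · have h4 : (1 + s) ^ |(((5 / 2 : ℝ) : ℂ) - ν).re| ≤ (1 + s) ^ (1 : ℝ) := by
          refine Real.rpow_le_rpow_of_exponent_le (by linarith) ?_
          rw [sub_re, ofReal_re, abs_le]
          constructor <;> linarith [h1.1, h1.2]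
        refine (mul_le_mul_of_nonneg_left h4 (by positivity)).trans_eq ?_
        rw [Real.rpow_one, add_re, ofReal_re, Pi.add_apply,
          show 5 / 2 + ν.re + 1 - 1 = 5 / 2 + ν.re - 1 + 1 by ring, Real.rpow_add_one hs.ne']
        ring)
  simp only [Pi.add_apply] at h3
  rw [integral_const_mul, integral_add i1 i2, Real.integral_rpow_mul_exp_neg_mul_Ioi u1 h0,
    Real.integral_rpow_mul_exp_neg_mul_Ioi u2 h0] at h3
  have h5 := b2yf_gam (a := 5 / 2 + ν.re) (by linarith [h1.1]) (by linarith [h1.2]) le_rfl hX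
  have h6 := b2yf_gam (a := 5 / 2 + ν.re + 1) (u := 5 / 2 + ν.re) (by linarith [h1.1])
    (by linarith [h1.2]) (by linarith) hX
  have h7 := h3.trans (mul_le_mul_of_nonneg_left (add_le_add h5 h6) (Real.exp_pos _).le)
  have h8 : X ^ (5 / 2 : ℝ) * X ^ (-(5 / 2 + ν.re)) = X ^ (-ν.re) := by
    rw [← Real.rpow_add h0]
    ring_nf
  rw [n_yF_eq, norm_mul, norm_real, Real.norm_of_nonneg (by positivity), nF]
  refine (mul_le_mul_of_nonneg_left h7 (by positivity)).trans ?_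
  rw [add_mul, one_mul, ← h8]
  refine le_trans (le_of_eq ?_) (le_add_of_nonneg_right (by positivity))
  ring

theorem b2_yF_ge : ∃ k : ℝ, 0 < k ∧ ∀ (ν : ℂ) (X : ℝ), ν.re ∈ Icc (3 / 2 : ℝ) 2 →
    |ν.im| ≤ 1 → X ∈ Icc (2 : ℝ) 4 → k ≤ ‖yF ν (5 / 2) X‖ := by
  have hK : IsCompact ((Icc (3 / 2 : ℝ) 2 ×ℂ Icc (-1 : ℝ) 1) ×ˢ Icc (2 : ℝ) 4) :=
    (isCompact_Icc.reProdIm isCompact_Icc).prod isCompact_Icc
  obtain ⟨p, hp, h⟩ := hK.exists_isMinOn (f := fun p : ℂ × ℝ => ‖yF p.1 (5 / 2) p.2‖)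
    ⟨(2, 2), by norm_num [mem_reProdIm]⟩
    (yF_continuous.mono fun p hp => ⟨by linarith [hp.1.1.1], by linarith [hp.2.1]⟩).norm
  exact ⟨_, norm_pos_iff.2 (yF_ne (by norm_num) (by linarith [hp.1.1.1]) (by linarith [hp.2.1])),
    fun ν X h1 h2 h3 => h (a := (ν, X)) ⟨⟨h1, abs_le.1 h2⟩, h3⟩⟩

theorem b2_NF_le {ν : ℂ} {X : ℝ} (h : 1 / 2 < ν.re) (hX : 0 < X) :
    ‖NF ν (5 / 2) X‖ ≤ 2 * ‖ν‖ + 5 / 2 := by
  have h1 := NF_H (ℓ := 5 / 2) (by norm_num) h hX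
  have h2 := abs_re_le_norm (conj ν * NF ν (5 / 2) X)
  rw [norm_mul, norm_conj] at h2
  have h3 := norm_nonneg ν
  by_contra h4
  nlinarith [neg_abs_le (conj ν * NF ν (5 / 2) X).re, not_le.1 h4]

end Vale.Agent.P139
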