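import Vale.Agent.P139.B2.Lad
import Vale.Agent.P139.B2.YF

/-! P139 B2: continuity of the mismatch in the parameters.
Plan: `b2_jc_mul`: Leibniz `b2_Du_mul` (`ContinuousOn.congr`, `continuousOn_finset_sum`);
`b2_jc_R`: `(normSq z : ℂ) = z * conj z`, induction on `m` with `b2_jc_mul`, `b2_Du_conj`,
`b2_Du_one`. `b2_jc_G`: strong induction: `G_0 = X^ν₀ q`, `G_1` by `b2_G1`, `G_(j+2)` by `b2_rec`
and `b2_jc_R` (`ContinuousOn.cpow` with constant base `X > 0`). `b2_Wr_cont`: `b2_Wr_eq`,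
`yF_continuous`. `b2_nmis_cont`: the limit is a uniform limit on `S` of `p ↦ W_p(X)`, `X → ∞`
(`TendstoUniformlyOn.continuousOn`, or `continuousOn_of_uniform_approx_of_continuousOn`);
the denominator is continuous and nonzero (`yF_continuous`, `yF_ne`). -/

noncomputable section

open MeasureTheory Filter Topology Set Complex
open scoped ComplexConjugate ContDiff

namespace Vale.Agent.P139

theorem b2_jc_mul {P : Type} [TopologicalSpace P] {S : Set P} {f g : P → ℝ → ℂ} {U : P → Set ℝ}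
    {X : ℝ} {n : ℕ} (hU : ∀ p ∈ S, IsOpen (U p) ∧ X ∈ U p ∧ ContDiffOn ℝ ∞ (f p) (U p) ∧
      ContDiffOn ℝ ∞ (g p) (U p)) (hf : ∀ j ≤ n, ContinuousOn (fun p => Du^[j] (f p) X) S)
    (hg : ∀ j ≤ n, ContinuousOn (fun p => Du^[j] (g p) X) S) :
    ∀ j ≤ n, ContinuousOn (fun p => Du^[j] (fun Y => f p Y * g p Y) X) S := by
  intro j hj
  refine ContinuousOn.congr (f := fun p => ∑ i ∈ Finset.range (j + 1),
    (j.choose i : ℂ) * Du^[i] (f p) X * Du^[j - i] (g p) X) ?_ fun p hp =>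
      b2_Du_mul (hU p hp).1 (hU p hp).2.2.1 (hU p hp).2.2.2 j (hU p hp).2.1
  refine continuousOn_finsetSum _ fun i hi => ?_
  have h1 := Finset.mem_range.1 hi
  exact (continuousOn_const.mul (hf i (by omega))).mul (hg _ (by omega))

theorem b2cont_sm {G : ℝ → ℂ} {U : Set ℝ} (h : ContDiffOn ℝ ∞ G U) (m : ℕ) :
    ContDiffOn ℝ ∞ (fun Y => (normSq (G Y) : ℂ) ^ m * G Y) U := by
  simp only [← mul_conj]
  exact ((h.mul (b2_conj_sm h)).pow m).mul h

theorem b2_jc_R {P : Type} [TopologicalSpace P] {S : Set P} {G : P → ℝ → ℂ} {U : P → Set ℝ}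
    {X : ℝ} {n : ℕ} (m : ℕ) (hU : ∀ p ∈ S, IsOpen (U p) ∧ X ∈ U p ∧ ContDiffOn ℝ ∞ (G p) (U p))
    (hG : ∀ j ≤ n, ContinuousOn (fun p => Du^[j] (G p) X) S) :
    ∀ j ≤ n, ContinuousOn (fun p => Du^[j] (fun Y => (normSq (G p Y) : ℂ) ^ m * G p Y) X) S := by
  induction m with
  | zero => simpa only [pow_zero, one_mul] using hG
  | succ m ih =>
    have h1 : ∀ j ≤ n, ContinuousOn (fun p => Du^[j] (fun Y => conj (G p Y)) X) S := fun j hj =>
      (continuous_conj.comp_continuousOn (hG j hj)).congr fun p hp =>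
        b2_Du_conj (hU p hp).1 (hU p hp).2.2 j (hU p hp).2.1
    have h2 := b2_jc_mul (f := G) (g := fun p Y => conj (G p Y))
      (fun p hp => ⟨(hU p hp).1, (hU p hp).2.1, (hU p hp).2.2, b2_conj_sm (hU p hp).2.2⟩) hG h1
    have h3 := b2_jc_mul (f := fun p Y => G p Y * conj (G p Y))
      (g := fun p Y => (normSq (G p Y) : ℂ) ^ m * G p Y)
      (fun p hp => ⟨(hU p hp).1, (hU p hp).2.1, (hU p hp).2.2.mul (b2_conj_sm (hU p hp).2.2),
        b2cont_sm (hU p hp).2.2 m⟩) h2 ih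
    simpa only [mul_conj, ← mul_assoc, ← pow_succ'] using h3

variable {m : ℕ} {S : Set (ℝ × ℝ)} {β X0 : ℝ × ℝ → ℝ} {q : ℝ × ℝ → ℝ → ℂ} {U : ℝ × ℝ → Set ℝ}

theorem b2cont_nu (m : ℕ) (hβ : ContinuousOn β S) : ContinuousOn (fun p => nu0 m (β p)) S :=
  continuousOn_const.sub (continuousOn_const.mul (continuous_ofReal.comp_continuousOn hβ))

theorem b2cont_kap (m j : ℕ) (hβ : ContinuousOn β S) : ContinuousOn (fun p => kap m (β p) j) S :=
  ((continuousOn_const.mul (b2cont_nu m hβ)).add continuousOn_const).sub continuousOn_const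

theorem b2cont_cc (m j : ℕ) (hβ : ContinuousOn β S) : ContinuousOn (fun p => cc m (β p) j) S :=
  ((b2cont_nu m hβ).add continuousOn_const).mul
    (((b2cont_nu m hβ).add continuousOn_const).sub continuousOn_const)

theorem b2cont_aa (m : ℕ) : 0 ≤ aa m := by
  unfold aa
  positivity

theorem b2cont_re (m : ℕ) (β : ℝ) : (nu0 m β - 5 / 2 + 4).re = aa m + 3 / 2 := by
  simp [nu0]
  ring

theorem b2cont_yF {P : Type} [TopologicalSpace P] {S : Set P} {ν : P → ℂ} {X : P → ℝ}
    (hν : ContinuousOn ν S) (hX : ContinuousOn X S) (h1 : ∀ p ∈ S, 0 ≤ (ν p).re)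
    (h2 : ∀ p ∈ S, 0 < X p) : ContinuousOn (fun p => yF (ν p) (5 / 2) (X p)) S :=
  (yF_continuous (ℓ := 5 / 2)).comp (hν.prodMk hX) fun p hp =>
    ⟨by linarith [h1 p hp], h2 p hp⟩

theorem b2_jc_G (hm : 1 ≤ m) {X : ℝ} (h : ∀ p ∈ S, SmSol m (β p) (q p) (U p) ∧ X ∈ U p)
    (hβ : ContinuousOn β S) (h0 : ContinuousOn (fun p => q p X) S)
    (h1 : ContinuousOn (fun p => deriv (q p) X) S) (j : ℕ) :
    ContinuousOn (fun p => Gj m (β p) (q p) j X) S := by
  rcases S.eq_empty_or_nonempty with rfl | ⟨p0, hp0⟩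
  · exact continuousOn_empty _
  have hX : 0 < X := (h p0 hp0).1.pos (h p0 hp0).2
  have hx : (X : ℂ) ≠ 0 := ofReal_ne_zero.2 hX.ne'
  have hν := b2cont_nu m hβ
  induction j using Nat.strong_induction_on with
  | _ j ih =>
    match j, ih with
    | 0, _ => exact (hν.const_cpow (Or.inl hx)).mul h0
    | 1, _ =>
      exact (continuousOn_const.mul ((hν.const_cpow (Or.inl hx)).mul
        (h1.add ((hν.mul h0).div_const _)))).congr fun p hp => b2_G1 (h p hp).1 (h p hp).2
    | j + 2, ih =>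
      have h2 : ContinuousOn (fun p => Rj m (β p) (q p) j X) S :=
        b2_jc_R (G := fun p => Gt m (β p) (q p)) (n := j) m
          (fun p hp => ⟨(h p hp).1.isOpen, (h p hp).2, b2_Gt_sm (h p hp).1⟩)
          (fun i hi => ih i (by omega)) j le_rfl
      exact (continuousOn_const.mul ((h2.sub ((b2cont_cc m j hβ).mul (ih j (by omega)))).sub
        ((((b2cont_kap m j hβ).div_const _).sub continuousOn_const).mul
          (ih (j + 1) (by omega))))).congr fun p hp => b2_rec hm (h p hp).1 j (h p hp).2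

theorem b2_Wr_cont (hm : 1 ≤ m) {X : ℝ} (hX : 0 < X)
    (h : ∀ p ∈ S, SmSol m (β p) (q p) (U p) ∧ X ∈ U p) (hβ : ContinuousOn β S)
    (h0 : ContinuousOn (fun p => q p X) S) (h1 : ContinuousOn (fun p => deriv (q p) X) S) :
    ContinuousOn (fun p => Wr m (β p) (q p) X) S := by
  have hx : (X : ℂ) ≠ 0 := ofReal_ne_zero.2 hX.ne'
  have hν : ContinuousOn (fun p => nu0 m (β p) - 5 / 2 + 4) S :=
    ((b2cont_nu m hβ).sub continuousOn_const).add continuousOn_const
  have a1 : ContinuousOn (fun p => Mj m (β p) (q p) 4 X) S :=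
    (((b2cont_kap m 4 hβ).neg.const_cpow (Or.inl hx)).mul continuousOn_const).mul
      (b2_jc_G hm h hβ h0 h1 _)
  have a2 : ContinuousOn (fun p => yj m (β p) (q p) 4 X) S :=
    (continuousOn_const.mul ((((b2cont_nu m hβ).sub continuousOn_const).add
      continuousOn_const).neg.const_cpow (Or.inl hx))).mul (b2_jc_G hm h hβ h0 h1 _)
  have a3 := b2cont_yF (X := fun _ => X) hν continuousOn_const
    (fun p _ => by linarith [b2cont_re m (β p), b2cont_aa m]) fun _ _ => hX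
  have a4 := b2cont_yF (ν := fun p => nu0 m (β p) - 5 / 2 + 4 + 1) (X := fun _ => X)
    (hν.add continuousOn_const) continuousOn_const
    (fun p _ => by
      rw [add_re, b2cont_re, one_re]
      linarith [b2cont_aa m]) fun _ _ => hX
  exact ((a1.mul ((hν.const_cpow (Or.inl hx)).mul a3)).neg.add
    ((((continuousOn_const.mul (continuousOn_const.sub hν)).mul a2).mul a4).mul
      continuousOn_const)).congr fun p hp => b2_Wr_eq hm (h p hp).1 (h p hp).2

theorem b2_nmis_cont (hm : 1 ≤ m) {B : ℝ}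
    (h : ∀ p ∈ S, SmSol m (β p) (q p) (U p) ∧ Ici 4 ⊆ U p ∧ 0 < X0 p ∧ ∀ X : ℝ, 4 ≤ X →
      ‖limUnder atTop (Wr m (β p) (q p)) - Wr m (β p) (q p) X‖ ≤ B * X ^ (-(1 / 2) : ℝ))
    (hβ : ContinuousOn β S) (hX0 : ContinuousOn X0 S)
    (h0 : ∀ X, ContinuousOn (fun p => q p X) S) (h1 : ∀ X, ContinuousOn (fun p => deriv (q p) X) S) :
    ContinuousOn (fun p => nmis m (β p) (q p) (X0 p)) S := by
  have hν : ContinuousOn (fun p => nu0 m (β p) - 5 / 2 + 4) S :=
    ((b2cont_nu m hβ).sub continuousOn_const).add continuousOn_const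
  have a1 : TendstoUniformlyOn (fun (X : ℝ) p => Wr m (β p) (q p) X)
      (fun p => limUnder atTop (Wr m (β p) (q p))) atTop S := by
    refine Metric.tendstoUniformlyOn_iff.2 fun ε hε => ?_
    have b1 := (tendsto_rpow_neg_atTop (y := 1 / 2) (by norm_num)).const_mul B
    rw [mul_zero] at b1
    filter_upwards [b1.eventually (gt_mem_nhds hε), eventually_ge_atTop 4] with X b2 b3 p hp
    rw [dist_eq_norm]
    exact ((h p hp).2.2.2 X b3).trans_lt b2
  have a2 := a1.continuousOn (Eventually.frequently (by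
    filter_upwards [eventually_ge_atTop 4] with X hX
    exact b2_Wr_cont hm (by linarith) (fun p hp => ⟨(h p hp).1, (h p hp).2.1 hX⟩) hβ (h0 X) (h1 X)))
  have a3 := b2cont_yF hν hX0 (fun p _ => by linarith [b2cont_re m (β p), b2cont_aa m])
    fun p hp => (h p hp).2.2.1
  have a4 : ContinuousOn (fun p => exp (I * X0 p)) S :=
    (continuousOn_const.mul (continuous_ofReal.comp_continuousOn hX0)).cexp
  have a5 : ContinuousOn (fun p => ((X0 p ^ (5 / 2 : ℝ) : ℝ) : ℂ)) S :=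
    continuous_ofReal.comp_continuousOn (hX0.rpow_const fun _ _ => Or.inr (by norm_num))
  refine a2.div ((a3.mul a4).mul a5) fun p hp => ?_
  refine mul_ne_zero (mul_ne_zero (yF_ne (by norm_num) ?_ (h p hp).2.2.1) (exp_ne_zero _))
    (ofReal_ne_zero.2 (Real.rpow_pos_of_pos (h p hp).2.2.1 _).ne')
  linarith [b2cont_re m (β p), b2cont_aa m]

end Vale.Agent.P139
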