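import Vale.Agent.P139.B2.Lad
import Vale.Agent.P139.B2.YF

/-! P139 B2: descent from level four to level zero at `X0`.
Plan: `p_j = Λ y_j`. From `b2_yj_lam` (an identity on the open set `U`, so it can be differentiated)
and `b2_yj_ode`: `y_(j+1) = p_j + ν_j y_j`, `p_(j+1) = (ℓ² - i X ν_j) y_j + (ν_j - i X) p_j + X s_j`
(`b2_p_succ`), hence `b2_row_step`. `W X0 = yF e^(i X0) ((-NF) y_4 + p_4)` (`yF_ne`). Unfold `row`
and use `b2_row_step` four times; the second components of the intermediate rows are bounded since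
`‖NF‖ ≤ 2‖ν‖ + 5/2` (`b2_NF_le`) and `rowStep` multiplies `max ‖r.1‖ ‖r.2‖` by at most `30`
(`‖ν_j‖ ≤ 4`, `X ≤ 4`); `‖X s_j‖ ≤ X^(5/2) r` (`b2_yj_norm`); level zero by `b2_y0`.
Note `((5 / 2 : ℝ) : ℂ)` casts (`push_cast`). -/

noncomputable section

open MeasureTheory Filter Topology Set Complex
open scoped ComplexConjugate ContDiff

namespace Vale.Agent.P139

variable {m : ℕ} {β X : ℝ} {q : ℝ → ℂ} {U : Set ℝ}

theorem b2_p_succ (hm : 1 ≤ m) (h : SmSol m β q U) (j : ℕ) (hX : X ∈ U) :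
    Lam (yj m β q (j + 1)) X =
      ((5 / 2) ^ 2 - I * X * (nu0 m β - 5 / 2 + j)) * yj m β q j X +
        (nu0 m β - 5 / 2 + j - I * X) * Lam (yj m β q j) X + X * sj m β q j X := by
  obtain ⟨h1, h2⟩ := b2_yj_ode hm h j hX
  have h3 : yj m β q (j + 1) =ᶠ[𝓝 X]
      fun Y => Lam (yj m β q j) Y + (nu0 m β - 5 / 2 + j) * yj m β q j Y :=
    (h.isOpen.eventually_mem hX).mono fun Y hY => b2_yj_lam hm h j hY
  have h4 := (h1.hasDerivAt.fun_add ((b2_yj_deriv hm h j hX).differentiableAt.hasDerivAt.const_mul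
    (nu0 m β - 5 / 2 + j))).deriv
  have h5 : Lam (yj m β q (j + 1)) X =
      Lam (Lam (yj m β q j)) X + (nu0 m β - 5 / 2 + j) * Lam (yj m β q j) X := by
    rw [Lam, h3.deriv_eq, h4, Lam, Lam.eq_def (yj m β q j) X]
    ring
  rw [h5]
  linear_combination h2

theorem b2_row_step (hm : 1 ≤ m) (h : SmSol m β q U) (j : ℕ) (hX : X ∈ U) (r : ℂ × ℂ) :
    r.1 * yj m β q (j + 1) X + r.2 * Lam (yj m β q (j + 1)) X =
      (rowStep (nu0 m β - 5 / 2 + j) (5 / 2) X r).1 * yj m β q j X +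
        (rowStep (nu0 m β - 5 / 2 + j) (5 / 2) X r).2 * Lam (yj m β q j) X +
        r.2 * (X * sj m β q j X) := by
  rw [b2_p_succ hm h j hX, b2_yj_lam hm h j hX]
  simp only [rowStep]
  push_cast
  ring

theorem b2desc_step {ν : ℂ} (hν : ‖ν‖ ≤ 4) (hX : |X| ≤ 4) (r : ℂ × ℂ) :
    ‖rowStep ν (5 / 2) X r‖ ≤ 30 * ‖r‖ := by
  have h1 := norm_fst_le r
  have h2 := norm_snd_le r
  have h0 := norm_nonneg r
  have h3 : ‖I * X‖ ≤ 4 := by rwa [norm_mul, norm_I, one_mul, norm_real]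
  have h4 : ‖(((5 / 2 : ℝ) : ℂ)) ^ 2 - I * X * ν‖ ≤ 7 + 4 * 4 := by
    refine norm_sub_le_of_le ?_ ((norm_mul_le _ _).trans (mul_le_mul h3 hν (norm_nonneg _) (by norm_num)))
    rw [norm_pow, norm_real]
    norm_num
  refine norm_prod_le_iff.2 ⟨(norm_add_le_of_le (norm_mul_le_of_le h1 hν)
    (norm_mul_le_of_le h2 h4)).trans (by linarith), (norm_add_le_of_le h1
    (norm_mul_le_of_le h2 (norm_sub_le_of_le hν h3))).trans (by linarith)⟩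

theorem b2_desc : ∃ K : ℝ, 1 ≤ K ∧ ∀ (m : ℕ) (β X0 r : ℝ) (q : ℝ → ℂ) (U : Set ℝ), 8 ≤ m →
    β ∈ Icc (1 / 4 : ℝ) (1 / 2) → X0 ∈ Icc (2 : ℝ) 4 → SmSol m β q U → X0 ∈ U →
    (∀ j ≤ 3, ‖Rj m β q j X0‖ ≤ r) →
    ‖Wr m β q X0 / (yF (nu0 m β - 5 / 2 + 4) (5 / 2) X0 * exp (I * X0) *
      ((X0 ^ (5 / 2 : ℝ) : ℝ) : ℂ)) - mis0 m β q X0‖ ≤ K * r := by
  refine ⟨4 * (11 * 30 ^ 3), by norm_num, fun m β X r q U hm hβ hX h hU hr => ?_⟩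
  have hm1 : 1 ≤ m := by omega
  have hX0 : 0 < X := by linarith [hX.1]
  have hm' : (8 : ℝ) ≤ m := by exact_mod_cast hm
  have ha : 0 < aa m := by unfold aa; positivity
  have ha' : aa m ≤ 1 / 2 := one_div_le_one_div_of_le two_pos (by linarith)
  have hν : ∀ j : ℕ, j ≤ 4 → ‖nu0 m β - 5 / 2 + j‖ ≤ 4 := fun j hj => by
    have hj' : (j : ℝ) ≤ 4 := by exact_mod_cast hj
    have hj0 : (0 : ℝ) ≤ j := j.cast_nonneg
    refine (norm_le_abs_re_add_abs_im _).trans ?_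
    have e1 : (nu0 m β - 5 / 2 + j).re = aa m - 5 / 2 + j := by simp [nu0]
    have e2 : (nu0 m β - 5 / 2 + j).im = -β := by simp [nu0]
    rw [e1, e2, abs_neg, abs_of_nonneg (by linarith [hβ.1] : 0 ≤ β)]
    have : |aa m - 5 / 2 + j| ≤ 3 := abs_le.2 ⟨by linarith, by linarith⟩
    linarith [hβ.2]
  have hre : 1 / 2 < (nu0 m β - 5 / 2 + 4).re := by
    have e1 : (nu0 m β - 5 / 2 + 4).re = aa m - 5 / 2 + 4 := by simp [nu0]
    rw [e1]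
    linarith
  have hP : 0 < X ^ (5 / 2 : ℝ) := Real.rpow_pos_of_pos hX0 _
  have hr0 : 0 ≤ r := (norm_nonneg _).trans (hr 0 (by norm_num))
  have hs : ∀ j ≤ 3, ‖X * sj m β q j X‖ ≤ X ^ (5 / 2 : ℝ) * r := fun j hj => by
    rw [norm_mul, (b2_yj_norm m β q j hX0).2, norm_real, Real.norm_of_nonneg hX0.le, ← mul_assoc,
      mul_comm X, ← Real.rpow_add_one hX0.ne']
    exact mul_le_mul (Real.rpow_le_rpow_of_exponent_le (by linarith [hX.1])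
      (by linarith [(j.cast_nonneg : (0 : ℝ) ≤ j)])) (hr j hj) (norm_nonneg _) hP.le
  have hX4 : |X| ≤ 4 := by rw [abs_of_pos hX0]; exact hX.2
  obtain ⟨r4, e4⟩ : ∃ r4 : ℂ × ℂ, r4 = (-NF (nu0 m β - 5 / 2 + 4) (5 / 2) X, 1) := ⟨_, rfl⟩
  obtain ⟨r3, e3⟩ : ∃ r3, r3 = rowStep (nu0 m β - 5 / 2 + (3 : ℕ)) (5 / 2) X r4 := ⟨_, rfl⟩
  obtain ⟨r2, e2⟩ : ∃ r2, r2 = rowStep (nu0 m β - 5 / 2 + (2 : ℕ)) (5 / 2) X r3 := ⟨_, rfl⟩
  obtain ⟨r1, e1⟩ : ∃ r1, r1 = rowStep (nu0 m β - 5 / 2 + (1 : ℕ)) (5 / 2) X r2 := ⟨_, rfl⟩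
  have e0 : row (nu0 m β - 5 / 2) (5 / 2) X =
      rowStep (nu0 m β - 5 / 2 + (0 : ℕ)) (5 / 2) X r1 := by
    rw [e1, e2, e3, e4, row]
    simp only [Nat.cast_zero, add_zero, Nat.cast_one, Nat.cast_ofNat]
  have n4 : ‖r4‖ ≤ 11 := by
    have h1 := b2_NF_le hre hX0
    have h2 := hν 4 le_rfl
    rw [Nat.cast_ofNat] at h2
    rw [e4, norm_prod_le_iff, norm_neg, norm_one]
    exact ⟨by linarith, by norm_num⟩
  have n3 : ‖r3‖ ≤ 30 * ‖r4‖ := e3 ▸ b2desc_step (hν 3 (by norm_num)) hX4 r4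
  have n2 : ‖r2‖ ≤ 30 * ‖r3‖ := e2 ▸ b2desc_step (hν 2 (by norm_num)) hX4 r3
  have n1 : ‖r1‖ ≤ 30 * ‖r2‖ := e1 ▸ b2desc_step (hν 1 (by norm_num)) hX4 r2
  have s3 := b2_row_step hm1 h 3 hU r4
  have s2 := b2_row_step hm1 h 2 hU r3
  have s1 := b2_row_step hm1 h 1 hU r2
  have s0 := b2_row_step hm1 h 0 hU r1
  rw [← e3] at s3
  rw [← e2] at s2
  rw [← e1] at s1
  rw [← e0, (b2_y0 h hU).1, (b2_y0 h hU).2] at s0
  have hy : yF (nu0 m β - 5 / 2 + 4) (5 / 2) X ≠ 0 := yF_ne (by norm_num) hre hX0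
  have hP' : ((X ^ (5 / 2 : ℝ) : ℝ) : ℂ) ≠ 0 := ofReal_ne_zero.2 hP.ne'
  have hw : Wr m β q X = yF (nu0 m β - 5 / 2 + 4) (5 / 2) X * exp (I * X) *
      (r4.1 * yj m β q 4 X + r4.2 * Lam (yj m β q 4) X) := by
    rw [e4, Wr, NF]
    linear_combination (exp (I * X) * yj m β q 4 X) *
      mul_div_cancel₀ (Lam (yF (nu0 m β - 5 / 2 + 4) (5 / 2)) X) hy
  have e : Wr m β q X / (yF (nu0 m β - 5 / 2 + 4) (5 / 2) X * exp (I * X) *
      ((X ^ (5 / 2 : ℝ) : ℝ) : ℂ)) - mis0 m β q X =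
      (r4.2 * (X * sj m β q 3 X) + r3.2 * (X * sj m β q 2 X) + r2.2 * (X * sj m β q 1 X) +
        r1.2 * (X * sj m β q 0 X)) / ((X ^ (5 / 2 : ℝ) : ℝ) : ℂ) := by
    rw [hw, mul_div_mul_left _ _ (mul_ne_zero hy (exp_ne_zero _)), eq_div_iff hP', sub_mul,
      div_mul_cancel₀ _ hP', mis0]
    linear_combination s3 + s2 + s1 + s0
  have b : ∀ (ρ : ℂ × ℂ) (j : ℕ), ‖ρ‖ ≤ 11 * 30 ^ 3 → j ≤ 3 →
      ‖ρ.2 * (X * sj m β q j X)‖ ≤ 11 * 30 ^ 3 * (X ^ (5 / 2 : ℝ) * r) := fun ρ j h1 hj => by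
    rw [norm_mul]
    exact mul_le_mul ((norm_snd_le ρ).trans h1) (hs j hj) (norm_nonneg _) (by norm_num)
  rw [e, norm_div, norm_real, Real.norm_of_nonneg hP.le, div_le_iff₀ hP]
  refine (norm_add_le_of_le (norm_add_le_of_le (norm_add_le_of_le (b r4 3 (by linarith) le_rfl)
    (b r3 2 (by linarith) (by norm_num))) (b r2 1 (by linarith) (by norm_num)))
    (b r1 0 (by linarith) (by norm_num))).trans_eq ?_
  ring

end Vale.Agent.P139
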