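import Vale.Agent.P139.B2.Lin

/-! P139 B2: gain of one power when `M → 0`. -/

noncomputable section

open MeasureTheory Filter Topology Set Complex
open scoped ComplexConjugate ContDiff

namespace Vale.Agent.P139

theorem b2gain_src {c : ℂ} {x y : ℂ} {A b : ℝ} (hc : ‖c‖ ≤ A) (hx : ‖x‖ ≤ b) (hy : ‖y‖ ≤ b) :
    ‖c * x - y‖ ≤ (A + 1) * b := by
  refine (norm_sub_le _ _).trans ?_
  rw [norm_mul]
  have := mul_le_mul hc hx (norm_nonneg _) ((norm_nonneg _).trans hc)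
  linarith

theorem b2_gain_h {κ c : ℂ} {g h R : ℝ → ℂ} {X0 A B t : ℝ} (hκ : 4 ≤ κ.re) (hc : ‖c‖ ≤ A)
    (h0 : 0 < X0) (ht : t ≤ 5 / 2) (H : Lev κ c g h R (Ici X0))
    (hM : Tendsto (fun Y : ℝ => (Y : ℂ) ^ (-κ) * exp (I * Y) * h Y) atTop (𝓝 0))
    (hg : ∀ X, X0 ≤ X → ‖g X‖ ≤ B * X ^ t) (hR : ∀ X, X0 ≤ X → ‖R X‖ ≤ B * X ^ t) :
    ∀ X, X0 ≤ X → ‖h X‖ ≤ 2 * (A + 1) * B * X ^ (t + 1) := by
  intro X hX
  have hX0 : 0 < X := by linarith
  have hA : 0 ≤ A := (norm_nonneg _).trans hc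
  have hB : 0 ≤ B := nonneg_of_mul_nonneg_left ((norm_nonneg _).trans (hg X hX))
    (Real.rpow_pos_of_pos hX0 _)
  have e := b2_atTop (B := (A + 1) * B) (p := κ.re - t - 1) hX0 (by linarith)
    (fun s hs => b2_M_deriv H (show s ∈ Ici X0 from hX.trans hs) (by linarith)) (fun s hs => by
      have hs0 : 0 < s := by linarith
      rw [b2_M_norm _ _ hs0]
      refine (mul_le_mul_of_nonneg_left (b2gain_src hc (hg s (hX.trans hs)) (hR s (hX.trans hs)))
        (by positivity)).trans (le_of_eq ?_)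
      rw [show -(κ.re - t - 1) - 1 = -κ.re + t by ring, Real.rpow_add hs0]
      ring) hM
  rw [b2_M_norm _ _ hX0, show -(κ.re - t - 1) = -κ.re + (t + 1) by ring, Real.rpow_add hX0,
    mul_left_comm] at e
  refine (le_of_mul_le_mul_left e (Real.rpow_pos_of_pos hX0 _)).trans
    (mul_le_mul_of_nonneg_right ?_ (by positivity))
  rw [div_le_iff₀ (by linarith)]
  have : 0 ≤ (A + 1) * B := by positivity
  nlinarith

theorem b2_gain (A : ℝ) : ∃ K : ℝ, 1 ≤ K ∧ ∀ (κ c : ℂ) (g h R : ℝ → ℂ) (X0 B t : ℝ),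
    4 ≤ κ.re → ‖κ‖ ≤ A → ‖c‖ ≤ A → X0 ∈ Icc (1 : ℝ) 4 → t ∈ Icc (0 : ℝ) (5 / 2) →
    1 / 2 ≤ |t - 1| → Lev κ c g h R (Ici X0) →
    Tendsto (fun Y : ℝ => (Y : ℂ) ^ (-κ) * exp (I * Y) * h Y) atTop (𝓝 0) →
    (∀ X, X0 ≤ X → ‖g X‖ ≤ B * X ^ t) → (∀ X, X0 ≤ X → ‖R X‖ ≤ B * X ^ t) →
    ∀ X, X0 ≤ X → ‖g X‖ ≤ K * B * X ^ max (t - 1) 0 := by
  refine ⟨max 1 (4 * (64 * ((A + 1) * (2 * A + 5)))), le_max_left _ _,
    fun κ c g h R X0 B t hκ hκA hc hX0 ht ht' H hM hg hR X hX => ?_⟩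
  have h1 := hX0.1
  have hA : 0 ≤ A := (norm_nonneg _).trans hc
  have hB : 0 ≤ B := nonneg_of_mul_nonneg_left ((norm_nonneg _).trans (hg X hX))
    (Real.rpow_pos_of_pos (by linarith) _)
  have hh := b2_gain_h hκ hc (by linarith) ht.2 H hM hg hR
  set L := (A + 1) * (2 * A + 5) with hL
  have hn : ∀ s : ℝ, X0 ≤ s → ‖(s : ℂ)‖ = s := fun s hs => by
    rw [Complex.norm_real, Real.norm_of_nonneg (by linarith)]
  have hAB : 0 ≤ (A + 1) * B := by positivity
  have hLB : 2 * (A + 1) * B + B ≤ L * B := by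
    have : 2 * (A + 1) + 1 ≤ L := by nlinarith
    nlinarith
  have hq : ∀ s, X0 ≤ s → ‖I * h s / s ^ 2‖ ≤ 2 * (A + 1) * B * s ^ (t - 1) := fun s hs => by
    have hs0 : 0 < s := by linarith
    rw [norm_div, norm_mul, norm_I, one_mul, norm_pow, hn s hs, div_le_iff₀ (by positivity)]
    refine (hh s hs).trans (le_of_eq ?_)
    rw [show t + 1 = t - 1 + (2 : ℕ) by push_cast; ring, Real.rpow_add hs0, Real.rpow_natCast]
    ring
  have e := b2_step (g := fun Y : ℝ => g Y + I * h Y / Y ^ 2)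
    (h := fun s => -(I * (κ - 2) * h s / s + I * (c * g s - R s))) (Y := X) (B := 64 * (L * B))
    h1 ht' (fun s hs => by
      have hs0 : (s : ℂ) ≠ 0 := by exact_mod_cast (by linarith [hs.1] : s ≠ 0)
      convert b2_hat_deriv H (show s ∈ Ici X0 from hs.1) (by linarith [hs.1]) using 1
      field_simp)
    (by
      have p1 : X0 ^ t ≤ 64 := calc
        X0 ^ t ≤ X0 ^ ((3 : ℕ) : ℝ) := Real.rpow_le_rpow_of_exponent_le h1 (by
          push_cast; linarith [ht.2])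
        _ ≤ 64 := by
          rw [Real.rpow_natCast]
          exact (pow_le_pow_left₀ (by linarith) hX0.2 3).trans (by norm_num)
      have p2 : X0 ^ (t - 1) ≤ X0 ^ t := Real.rpow_le_rpow_of_exponent_le h1 (by linarith)
      refine (norm_add_le _ _).trans ((add_le_add (hg X0 le_rfl) (hq X0 le_rfl)).trans ?_)
      nlinarith)
    (fun s hs => by
      have hs0 : 0 < s := by linarith [hs.1]
      have p1 : ‖κ - 2‖ ≤ A + 2 := (norm_sub_le _ _).trans (by simpa using hκA)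
      have p2 : ‖I * (κ - 2) * h s / s‖ ≤ (A + 2) * (2 * (A + 1) * B * s ^ t) := by
        rw [norm_div, norm_mul, norm_mul, norm_I, one_mul, hn s hs.1, div_le_iff₀ hs0]
        refine (mul_le_mul p1 (hh s hs.1) (norm_nonneg _) (by linarith)).trans (le_of_eq ?_)
        rw [Real.rpow_add hs0, Real.rpow_one]
        ring
      have p3 : ‖I * (c * g s - R s)‖ ≤ (A + 1) * (B * s ^ t) := by
        rw [norm_mul, norm_I, one_mul]
        exact b2gain_src hc (hg s hs.1) (hR s hs.1)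
      rw [norm_neg]
      refine (norm_add_le _ _).trans ((add_le_add p2 p3).trans ?_)
      have : 0 ≤ L * B * s ^ t := by positivity
      have e : (A + 2) * (2 * (A + 1) * B * s ^ t) + (A + 1) * (B * s ^ t) = L * B * s ^ t := by
        rw [hL]; ring
      linarith) X ⟨hX, le_rfl⟩
  have p1 : X ^ (t - 1) ≤ X ^ max (t - 1) 0 :=
    Real.rpow_le_rpow_of_exponent_le (by linarith) (le_max_left _ _)
  have p0 : 0 ≤ X ^ max (t - 1) 0 := Real.rpow_nonneg (by linarith) _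
  have p2 := norm_sub_le (g X + I * h X / X ^ 2) (I * h X / X ^ 2)
  rw [add_sub_cancel_right] at p2
  have p3 : 2 * (A + 1) * B * X ^ (t - 1) ≤ L * B * X ^ max (t - 1) 0 :=
    mul_le_mul (by linarith) p1 (Real.rpow_nonneg (by linarith) _) (by positivity)
  have p4 : 0 ≤ L * B * X ^ max (t - 1) 0 := by positivity
  have p5 : 4 * (64 * L) * (B * X ^ max (t - 1) 0) ≤
      max 1 (4 * (64 * L)) * (B * X ^ max (t - 1) 0) :=
    mul_le_mul_of_nonneg_right (le_max_right _ _) (by positivity)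
  have := hq X hX
  nlinarith

end Vale.Agent.P139
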