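import Vale.Agent.P139.B2.Du

/-! P139 B2: regularity and the level equations.
Plan: `b2_smsol`: on `U` the cut off is inactive, `deriv (deriv q) = (|q|^(2m) q - .. ) / X`; prove
`ContDiffOn ℝ n q U ∧ ContDiffOn ℝ n (deriv q) U` by induction on `n`
(`contDiffOn_succ_iff_deriv_of_isOpen`, `contDiffOn_infty`; `(normSq z : ℂ) = z * conj z`).
`b2_lev0`: with `G = X^ν₀ q`: `G' = X^ν₀ (q' + ν₀ q / X)`, `G_1 = -X² G'`; compute `G_1'` from the
equation (`β + i a = i ν₀`), and `normSq (G X) ^ m = X * normSq (q X) ^ m` as `2 m a = 1`.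
`b2_rec` for all `j`: level `0` is `b2_lev0` (`G_1' = -G_2 / X²`); it says on `U`
`Y⁻¹ * (Y⁻¹ * G_2) + κ_0 * (Y⁻¹ * G_1) - i G_1 + c_0 G_0 = R_0`; induction on `j`: apply `Du` once
(`b2_Du_congr`, `b2_Du_add`, `b2_Du_cmul`, `b2_Du_inv` with `k = 1`; or take derivatives directly
with `b2_Du_deriv`), `κ_(j+1) = κ_j + 2`, `c_(j+1) = c_j + κ_j`. `b2_lev` follows. -/

noncomputable section

open MeasureTheory Filter Topology Set Complex
open scoped ComplexConjugate ContDiff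

namespace Vale.Agent.P139

variable {m : ℕ} {β X : ℝ} {q : ℝ → ℂ} {U : Set ℝ}

theorem b2ode_nsq {n : WithTop ℕ∞} {f : ℝ → ℂ} (hf : ContDiffOn ℝ n f U) :
    ContDiffOn ℝ n (fun X => (normSq (f X) : ℂ)) U := by
  simp only [← mul_conj]
  exact hf.mul (conjCLE.contDiff.comp_contDiffOn hf)

theorem b2ode_cpow (ν : ℂ) (hX : 0 < X) :
    HasDerivAt (fun Y : ℝ => (Y : ℂ) ^ ν) (ν * (X : ℂ) ^ ν / X) X := by
  have h := ((hasDerivAt_id (X : ℂ)).cpow_const (c := ν) (ofReal_mem_slitPlane.2 hX)).comp_ofReal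
  refine h.congr_deriv ?_
  rw [id, cpow_sub _ _ (ofReal_ne_zero.2 hX.ne'), cpow_one, mul_one, mul_div_assoc]

theorem b2ode_re (m : ℕ) (β : ℝ) : (nu0 m β).re = aa m := by simp [nu0]

theorem b2_smsol (h : Sol m β q) (hU : IsOpen U) (h0 : U ⊆ Ioi 0)
    (h4 : ∀ X ∈ U, normSq (q X) ^ m ≤ 4) : SmSol m β q U := by
  have hF : ∀ X ∈ U, FK m β (q X) = ((normSq (q X) : ℂ) ^ m - β - I * aa m) * q X := fun X hX => by
    rw [FK, PK, min_eq_left (h4 X hX), ofReal_pow]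
  have hre : ∀ n : WithTop ℕ∞, ContDiffOn ℝ n (fun X : ℝ => (X : ℂ)) U := fun n =>
    ofRealCLM.contDiff.contDiffOn
  have key : ∀ n : ℕ, ContDiffOn ℝ n q U ∧ ContDiffOn ℝ n (deriv q) U := by
    intro n
    induction n with
    | zero => exact ⟨contDiffOn_zero.2 h.d1.continuous.continuousOn,
        contDiffOn_zero.2 h.c1.continuousOn⟩
    | succ n ih =>
      rw [Nat.cast_succ, contDiffOn_succ_iff_deriv_of_isOpen hU,
        contDiffOn_succ_iff_deriv_of_isOpen hU]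
      refine ⟨⟨h.d1.differentiableOn, by simp, ih.2⟩,
        fun X hX => (h.d2 X (h0 hX)).differentiableAt.differentiableWithinAt, by simp, ?_⟩
      refine ContDiffOn.congr (f := fun X => (((normSq (q X) : ℂ) ^ m - β - I * aa m) * q X -
        (6 + I * X) * deriv q X) * (X : ℂ)⁻¹) ?_ fun X hX => ?_
      · exact ((((((b2ode_nsq ih.1).pow m).sub contDiffOn_const).sub contDiffOn_const).mul ih.1).sub
          ((contDiffOn_const.add (contDiffOn_const.mul (hre n))).mul ih.2)).mul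
          ((hre n).inv fun X hX => ofReal_ne_zero.2 (ne_of_gt (h0 hX)))
      · rw [(h.d2 X (h0 hX)).deriv, hF X hX, div_eq_mul_inv]
  refine ⟨hU, h0, contDiffOn_infty.2 fun n => (key n).1, fun X hX => ?_⟩
  have : (X : ℂ) ≠ 0 := ofReal_ne_zero.2 (ne_of_gt (h0 hX))
  rw [(h.d2 X (h0 hX)).deriv, hF X hX]
  field_simp
  ring

theorem b2_Gt_sm (h : SmSol m β q U) : ContDiffOn ℝ ∞ (Gt m β q) U := by
  refine ContDiffOn.mul (fun X hX => ContDiffAt.contDiffWithinAt ?_) h.sm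
  have a1 : AnalyticAt ℂ (fun z : ℂ => z ^ nu0 m β) (ofRealCLM X) :=
    analyticAt_id.cpow analyticAt_const (ofReal_mem_slitPlane.2 (h.pos hX))
  exact (a1.contDiffAt.restrict_scalars ℝ).comp X ofRealCLM.contDiff.contDiffAt

theorem b2_R0_sm (h : SmSol m β q U) :
    ContDiffOn ℝ ∞ (fun X => (normSq (Gt m β q X) : ℂ) ^ m * Gt m β q X) U :=
  ((b2ode_nsq (b2_Gt_sm h)).pow m).mul (b2_Gt_sm h)

theorem b2_Gt_norm (m : ℕ) (β : ℝ) (q : ℝ → ℂ) (hX : 0 < X) :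
    ‖Gt m β q X‖ = X ^ aa m * ‖q X‖ := by
  rw [Gt, norm_mul, norm_cpow_eq_rpow_re_of_pos hX, b2ode_re]

theorem b2_G1 (h : SmSol m β q U) (hX : X ∈ U) : Gj m β q 1 X =
    -(X : ℂ) ^ 2 * ((X : ℂ) ^ nu0 m β * (deriv q X + nu0 m β * q X / X)) := by
  have d1 := ((h.sm.contDiffAt (h.isOpen.mem_nhds hX)).differentiableAt (by simp)).hasDerivAt
  have d : HasDerivAt (Gt m β q) _ X := (b2ode_cpow (nu0 m β) (h.pos hX)).mul d1
  show -(X : ℂ) ^ 2 * deriv (Gt m β q) X = _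
  rw [d.deriv]
  ring

theorem b2_lev0 (hm : 1 ≤ m) (h : SmSol m β q U) (hX : X ∈ U) : HasDerivAt (Gj m β q 1)
    ((kap m β 0 / X - I) * Gj m β q 1 X + cc m β 0 * Gj m β q 0 X - Rj m β q 0 X) X := by
  have hX0 : 0 < X := h.pos hX
  have hX1 : (X : ℂ) ≠ 0 := ofReal_ne_zero.2 hX0.ne'
  have d1 := ((h.sm.contDiffAt (h.isOpen.mem_nhds hX)).differentiableAt (by simp)).hasDerivAt
  have d2 := ((((contDiffOn_infty_iff_deriv_of_isOpen h.isOpen).1 h.sm).2.contDiffAt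
    (h.isOpen.mem_nhds hX)).differentiableAt (by simp)).hasDerivAt
  have dX : HasDerivAt (fun Y : ℝ => (Y : ℂ)) 1 X := ofRealCLM.hasDerivAt
  have d := ((dX.pow 2).neg.mul ((b2ode_cpow (nu0 m β) hX0).mul
    (d2.add ((d1.const_mul (nu0 m β)).div dX hX1))))
  have e : Gj m β q 1 =ᶠ[𝓝 X] fun Y : ℝ =>
      -(Y : ℂ) ^ 2 * ((Y : ℂ) ^ nu0 m β * (deriv q Y + nu0 m β * q Y / Y)) := by
    filter_upwards [h.isOpen.mem_nhds hX] with Y hY using b2_G1 h hY
  refine HasDerivAt.congr_deriv (d.congr_of_eventuallyEq e) ?_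
  have hN : normSq (Gt m β q X) ^ m = X * normSq (q X) ^ m := by
    have hm0 : (m : ℝ) ≠ 0 := Nat.cast_ne_zero.2 (by omega)
    have e2 : aa m * ((2 * m : ℕ) : ℝ) = 1 := by
      unfold aa
      push_cast
      field_simp
    rw [normSq_eq_norm_sq, normSq_eq_norm_sq, b2_Gt_norm m β q hX0, mul_pow, mul_pow, ← pow_mul,
      ← Real.rpow_natCast, ← Real.rpow_mul hX0.le, e2, Real.rpow_one]
  have hR : Rj m β q 0 X = X * ((normSq (q X) : ℂ) ^ m * q X) * (X : ℂ) ^ nu0 m β := by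
    show (normSq (Gt m β q X) : ℂ) ^ m * Gt m β q X = _
    rw [← ofReal_pow, hN, Gt]
    push_cast
    ring
  have hν : (β : ℂ) + I * aa m = I * nu0 m β := by
    unfold nu0
    linear_combination (β : ℂ) * I_mul_I
  have hG : Gj m β q 0 X = (X : ℂ) ^ nu0 m β * q X := rfl
  rw [b2_G1 h hX, hR, hG, ← h.ode X hX, hν, kap, cc]
  simp only [Pi.pow_apply, Pi.neg_apply, Pi.mul_apply, Pi.add_apply, Pi.div_apply]
  push_cast
  field_simp
  ring

theorem b2_rec (hm : 1 ≤ m) (h : SmSol m β q U) (j : ℕ) (hX : X ∈ U) : Gj m β q (j + 2) X =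
    (X : ℂ) ^ 2 * (Rj m β q j X - cc m β j * Gj m β q j X -
      (kap m β j / X - I) * Gj m β q (j + 1) X) := by
  induction j generalizing X with
  | zero =>
    have e : Gj m β q (0 + 2) X = -(X : ℂ) ^ 2 * deriv (Gj m β q 1) X := rfl
    rw [e, (b2_lev0 hm h hX).deriv]
    ring
  | succ j ih =>
    have hX0 : X ≠ 0 := ne_of_gt (h.pos hX)
    have hX1 : (X : ℂ) ≠ 0 := ofReal_ne_zero.2 hX0
    have dG : ∀ i, HasDerivAt (Gj m β q i) (-Gj m β q (i + 1) X / X ^ 2) X := fun i =>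
      b2_Du_deriv h.isOpen (b2_Gt_sm h) i hX hX0
    have dR : HasDerivAt (Rj m β q j) (-Rj m β q (j + 1) X / X ^ 2) X :=
      b2_Du_deriv h.isOpen (b2_R0_sm h) j hX hX0
    have dX : HasDerivAt (fun Y : ℝ => (Y : ℂ)) 1 X := ofRealCLM.hasDerivAt
    have d := (dX.pow 2).mul ((dR.sub ((dG j).const_mul (cc m β j))).sub
      ((((hasDerivAt_const X (kap m β j)).div dX hX1).sub_const I).mul (dG (j + 1))))
    have e : Gj m β q (j + 2) =ᶠ[𝓝 X] fun Y : ℝ => (Y : ℂ) ^ 2 * (Rj m β q j Y -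
        cc m β j * Gj m β q j Y - (kap m β j / Y - I) * Gj m β q (j + 1) Y) := by
      filter_upwards [h.isOpen.mem_nhds hX] with Y hY using ih hY
    have e2 := (dG (j + 2)).unique (d.congr_of_eventuallyEq e)
    have e3 := ih hX
    have k1 : kap m β (j + 1) = kap m β j + 2 := by unfold kap; push_cast; ring
    have k2 : cc m β (j + 1) = cc m β j + kap m β j := by unfold kap cc; push_cast; ring
    simp only [Pi.pow_apply, Pi.mul_apply, Pi.sub_apply, Pi.div_apply] at e2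
    have e4 : Rj m β q j X - cc m β j * Gj m β q j X -
        (kap m β j / X - I) * Gj m β q (j + 1) X = Gj m β q (j + 2) X / X ^ 2 := by
      rw [e3]
      field_simp
    rw [e4, div_eq_iff (pow_ne_zero 2 hX1), neg_eq_iff_eq_neg] at e2
    rw [k1, k2]
    refine e2.trans ?_
    push_cast
    field_simp
    ring

theorem b2_lev (hm : 1 ≤ m) (h : SmSol m β q U) (j : ℕ) :
    Lev (kap m β j) (cc m β j) (Gj m β q j) (Gj m β q (j + 1)) (Rj m β q j) U := fun X hX => by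
  have hX0 : X ≠ 0 := ne_of_gt (h.pos hX)
  have hX1 : (X : ℂ) ≠ 0 := ofReal_ne_zero.2 hX0
  refine ⟨b2_Du_deriv h.isOpen (b2_Gt_sm h) j hX hX0, ?_⟩
  have d : HasDerivAt (Gj m β q (j + 1)) (-Gj m β q (j + 2) X / X ^ 2) X :=
    b2_Du_deriv h.isOpen (b2_Gt_sm h) (j + 1) hX hX0
  refine d.congr_deriv ?_
  rw [b2_rec hm h j hX]
  field_simp
  ring

theorem b2_coef (hm : 8 ≤ m) (hβ : β ∈ Icc (1 / 4 : ℝ) (1 / 2)) (j : ℕ) :
    (kap m β j).re = 2 * aa m + 2 * j - 4 ∧ 0 < aa m ∧ aa m ≤ 1 / 16 ∧ ‖nu0 m β‖ ≤ 1 ∧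
      ‖kap m β j‖ ≤ 2 * j + 6 ∧ ‖cc m β j‖ ≤ (j + 1) * (j + 6) := by
  have h8 : (8 : ℝ) ≤ m := by exact_mod_cast hm
  have a0 : 0 < aa m := by unfold aa; positivity
  have a1 : aa m ≤ 1 / 16 := one_div_le_one_div_of_le (by norm_num) (by linarith)
  have a2 : ‖nu0 m β‖ ≤ 1 := by
    refine (norm_sub_le _ _).trans ?_
    rw [norm_mul, norm_I, one_mul, norm_real, norm_real, Real.norm_of_nonneg a0.le,
      Real.norm_of_nonneg (by linarith [hβ.1])]
    linarith [hβ.2]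
  have a3 : ‖nu0 m β + j‖ ≤ j + 1 := by
    refine (norm_add_le _ _).trans ?_
    rw [norm_natCast]
    linarith
  refine ⟨by simp [kap, b2ode_re], a0, a1, a2, ?_, ?_⟩
  · have e : kap m β j = 2 * (nu0 m β + j) - 4 := by unfold kap; ring
    rw [e]
    refine (norm_sub_le _ _).trans ?_
    rw [norm_mul, norm_ofNat, norm_ofNat]
    linarith
  · rw [cc, norm_mul]
    refine mul_le_mul a3 ((norm_sub_le _ _).trans ?_) (norm_nonneg _) (by positivity)
    rw [norm_ofNat]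
    linarith

end Vale.Agent.P139
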