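import Vale.Agent.P139.B2.Pow
import Vale.Agent.P139.B2.Ode
import Vale.Agent.P139.B2.Gain

/-! P139 B2: all jets are bounded (no uniformity). -/

noncomputable section

open MeasureTheory Filter Topology Set Complex
open scoped ComplexConjugate ContDiff

namespace Vale.Agent.P139

variable {m : ℕ} {β X0 θ : ℝ} {q : ℝ → ℂ} {U : Set ℝ}

theorem b2jet_supA (j : ℕ) {t : ℝ} (ht : 0 ≤ t) :
    SupA (j + 1) fun i => if i = j + 1 then t else 0 := by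
  refine ⟨by simp, fun i k hik => ?_⟩
  dsimp only
  split_ifs <;> first | omega | linarith

theorem b2jet_gain (hm : 8 ≤ m) (hβ : β ∈ Icc (1 / 4 : ℝ) (1 / 2)) (hX0 : X0 ∈ Icc (2 : ℝ) 4)
    (h : SmSol m β q U) (hU : Ici X0 ⊆ U) (hθ : θ < 1) (hG : ∀ X, X0 ≤ X → ‖Gt m β q X‖ ≤ θ)
    {j : ℕ} (hj : 4 ≤ j) {B t : ℝ} (hb : ∀ i ≤ j, ∀ X, X0 ≤ X → ‖Gj m β q i X‖ ≤ B)
    (hM : Tendsto (Mj m β q (j + 1)) atTop (𝓝 0)) (ht : t ∈ Icc (0 : ℝ) (5 / 2))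
    (ht' : 1 / 2 ≤ |t - 1|) (hg : ∃ B', ∀ X, X0 ≤ X → ‖Gj m β q (j + 1) X‖ ≤ B' * X ^ t) :
    ∃ B', ∀ X, X0 ≤ X → ‖Gj m β q (j + 1) X‖ ≤ B' * X ^ max (t - 1) 0 := by
  obtain ⟨B', hg⟩ := hg
  have h2 := hX0.1
  obtain ⟨A, hA, HR⟩ := b2_Rbound (j + 1) m hθ (max B B')
  obtain ⟨k1, ha0, -⟩ := b2_coef hm hβ (j + 1)
  obtain ⟨K, hK, H⟩ := b2_gain (max ‖kap m β (j + 1)‖ ‖cc m β (j + 1)‖)
  have hj' : (4 : ℝ) ≤ j := by exact_mod_cast hj
  have hp : ∀ X, X0 ≤ X → 0 ≤ X ^ t := fun X hX => Real.rpow_nonneg (by linarith) _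
  refine ⟨K * max A B', H _ _ _ _ _ X0 _ t (by rw [k1]; push_cast; linarith) (le_max_left _ _)
    (le_max_right _ _) ⟨by linarith, hX0.2⟩ ht ht'
    (fun X hX => b2_lev (show 1 ≤ m by omega) h (j + 1) X (hU hX)) hM
    (fun X hX => (hg X hX).trans (mul_le_mul_of_nonneg_right (le_max_right _ _) (hp X hX)))
    (fun X hX => ?_)⟩
  have e := HR _ U _ X h.isOpen (b2_Gt_sm h) (hU hX) (by linarith) (b2jet_supA j ht.1) (hG X hX)
    (fun i hi => by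
      split_ifs with hi'
      · subst hi'
        exact (hg X hX).trans (mul_le_mul_of_nonneg_right (le_max_right _ _) (hp X hX))
      · simpa [Gj] using Or.inl (hb i (by omega) X hX)) (j + 1) le_rfl
  rw [if_pos rfl] at e
  exact e.trans (mul_le_mul_of_nonneg_right (le_max_left _ _) (hp X hX))

theorem b2_jet_step (hm : 8 ≤ m) (hβ : β ∈ Icc (1 / 4 : ℝ) (1 / 2)) (hX0 : X0 ∈ Icc (2 : ℝ) 4)
    (h : SmSol m β q U) (hU : Ici X0 ⊆ U) (hθ : θ < 1) (hG : ∀ X, X0 ≤ X → ‖Gt m β q X‖ ≤ θ)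
    {j : ℕ} (hj : 4 ≤ j) (hb : ∃ B : ℝ, ∀ i ≤ j, ∀ X, X0 ≤ X → ‖Gj m β q i X‖ ≤ B)
    (hM : Tendsto (Mj m β q j) atTop (𝓝 0)) :
    (∃ B : ℝ, ∀ i ≤ j + 1, ∀ X, X0 ≤ X → ‖Gj m β q i X‖ ≤ B) ∧
      Tendsto (Mj m β q (j + 1)) atTop (𝓝 0) := by
  obtain ⟨B, hb⟩ := hb
  have h2 := hX0.1
  have hj' : (4 : ℝ) ≤ j := by exact_mod_cast hj
  obtain ⟨A, hA, HR⟩ := b2_Rbound j m hθ B
  have hR : ∀ X, X0 ≤ X → ‖Rj m β q j X‖ ≤ A := fun X hX => by
    simpa [Rj] using HR _ U (fun _ => 0) X h.isOpen (b2_Gt_sm h) (hU hX) (by linarith)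
      (b2_supA_zero j) (hG X hX) (fun i hi => by simpa [Gj] using hb i hi X hX) j le_rfl
  obtain ⟨k1, ha0, -⟩ := b2_coef hm hβ j
  have h1 := b2_gain_h (B := max A B) (t := 0) (by rw [k1]; linarith) le_rfl (by linarith)
    (by norm_num) (fun X hX => b2_lev (show 1 ≤ m by omega) h j X (hU hX)) hM
    (fun X hX => by simpa using Or.inr (hb j le_rfl X hX))
    (fun X hX => by simpa using Or.inl (hR X hX))
  simp only [zero_add, Real.rpow_one] at h1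
  set B1 := 2 * (‖cc m β j‖ + 1) * max A B with hB1
  have hB0 : 0 ≤ B := (norm_nonneg _).trans (hb 0 (by omega) X0 le_rfl)
  have hB1' : 0 ≤ B1 := by positivity
  set B2 := A + ‖cc m β j‖ * B + (‖kap m β j‖ + 1) * B1 with hB2
  have h3 : ∀ X, X0 ≤ X → ‖Gj m β q (j + 2) X‖ ≤ B2 * X ^ 3 := fun X hX => by
    have e1 : ‖kap m β j / X - I‖ ≤ ‖kap m β j‖ + 1 := by
      refine (norm_sub_le _ _).trans ?_
      rw [norm_div, Complex.norm_real, Real.norm_of_nonneg (by linarith), norm_I]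
      have := div_le_self (norm_nonneg (kap m β j)) (show 1 ≤ X by linarith)
      linarith
    have e2 := mul_le_mul_of_nonneg_left (hb j le_rfl X hX) (norm_nonneg (cc m β j))
    have e3 := mul_le_mul e1 (h1 X hX) (norm_nonneg _) (by positivity)
    have e4 : 0 ≤ A + ‖cc m β j‖ * B := by positivity
    rw [← norm_mul] at e2 e3
    rw [b2_rec (show 1 ≤ m by omega) h j (hU hX), norm_mul, norm_pow, Complex.norm_real,
      Real.norm_of_nonneg (by linarith), show B2 * X ^ 3 = X ^ 2 * (B2 * X) by ring]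
    refine mul_le_mul_of_nonneg_left ?_ (by positivity)
    refine (norm_sub_le _ _).trans ?_
    have := norm_sub_le (Rj m β q j X) (cc m β j * Gj m β q j X)
    have := hR X hX
    nlinarith
  have hM1 : Tendsto (Mj m β q (j + 1)) atTop (𝓝 0) := by
    obtain ⟨k1, -⟩ := b2_coef hm hβ (j + 1)
    have hB2' : 0 ≤ B2 := by positivity
    have ht : Tendsto (fun X : ℝ => B2 * X⁻¹) atTop (𝓝 0) := by
      simpa using tendsto_inv_atTop_zero.const_mul B2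
    refine squeeze_zero_norm' ((eventually_ge_atTop X0).mono fun X hX => ?_) ht
    have hX1 : 0 < X := by linarith
    rw [Mj, b2_M_norm _ _ hX1]
    have e : X ^ (-(kap m β (j + 1)).re) ≤ X ^ (-4 : ℝ) :=
      Real.rpow_le_rpow_of_exponent_le (by linarith) (by rw [k1]; push_cast; linarith)
    refine (mul_le_mul e (h3 X hX) (norm_nonneg _) (by positivity)).trans (le_of_eq ?_)
    rw [Real.rpow_neg hX1.le, show (4 : ℝ) = (4 : ℕ) by norm_num, Real.rpow_natCast]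
    field_simp
  refine ⟨?_, hM1⟩
  have g1 := b2jet_gain hm hβ hX0 h hU hθ hG hj hb hM1 (t := 3 / 2) (by norm_num)
    (by norm_num [abs_of_nonneg]) ⟨B1, fun X hX => (h1 X hX).trans (by
      refine mul_le_mul_of_nonneg_left ?_ hB1'
      calc X = X ^ (1 : ℝ) := (Real.rpow_one X).symm
        _ ≤ _ := Real.rpow_le_rpow_of_exponent_le (by linarith) (by norm_num))⟩
  rw [show max (3 / 2 - 1 : ℝ) 0 = 1 / 2 by norm_num] at g1
  have g2 := b2jet_gain hm hβ hX0 h hU hθ hG hj hb hM1 (t := 1 / 2) (by norm_num)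
    (by norm_num [abs_of_nonpos]) g1
  rw [show max (1 / 2 - 1 : ℝ) 0 = 0 by norm_num] at g2
  obtain ⟨B', g2⟩ := g2
  refine ⟨max B B', fun i hi X hX => ?_⟩
  rcases Nat.lt_or_ge i (j + 1) with hi' | hi'
  · exact (hb i (by omega) X hX).trans (le_max_left _ _)
  · obtain rfl : i = j + 1 := by omega
    simpa using Or.inr (by simpa using g2 X hX)

theorem b2_jet (hm : 8 ≤ m) (hβ : β ∈ Icc (1 / 4 : ℝ) (1 / 2)) (hX0 : X0 ∈ Icc (2 : ℝ) 4)
    (h : SmSol m β q (Ioi 0)) (hθ : θ < 1) (hG : ∀ X, X0 ≤ X → ‖Gt m β q X‖ ≤ θ)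
    (hb : ∃ B : ℝ, ∀ i ≤ 4, ∀ X, X0 ≤ X → ‖Gj m β q i X‖ ≤ B)
    (hM : Tendsto (Mj m β q 4) atTop (𝓝 0)) :
    ∀ j, ∃ C, ∀ X : ℝ, 1 ≤ X → ‖Du^[j] (Gt m β q) X‖ ≤ C := by
  have hU : Ici X0 ⊆ Ioi 0 := fun X hX =>
    lt_of_lt_of_le (show 0 < X0 by linarith [hX0.1]) hX
  have key : ∀ n, 4 ≤ n → (∃ B : ℝ, ∀ i ≤ n, ∀ X, X0 ≤ X → ‖Gj m β q i X‖ ≤ B) ∧
      Tendsto (Mj m β q n) atTop (𝓝 0) := fun n hn => by
    induction n, hn using Nat.le_induction with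
    | base => exact ⟨hb, hM⟩
    | succ n hn ih => exact b2_jet_step hm hβ hX0 h hU hθ hG hn ih.1 ih.2
  intro j
  obtain ⟨B, hB⟩ := (key (j + 4) (by omega)).1
  obtain ⟨B', hB'⟩ := isCompact_Icc.exists_bound_of_continuousOn
    ((b2_Du_sm h.isOpen (b2_Gt_sm h) j).continuousOn.mono
      (show Icc (1 : ℝ) 4 ⊆ Ioi 0 from fun X hX => lt_of_lt_of_le one_pos hX.1))
  refine ⟨max B B', fun X hX => ?_⟩
  rcases le_total X 4 with h4 | h4
  · exact (hB' X ⟨hX, h4⟩).trans (le_max_right _ _)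
  · exact (hB j (by omega) X (hX0.2.trans h4)).trans (le_max_left _ _)

end Vale.Agent.P139
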