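import Vale.Agent.P139.B2.Def

/-! P139 B2: elementary one dimensional lemmas. -/

noncomputable section

open MeasureTheory Filter Topology Set Complex
open scoped ComplexConjugate ContDiff

namespace Vale.Agent.P139

/-- Comparison with an explicit primitive. -/
theorem b2_cmp {g g' : ℝ → ℂ} {B B' : ℝ → ℝ} {a b : ℝ} (hab : a ≤ b)
    (hg : ∀ X ∈ Icc a b, HasDerivAt g (g' X) X) (hB : ∀ X ∈ Icc a b, HasDerivAt B (B' X) X)
    (h : ∀ X ∈ Icc a b, ‖g' X‖ ≤ B' X) : ‖g b - g a‖ ≤ B b - B a :=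
  image_norm_le_of_norm_deriv_right_le_deriv_boundary' (f := fun X => g X - g a)
    (B := fun X => B X - B a) (f' := g') (B' := B')
    (fun X hX => ((hg X hX).sub_const _).continuousAt.continuousWithinAt)
    (fun X hX => ((hg X (Ico_subset_Icc_self hX)).sub_const _).hasDerivWithinAt) (by simp)
    (fun X hX => ((hB X hX).sub_const _).continuousAt.continuousWithinAt)
    (fun X hX => ((hB X (Ico_subset_Icc_self hX)).sub_const _).hasDerivWithinAt)
    (fun X hX => h X (Ico_subset_Icc_self hX)) ⟨hab, le_rfl⟩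

theorem b2int_norm (z : ℂ) (s : ℝ) : ‖-z / s ^ 2‖ = ‖z‖ / s ^ 2 := by
  rw [norm_div, norm_neg, norm_pow, Complex.norm_real, Real.norm_eq_abs, sq_abs]

theorem b2int_pow {s : ℝ} (hs : 0 < s) (B : ℝ) {p : ℝ} (hp : p ≠ 0) :
    HasDerivAt (fun X : ℝ => B / p * X ^ p) (B * s ^ (p - 1)) s := by
  refine ((Real.hasDerivAt_rpow_const (p := p) (Or.inl hs.ne')).const_mul (B / p)).congr_deriv ?_
  field_simp

/-- One step down the ladder of jets. -/
theorem b2_step {g h : ℝ → ℂ} {X0 Y B t : ℝ} (h1 : 1 ≤ X0) (ht : 1 / 2 ≤ |t - 1|)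
    (hg : ∀ X ∈ Icc X0 Y, HasDerivAt g (-h X / X ^ 2) X) (h0 : ‖g X0‖ ≤ B)
    (hh : ∀ X ∈ Icc X0 Y, ‖h X‖ ≤ B * X ^ t) :
    ∀ X ∈ Icc X0 Y, ‖g X‖ ≤ 3 * B * X ^ max (t - 1) 0 := by
  intro X hX
  have hB : 0 ≤ B := (norm_nonneg _).trans h0
  have hp : t - 1 ≠ 0 := fun e => by rw [e] at ht; norm_num at ht
  have hsub : Icc X0 X ⊆ Icc X0 Y := Icc_subset_Icc_right hX.2
  have e := b2_cmp hX.1 (fun s hs => hg s (hsub hs))
    (fun s hs => b2int_pow (show 0 < s by linarith [hs.1]) B hp) fun s hs => by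
      have hs0 : 0 < s := by linarith [hs.1]
      rw [b2int_norm, div_le_iff₀ (by positivity)]
      refine (hh s (hsub hs)).trans (le_of_eq ?_)
      rw [show t = t - 1 - 1 + (2 : ℕ) by push_cast; ring, Real.rpow_add hs0, Real.rpow_natCast]
      ring_nf
  have e2 := norm_sub_norm_le (g X) (g X0)
  have p0 : 0 ≤ X0 ^ (t - 1) := Real.rpow_nonneg (by linarith) _
  have p1 : 0 ≤ X ^ (t - 1) := Real.rpow_nonneg (by linarith [hX.1]) _
  rcases le_abs.1 ht with ht | ht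
  · rw [max_eq_left (by linarith)]
    have a1 : 1 ≤ X ^ (t - 1) := Real.one_le_rpow (by linarith [hX.1]) (by linarith)
    have a2 : B / (t - 1) ≤ 2 * B := by rw [div_le_iff₀ (by linarith)]; nlinarith
    have a3 : 0 ≤ B / (t - 1) := div_nonneg hB (by linarith)
    nlinarith [mul_nonneg a3 p0]
  · rw [max_eq_right (by linarith), Real.rpow_zero]
    have a1 : X0 ^ (t - 1) ≤ 1 := Real.rpow_le_one_of_one_le_of_nonpos h1 (by linarith)
    have a2 : B / (1 - t) ≤ 2 * B := by rw [div_le_iff₀ (by linarith)]; nlinarith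
    have a3 : 0 ≤ B / (1 - t) := div_nonneg hB (by linarith)
    have a4 : B / (t - 1) = -(B / (1 - t)) := by rw [← div_neg, neg_sub]
    rw [a4] at e
    nlinarith [mul_nonneg a3 p1]

/-- One step of the Taylor expansion from a far point `X1`. -/
theorem b2_back {g h : ℝ → ℂ} {X X1 δ δ' C : ℝ} (k : ℕ) (h1 : 1 ≤ X) (hX : X ≤ X1)
    (hδ : 0 ≤ δ') (hC : 0 ≤ C) (hg : ∀ s ∈ Icc X X1, HasDerivAt g (-h s / s ^ 2) s)
    (h0 : ‖g X1‖ ≤ δ) (hh : ∀ s ∈ Icc X X1, ‖h s‖ ≤ δ' + C / s ^ k) :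
    ‖g X‖ ≤ δ + δ' + C / X ^ (k + 1) := by
  have e := b2_cmp (B := fun s => -(δ' * s⁻¹) - C * (s ^ (k + 1))⁻¹)
    (B' := fun s => δ' / s ^ 2 + C * (k + 1) / s ^ (k + 2)) hX hg (fun s hs => by
      have hs0 : s ≠ 0 := by linarith [hs.1]
      refine ((((hasDerivAt_inv hs0).const_mul δ').neg).sub
        (((hasDerivAt_pow (k + 1) s).inv (pow_ne_zero _ hs0)).const_mul C)).congr_deriv ?_
      simp only [Nat.add_sub_cancel]
      push_cast
      field_simp
      ring) fun s hs => by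
      have hs0 : 0 < s := by linarith [hs.1]
      rw [b2int_norm]
      refine (div_le_div_of_nonneg_right (hh s hs) (by positivity)).trans ?_
      rw [add_div, div_div, ← pow_add]
      gcongr
      nlinarith [(k.cast_nonneg : (0 : ℝ) ≤ k)]
  have e2 := norm_sub_norm_le (g X) (g X1)
  rw [norm_sub_rev] at e2
  have hX1 : 0 < X1 := by linarith
  have a1 : 0 ≤ δ' * X1⁻¹ := by positivity
  have a2 : 0 ≤ C * (X1 ^ (k + 1))⁻¹ := by positivity
  have a3 : δ' * X⁻¹ ≤ δ' := mul_le_of_le_one_right hδ (inv_le_one_of_one_le₀ h1)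
  rw [div_eq_mul_inv]
  linarith

theorem b2_tail {g h : ℝ → ℂ} {X Y C : ℝ} (h1 : 0 < X) (hXY : X ≤ Y)
    (hg : ∀ s ∈ Icc X Y, HasDerivAt g (-h s / s ^ 2) s) (hh : ∀ s ∈ Icc X Y, ‖h s‖ ≤ C) :
    ‖g Y - g X‖ ≤ C / X := by
  have hC : 0 ≤ C := (norm_nonneg _).trans (hh X ⟨le_rfl, hXY⟩)
  have e := b2_cmp (B := fun s => -(C * s⁻¹)) (B' := fun s => C / s ^ 2) hXY hg (fun s hs => by
      have hs0 : s ≠ 0 := by linarith [hs.1]
      refine ((hasDerivAt_inv hs0).const_mul C).neg.congr_deriv ?_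
      field_simp) fun s hs => by
      rw [b2int_norm]
      exact div_le_div_of_nonneg_right (hh s hs) (by positivity)
  have hY : 0 < Y := by linarith
  have a1 : 0 ≤ C * Y⁻¹ := by positivity
  rw [div_eq_mul_inv]
  linarith

theorem b2int_diff {f f' : ℝ → ℂ} {a B p : ℝ} (ha : 0 < a) (hp : 0 < p)
    (hf : ∀ s, a ≤ s → HasDerivAt f (f' s) s) (hB : ∀ s, a ≤ s → ‖f' s‖ ≤ B * s ^ (-p - 1))
    {X Y : ℝ} (hX : a ≤ X) (hY : X ≤ Y) : ‖f Y - f X‖ ≤ B / p * X ^ (-p) := by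
  have hB0 : 0 ≤ B := nonneg_of_mul_nonneg_left ((norm_nonneg _).trans (hB a le_rfl))
    (Real.rpow_pos_of_pos ha _)
  have e := b2_cmp hY (fun s hs => hf s (hX.trans hs.1))
    (fun s hs => b2int_pow (show 0 < s by linarith [hs.1]) B (p := -p) (by linarith))
    fun s hs => hB s (hX.trans hs.1)
  have hY0 : 0 < Y := by linarith
  have a1 : 0 ≤ B / p * Y ^ (-p) := by positivity
  rw [div_neg] at e
  linarith

/-- Integration from infinity. -/
theorem b2_atTop {f f' : ℝ → ℂ} {X B p : ℝ} (hX : 0 < X) (hp : 0 < p)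
    (hf : ∀ s, X ≤ s → HasDerivAt f (f' s) s) (hB : ∀ s, X ≤ s → ‖f' s‖ ≤ B * s ^ (-p - 1))
    (h0 : Tendsto f atTop (𝓝 0)) : ‖f X‖ ≤ B / p * X ^ (-p) := by
  have := le_of_tendsto (h0.sub_const (f X)).norm ((eventually_ge_atTop X).mono
    fun Y hY => b2int_diff hX hp hf hB le_rfl hY)
  simpa using this

theorem b2_cauchy {f f' : ℝ → ℂ} {a B p : ℝ} (ha : 0 < a) (hp : 0 < p)
    (hf : ∀ s, a ≤ s → HasDerivAt f (f' s) s) (hB : ∀ s, a ≤ s → ‖f' s‖ ≤ B * s ^ (-p - 1)) :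
    Tendsto f atTop (𝓝 (limUnder atTop f)) ∧
      ∀ X, a ≤ X → ‖limUnder atTop f - f X‖ ≤ B / p * X ^ (-p) := by
  have ht : Tendsto (fun X : ℝ => B / p * X ^ (-p)) atTop (𝓝 0) := by
    simpa using (tendsto_rpow_neg_atTop hp).const_mul (B / p)
  have hc : CauchySeq f := by
    refine Metric.cauchySeq_iff'.2 fun ε hε => ?_
    obtain ⟨N, hN⟩ := (((ht.eventually_lt_const hε)).and (eventually_ge_atTop a)).exists
    exact ⟨N, fun n hn => by
      rw [dist_eq_norm]; exact (b2int_diff ha hp hf hB hN.2 hn).trans_lt hN.1⟩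
  have hT := tendsto_nhds_limUnder (cauchySeq_tendsto_of_complete hc)
  exact ⟨hT, fun X hX => le_of_tendsto (hT.sub_const (f X)).norm ((eventually_ge_atTop X).mono
    fun Y hY => b2int_diff ha hp hf hB hX hY)⟩

/-- Gronwall with an integrable kernel. -/
theorem b2_gron {V : ℝ → ℝ} {X0 Y A K : ℝ} (h1 : 1 ≤ X0) (hK : 0 ≤ K) (hA : 0 ≤ A)
    (hV : ContinuousOn V (Icc X0 Y))
    (h : ∀ X ∈ Icc X0 Y, V X ≤ A + ∫ s in X0..X, K * s ^ (-5 / 4 : ℝ) * V s) :
    ∀ X ∈ Icc X0 Y, V X ≤ A * Real.exp (4 * K) := by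
  intro X hX
  set k : ℝ → ℝ := fun s => K * s ^ (-5 / 4 : ℝ) * V s with hk
  have hXY : X0 ≤ Y := hX.1.trans hX.2
  have hkc : ContinuousOn k (Icc X0 Y) := (continuousOn_const.mul
    (continuousOn_id.rpow_const fun s hs => Or.inl (by simp; linarith [hs.1]))).mul hV
  set W : ℝ → ℝ := fun s => A + ∫ u in X0..s, k u with hW
  have hWc : ContinuousOn W (Icc X0 Y) := continuousOn_const.add (by
    have := intervalIntegral.continuousOn_primitive_interval (μ := volume) (f := k) (a := X0)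
      (b := Y) (by rw [uIcc_of_le hXY]; exact hkc.integrableOn_Icc)
    rwa [uIcc_of_le hXY] at this)
  have hWd : ∀ s ∈ Ioo X0 Y, HasDerivAt W (k s) s := fun s hs =>
    (intervalIntegral.integral_hasDerivAt_right
      ((hkc.mono (by rw [uIcc_of_le hs.1.le]; exact Icc_subset_Icc_right hs.2.le)).intervalIntegrable)
      ((hkc.mono Ioo_subset_Icc_self).stronglyMeasurableAtFilter isOpen_Ioo s hs)
      (hkc.continuousAt (Icc_mem_nhds hs.1 hs.2))).const_add A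
  have hE : ∀ s, X0 ≤ s → HasDerivAt (fun u : ℝ => Real.exp (4 * K * u ^ (-1 / 4 : ℝ)))
      (Real.exp (4 * K * s ^ (-1 / 4 : ℝ)) * -(K * s ^ (-5 / 4 : ℝ))) s := fun s hs => by
    convert ((Real.hasDerivAt_rpow_const (p := -1 / 4)
      (Or.inl (show s ≠ 0 by linarith))).const_mul (4 * K)).exp using 2
    rw [show (-1 / 4 - 1 : ℝ) = -5 / 4 by norm_num]
    ring
  have hD : ∀ s ∈ Ioo X0 Y, HasDerivAt (fun u => W u * Real.exp (4 * K * u ^ (-1 / 4 : ℝ))) _ s :=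
    fun s hs => (hWd s hs).mul (hE s hs.1.le)
  have anti : AntitoneOn (fun u => W u * Real.exp (4 * K * u ^ (-1 / 4 : ℝ))) (Icc X0 Y) := by
    refine antitoneOn_of_deriv_nonpos (convex_Icc _ _)
      (hWc.mul fun s hs => (hE s hs.1).continuousAt.continuousWithinAt) ?_ ?_ <;>
      rw [interior_Icc] <;> intro s hs
    · exact (hD s hs).differentiableAt.differentiableWithinAt
    · rw [(hD s hs).deriv]
      have hs0 : 0 < s := by linarith [hs.1]
      have e1 : V s ≤ W s := h s (Ioo_subset_Icc_self hs)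
      have e2 : 0 ≤ K * s ^ (-5 / 4 : ℝ) * Real.exp (4 * K * s ^ (-1 / 4 : ℝ)) := by positivity
      simp only [hk]
      nlinarith
  have e := anti ⟨le_rfl, hXY⟩ hX hX.1
  simp only [hW, intervalIntegral.integral_same, add_zero] at e
  have hX0 : 0 < X := by linarith [hX.1]
  have a1 : Real.exp (4 * K * X0 ^ (-1 / 4 : ℝ)) ≤ Real.exp (4 * K) :=
    Real.exp_le_exp.2 (mul_le_of_le_one_right (by positivity)
      (Real.rpow_le_one_of_one_le_of_nonpos h1 (by norm_num)))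
  have a2 : 1 ≤ Real.exp (4 * K * X ^ (-1 / 4 : ℝ)) := Real.one_le_exp (by positivity)
  have a3 := mul_le_mul_of_nonneg_left a1 hA
  have a4 := h X hX
  rcases le_total 0 (A + ∫ u in X0..X, k u) with h' | h'
  · nlinarith
  · have : 0 ≤ A * Real.exp (4 * K) := by positivity
    linarith

theorem b2_real_ind {P : ℝ → Prop} {a : ℝ} (h0 : P a)
    (hc : ∀ Y, a < Y → (∀ X ∈ Ico a Y, P X) → P Y)
    (ho : ∀ Y, a ≤ Y → (∀ X ∈ Icc a Y, P X) → ∃ δ > 0, ∀ X ∈ Icc a (Y + δ), P X) :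
    ∀ X, a ≤ X → P X := by
  by_contra hn
  push Not at hn
  set T := {X | a ≤ X ∧ ¬P X} with hT
  have hne : T.Nonempty := hn
  have hbd : BddBelow T := ⟨a, fun X hX => hX.1⟩
  have ha : a ≤ sInf T := le_csInf hne fun X hX => hX.1
  have h1 : ∀ X ∈ Ico a (sInf T), P X := fun X hX => by
    by_contra hP
    exact absurd (csInf_le hbd ⟨hX.1, hP⟩) (not_le.2 hX.2)
  have h2 : P (sInf T) := by
    rcases ha.eq_or_lt with e | e
    · exact e ▸ h0
    · exact hc _ e h1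
  obtain ⟨δ, hδ, h3⟩ := ho _ ha fun X hX => by
    rcases hX.2.eq_or_lt with e | e
    · exact e ▸ h2
    · exact h1 X ⟨hX.1, e⟩
  have : sInf T + δ ≤ sInf T := le_csInf hne fun X hX => by
    by_contra hlt
    exact hX.2 (h3 X ⟨hX.1, (not_le.1 hlt).le⟩)
  linarith

end Vale.Agent.P139
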