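import Vale.Agent.P139.B2.Energy
import Vale.Agent.P139.B2.Int

/-! P139 B2: uniform lower bound for `|G|`. -/

noncomputable section

open MeasureTheory Filter Topology Set Complex
open scoped ComplexConjugate ContDiff

namespace Vale.Agent.P139

theorem b2low_W {G : ℝ → ℂ} {U : Set ℝ} (hG : ContDiffOn ℝ ∞ G U) (m : ℕ) :
    ContDiffOn ℝ ∞ (fun Y => (normSq (G Y) : ℂ) ^ m) U := by
  simpa only [mul_conj] using (hG.mul (b2_conj_sm hG)).pow m

theorem b2low_step {m : ℕ} {β X C δ : ℝ} {q : ℝ → ℂ} {U : Set ℝ} (hm : 8 ≤ m)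
    (hβ : β ∈ Icc (1 / 4 : ℝ) (1 / 2)) (h : SmSol m β q U) (hX : X ∈ U) (h1 : 1 ≤ X)
    (hG : ∀ j ≤ 4, ‖Gj m β q j X‖ ≤ C)
    (hW : ∀ j ≤ 4, ‖Du^[j] (fun Y => (normSq (Gt m β q Y) : ℂ) ^ m) X‖ ≤ 1) {j : ℕ} (hj : j ≤ 2)
    (hδ : ∀ i ≤ j, ‖Gj m β q i X‖ ≤ δ) : ‖Gj m β q (j + 1) X‖ ≤ 11 * C / X + 28 * δ := by
  have hδ0 : 0 ≤ δ := (norm_nonneg _).trans (hδ 0 (by omega))
  have hC0 : 0 ≤ C := (norm_nonneg _).trans (hG 0 (by omega))
  have hj' : (j : ℝ) ≤ 2 := by exact_mod_cast hj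
  have hj0 : (0 : ℝ) ≤ j := j.cast_nonneg
  have hR : ‖Rj m β q j X‖ ≤ 4 * δ := by
    rw [Rj, b2_Du_mul h.isOpen (b2low_W (b2_Gt_sm h) m) (b2_Gt_sm h) j hX]
    refine (norm_sum_le_of_le _ (n := fun i => (j.choose i : ℝ) * δ) fun i hi => ?_).trans ?_
    · have hi' := Finset.mem_range.1 hi
      rw [norm_mul, norm_mul, Complex.norm_natCast, mul_assoc]
      refine mul_le_mul_of_nonneg_left ?_ (by positivity)
      simpa [Gj] using mul_le_mul (hW i (by omega)) (hδ (j - i) (by omega)) (norm_nonneg _)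
        zero_le_one
    · rw [← Finset.sum_mul]
      refine mul_le_mul_of_nonneg_right ?_ hδ0
      interval_cases j <;> norm_num [Finset.sum_range_succ, Nat.choose]
  obtain ⟨-, -, -, -, k2, k3⟩ := b2_coef hm hβ j
  have hX0 : (X : ℂ) ≠ 0 := by exact_mod_cast (by linarith : X ≠ 0)
  have e : I * Gj m β q (j + 1) X = Gj m β q (j + 2) X / X / X +
      kap m β j * Gj m β q (j + 1) X / X + cc m β j * Gj m β q j X - Rj m β q j X := by
    rw [b2_rec (show 1 ≤ m by omega) h j hX]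
    field_simp
    ring
  have hn : ‖(X : ℂ)‖ = X := by rw [Complex.norm_real, Real.norm_of_nonneg (by linarith)]
  have e1 : ‖Gj m β q (j + 2) X / X / X‖ ≤ C / X := by
    rw [norm_div, norm_div, hn]
    exact div_le_div_of_nonneg_right ((div_le_self (norm_nonneg _) h1).trans (hG _ (by omega)))
      (by linarith)
  have e2 : ‖kap m β j * Gj m β q (j + 1) X / X‖ ≤ 10 * C / X := by
    rw [norm_div, norm_mul, hn]
    exact div_le_div_of_nonneg_right (mul_le_mul (by linarith) (hG _ (by omega)) (norm_nonneg _)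
      (by norm_num)) (by linarith)
  have e3 : ‖cc m β j * Gj m β q j X‖ ≤ 24 * δ := by
    rw [norm_mul]
    exact mul_le_mul (by nlinarith) (hδ j le_rfl) (norm_nonneg _) (by norm_num)
  have e4 : ‖Gj m β q (j + 1) X‖ = ‖I * Gj m β q (j + 1) X‖ := by simp
  rw [e4, e]
  refine (norm_sub_le _ _).trans ((add_le_add (norm_add₃_le.trans
    (add_le_add (add_le_add e1 e2) e3)) hR).trans (le_of_eq (by ring)))

theorem b2_far (C : ℝ) (hC : 1 ≤ C) : ∃ K : ℝ, 1 ≤ K ∧ ∀ (m : ℕ) (β X : ℝ) (q : ℝ → ℂ) (U : Set ℝ),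
    8 ≤ m → β ∈ Icc (1 / 4 : ℝ) (1 / 2) → SmSol m β q U → X ∈ U → 1 ≤ X →
    (∀ j ≤ 4, ‖Gj m β q j X‖ ≤ C) →
    (∀ j ≤ 4, ‖Du^[j] (fun Y => (normSq (Gt m β q Y) : ℂ) ^ m) X‖ ≤ 1) →
    ∀ j ≤ 3, ‖Gj m β q j X‖ ≤ K * (‖Gt m β q X‖ + 1 / X) := by
  refine ⟨39 ^ 3 * C, by linarith, fun m β X q U hm hβ h hX h1 hG hW => ?_⟩
  set δ := C * (‖Gt m β q X‖ + 1 / X) with hδ
  have hη := norm_nonneg (Gt m β q X)
  have hi : 0 < 1 / X := by positivity
  have hδ0 : 0 ≤ δ := by positivity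
  have hCX : 11 * C / X ≤ 11 * δ := by
    rw [hδ, show 11 * C / X = 11 * (C * (1 / X)) by ring]
    nlinarith
  have key : ∀ n ≤ 3, ∀ i ≤ n, ‖Gj m β q i X‖ ≤ 39 ^ n * δ := fun n hn => by
    induction n with
    | zero =>
      intro i hi
      obtain rfl : i = 0 := by omega
      change ‖Gt m β q X‖ ≤ _
      nlinarith
    | succ n ih =>
      intro i hi
      have ih := ih (by omega)
      have h39 : δ ≤ 39 ^ n * δ := le_mul_of_one_le_left hδ0 (one_le_pow₀ (by norm_num))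
      rw [pow_succ]
      rcases Nat.lt_or_ge i (n + 1) with hi' | hi'
      · linarith [ih i (by omega)]
      · obtain rfl : i = n + 1 := by omega
        linarith [b2low_step hm hβ h hX h1 hG hW (show n ≤ 2 by omega) ih]
  intro j hj
  exact (key 3 le_rfl j hj).trans (le_of_eq (by rw [hδ]; ring))

theorem b2low_num {R C δ x y : ℝ} (hR : 4 ≤ R) (hC : 1 ≤ C) (hRC : 2 * C ≤ R) (_hδ : 0 ≤ δ)
    (h : 4 * δ ≤ C / R ^ 4) (hx0 : 0 ≤ x) (hy0 : 0 ≤ y) (hx : x ≤ 4 * δ + C / R ^ 4)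
    (hy : y ≤ 3 * δ + C / R ^ 3) : R ^ 6 * x ^ 2 + R ^ 4 * x * y < 4 := by
  have hR0 : 0 < R := by linarith
  have e0 : C / R ^ 4 ≤ C / R ^ 3 := div_le_div_of_nonneg_left (by linarith) (by positivity)
    (pow_le_pow_right₀ (by linarith) (by norm_num))
  have e1 : R ^ 3 * x ≤ 1 := by
    have : x ≤ 2 * C / R ^ 4 := by rw [mul_div_assoc]; linarith
    rw [le_div_iff₀ (by positivity)] at this
    have : (R ^ 3 * x) * R ≤ 1 * R := by nlinarith
    exact le_of_mul_le_mul_right this hR0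
  have e2 : R ^ 2 * y ≤ 1 := by
    have : y ≤ 2 * C / R ^ 3 := by rw [mul_div_assoc]; linarith
    rw [le_div_iff₀ (by positivity)] at this
    have : (R ^ 2 * y) * R ≤ 1 * R := by nlinarith
    exact le_of_mul_le_mul_right this hR0
  have e3 : R * y ≤ 1 := by nlinarith [mul_nonneg hR0.le hy0]
  have p1 : 0 ≤ R ^ 3 * x := by positivity
  have a1 : (R ^ 3 * x) ^ 2 ≤ 1 := pow_le_one₀ p1 e1
  have a2 : (R ^ 3 * x) * (R * y) ≤ 1 := mul_le_one₀ e1 (by positivity) e3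
  nlinarith

theorem b2_low (C : ℝ) (hC : 1 ≤ C) : ∃ C' : ℝ, 1 ≤ C' ∧
    ∀ (m : ℕ) (β X0 c : ℝ) (q : ℝ → ℂ) (U : Set ℝ), 8 ≤ m → SmSol m β q U → ExtDat β q X0 c →
    Ici X0 ⊆ U → (∀ j ≤ 4, ∀ X, X0 ≤ X → ‖Gj m β q j X‖ ≤ C) →
    (∀ j ≤ 4, ∀ X, X0 ≤ X → ‖Du^[j] (fun Y => (normSq (Gt m β q Y) : ℂ) ^ m) X‖ ≤ 1) →
    ∀ X, X0 ≤ X → 1 / C' ≤ ‖Gt m β q X‖ := by
  obtain ⟨K, hK, hfar⟩ := b2_far C hC
  set R := max 4 (2 * C) with hR
  have hR4 : 4 ≤ R := le_max_left _ _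
  have hRC : 2 * C ≤ R := le_max_right _ _
  set η := C / R ^ 4 / (8 * K) with hη
  have hη0 : 0 < η := by positivity
  set R' := max R (1 / η) with hR'
  have hR'R : R ≤ R' := le_max_left _ _
  refine ⟨max 1 (max (1 / η) (R' ^ 6 * C)), le_max_left _ _,
    fun m β X0 c q U hm h hd hU hG hW X1 hX1 => ?_⟩
  have h2 := hd.X0_mem.1
  have hfl := b2_fluxG (show 1 ≤ m by omega) h hd hU
  have hx := norm_nonneg (Gt m β q X1)
  rcases le_total X1 R' with hc | hc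
  · refine le_trans (one_div_le_one_div_of_le (by positivity)
      ((le_max_right _ _).trans (le_max_right _ _))) ?_
    have e := hfl X1 hX1
    have e0 : ‖Gt m β q X1‖ ≤ C := hG 0 (by norm_num) X1 hX1
    have e1 := hG 1 (by norm_num) X1 hX1
    have e6 : X1 ^ 6 ≤ R' ^ 6 := pow_le_pow_left₀ (by linarith) hc 6
    have e4 : X1 ^ 4 ≤ X1 ^ 6 := pow_le_pow_right₀ (by linarith) (by norm_num)
    rw [div_le_iff₀ (by positivity)]
    have a1 : X1 ^ 6 * ‖Gt m β q X1‖ ^ 2 ≤ R' ^ 6 * (‖Gt m β q X1‖ * C) :=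
      mul_le_mul e6 (by nlinarith) (by positivity) (by positivity)
    have a2 : X1 ^ 4 * (‖Gt m β q X1‖ * ‖Gj m β q 1 X1‖) ≤ R' ^ 6 * (‖Gt m β q X1‖ * C) :=
      mul_le_mul (e4.trans e6) (mul_le_mul_of_nonneg_left e1 hx) (by positivity) (by positivity)
    nlinarith
  refine le_trans (one_div_le_one_div_of_le (by positivity)
    ((le_max_left _ _).trans (le_max_right _ _))) ?_
  rw [one_div_one_div]
  by_contra hlt
  have hlt := not_le.1 hlt
  have hX1η : 1 / X1 ≤ η := by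
    rw [one_div_le (by linarith) hη0]
    exact (le_max_right _ _).trans hc
  set δ := K * (‖Gt m β q X1‖ + 1 / X1) with hδ
  have hδ0 : 0 ≤ δ := by have : 0 < X1 := by linarith
                         positivity
  have hδ1 : 4 * δ ≤ C / R ^ 4 := by
    have : C / R ^ 4 = 8 * K * η := by rw [hη]; field_simp
    nlinarith
  have hf := hfar m β X1 q U hm hd.β_mem h (hU hX1) (by linarith) (fun j hj => hG j hj X1 hX1)
    fun j hj => hW j hj X1 hX1
  have hXR : X0 ≤ R := hd.X0_mem.2.trans hR4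
  have st : ∀ j ≤ 3, ∀ (k : ℕ) (δ' : ℝ), 0 ≤ δ' →
      (∀ s ∈ Icc R X1, ‖Gj m β q (j + 1) s‖ ≤ δ' + C / s ^ k) →
      ∀ s ∈ Icc R X1, ‖Gj m β q j s‖ ≤ δ + δ' + C / s ^ (k + 1) := fun j hj k δ' hδ' hh s hs =>
    b2_back k (by linarith [hs.1]) hs.2 hδ' (by linarith)
      (fun u hu => (b2_lev (show 1 ≤ m by omega) h j u (hU (by
        change X0 ≤ u
        linarith [hs.1, hu.1]))).1) (hf j hj) fun u hu => hh u ⟨hs.1.trans hu.1, hu.2⟩
  have g3 := st 3 le_rfl 0 0 le_rfl fun s hs => by simpa using hG 4 le_rfl s (hXR.trans hs.1)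
  have g2 := st 2 (by norm_num) _ _ (by linarith) g3
  have g1 := st 1 (by norm_num) _ _ (by linarith) g2
  have g0 := st 0 (by norm_num) _ _ (by linarith) g1
  have hmem : R ∈ Icc R X1 := ⟨le_rfl, hR'R.trans hc⟩
  have a0 : ‖Gt m β q R‖ ≤ _ := g0 R hmem
  have a1 := g1 R hmem
  exact absurd (hfl R hXR) (not_le.2 (b2low_num hR4 hC hRC hδ0 hδ1 (norm_nonneg _) (norm_nonneg _)
    (a0.trans (le_of_eq (by ring))) (a1.trans (le_of_eq (by ring)))))

end Vale.Agent.P139
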