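import Vale.Agent.P139.B2.Ode

/-! P139 B2: symbol bounds from bounded jets.
Plan: `b2_symb_aux` by induction on `j` for all `μ, H`: on `(0, ∞)`,
`(X^(-μ) H)' = X^(-(μ+1)) H1`, `H1 = -μ H - X⁻¹ * Du H`, whose jets are bounded on `X ≥ 1` by
`b2_Du_add`, `b2_Du_cmul`, `b2_Du_inv` (`Function.iterate_succ_apply`); use `iteratedDeriv_succ'` and
`Filter.EventuallyEq.iteratedDeriv_eq` (or `Filter.EventuallyEq.iteratedDeriv`).
`b2_symb`: `q = X^(-ν₀) G` on `(0, ∞)`, `re ν₀ = a`. -/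

noncomputable section

open MeasureTheory Filter Topology Set Complex
open scoped ComplexConjugate ContDiff

namespace Vale.Agent.P139

theorem b2_symb_aux (j : ℕ) (μ : ℂ) (H : ℝ → ℂ) (hH : ContDiffOn ℝ ∞ H (Ioi 0))
    (hb : ∀ k, ∃ C, ∀ X : ℝ, 1 ≤ X → ‖Du^[k] H X‖ ≤ C) : ∃ C, ∀ X : ℝ, 1 ≤ X →
      ‖iteratedDeriv j (fun Y : ℝ => (Y : ℂ) ^ (-μ) * H Y) X‖ ≤ C * X ^ (-μ.re - j) := by
  induction j generalizing μ H with
  | zero =>
    obtain ⟨C, hC⟩ := hb 0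
    refine ⟨C, fun X hX => ?_⟩
    have h0 : 0 < X := one_pos.trans_le hX
    rw [iteratedDeriv_zero, norm_mul, norm_cpow_eq_rpow_re_of_pos h0, mul_comm, neg_re,
      Nat.cast_zero, sub_zero]
    exact mul_le_mul_of_nonneg_right (hC X hX) (by positivity)
  | succ j ih =>
    have hD : ContDiffOn ℝ ∞ (Du H) (Ioi 0) := b2_Du_sm isOpen_Ioi hH 1
    have hI : ContDiffOn ℝ ∞ (fun Y : ℝ => (Y : ℂ)⁻¹ * Du H Y) (Ioi 0) :=
      (ofRealCLM.contDiff.contDiffOn.inv fun Y hY => ofReal_ne_zero.2 (ne_of_gt hY)).mul hD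
    obtain ⟨C, hC⟩ := ih (μ + 1) (fun Y => -μ * H Y + -1 * ((Y : ℂ)⁻¹ * Du H Y))
      ((contDiffOn_const.mul hH).add (contDiffOn_const.mul hI)) fun k => by
        obtain ⟨C0, h0⟩ := hb k
        obtain ⟨C1, h1⟩ := hb (k + 1)
        obtain ⟨C2, h2⟩ := hb (k - 1 + 1)
        refine ⟨‖μ‖ * C0 + (C1 + k * C2), fun X hX => ?_⟩
        have X0 : X ∈ Ioi (0 : ℝ) := one_pos.trans_le hX
        rw [b2_Du_add isOpen_Ioi (contDiffOn_const.mul hH) (contDiffOn_const.mul hI) k X0,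
          b2_Du_cmul isOpen_Ioi hH _ k X0, b2_Du_cmul isOpen_Ioi hI _ k X0,
          b2_Du_inv isOpen_Ioi subset_rfl hD k X0]
        refine (norm_add_le _ _).trans (add_le_add ?_ ?_)
        · rw [norm_mul, norm_neg]
          exact mul_le_mul_of_nonneg_left (h0 X hX) (norm_nonneg _)
        · rw [neg_one_mul, norm_neg]
          refine (norm_add_le _ _).trans (add_le_add ?_ ?_)
          · rw [norm_mul, norm_inv, norm_real, Real.norm_of_nonneg (le_of_lt X0)]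
            exact (mul_le_of_le_one_left (norm_nonneg _) (inv_le_one_of_one_le₀ hX)).trans (h1 X hX)
          · rw [norm_mul, Complex.norm_natCast]
            exact mul_le_mul_of_nonneg_left (h2 X hX) (Nat.cast_nonneg _)
    refine ⟨C, fun X hX => ?_⟩
    have e : deriv (fun Y : ℝ => (Y : ℂ) ^ (-μ) * H Y) =ᶠ[𝓝 X]
        fun Y : ℝ => (Y : ℂ) ^ (-(μ + 1)) * (-μ * H Y + -1 * ((Y : ℂ)⁻¹ * Du H Y)) := by
      filter_upwards [Ioi_mem_nhds (one_pos.trans_le hX)] with Y hY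
      have Y0 : (Y : ℂ) ≠ 0 := ofReal_ne_zero.2 (ne_of_gt hY)
      have d : HasDerivAt H (-Du H Y / Y ^ 2) Y := b2_Du_deriv isOpen_Ioi hH 0 hY (ne_of_gt hY)
      rw [(((hasStrictDerivAt_cpow_const (c := -μ) (ofReal_mem_slitPlane.2 hY)).hasDerivAt.comp_ofReal
        ).fun_mul d).deriv, neg_add', cpow_sub _ _ Y0, cpow_one]
      field_simp
    rw [iteratedDeriv_succ', e.iteratedDeriv_eq j]
    refine (hC X hX).trans_eq ?_
    rw [add_re, one_re, Nat.cast_succ]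
    congr 2
    ring

theorem b2_symb {m : ℕ} {β : ℝ} {q : ℝ → ℂ} (h : SmSol m β q (Ioi 0))
    (hb : ∀ j, ∃ C, ∀ X : ℝ, 1 ≤ X → ‖Du^[j] (Gt m β q) X‖ ≤ C) :
    ∀ j, ∃ C, ∀ X : ℝ, 1 ≤ X → ‖iteratedDeriv j q X‖ ≤ C * X ^ (-aa m - j) := by
  intro j
  obtain ⟨C, hC⟩ := b2_symb_aux j (nu0 m β) _ (b2_Gt_sm h) hb
  refine ⟨C, fun X hX => ?_⟩
  have e : q =ᶠ[𝓝 X] fun Y : ℝ => (Y : ℂ) ^ (-nu0 m β) * Gt m β q Y := by
    filter_upwards [Ioi_mem_nhds (one_pos.trans_le hX)] with Y hY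
    rw [Gt, ← mul_assoc, ← cpow_add _ _ (ofReal_ne_zero.2 (ne_of_gt hY)), neg_add_cancel,
      cpow_zero, one_mul]
  rw [e.iteratedDeriv_eq j]
  refine (hC X hX).trans_eq ?_
  simp [nu0]

end Vale.Agent.P139
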