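import Vale.Agent.P139.B2.Apri
import Vale.Agent.P139.B2.Gain

/-! P139 B2: uniform bounds for the jets when `M_4 → 0`. -/

noncomputable section

open MeasureTheory Filter Topology Set Complex
open scoped ComplexConjugate ContDiff

namespace Vale.Agent.P139

theorem b2zero_pow {X s : ℝ} (hX : X ∈ Icc (2 : ℝ) 4) (hs : s ≤ 5 / 2) : X ^ s ≤ 32 := calc
  X ^ s ≤ X ^ (5 / 2 : ℝ) := Real.rpow_le_rpow_of_exponent_le (by linarith [hX.1]) hs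
  _ ≤ (2 ^ 2 : ℝ) ^ (5 / 2 : ℝ) :=
    Real.rpow_le_rpow (by linarith [hX.1]) (by linarith [hX.2]) (by norm_num)
  _ = 32 := by rw [← Real.rpow_natCast, ← Real.rpow_mul (by norm_num)]; norm_num

theorem b2_zero_step (C : ℝ) (hC : 1 ≤ C) {t : ℝ} (ht : t = 5 / 2 ∨ t = 3 / 2 ∨ t = 1 / 2) :
    ∃ C' : ℝ, 1 ≤ C' ∧ ∀ θ : ℝ, θ < 1 → ∃ m0 : ℕ, ∀ m ≥ m0,
      ∀ (β X0 : ℝ) (q : ℝ → ℂ) (U : Set ℝ), β ∈ Icc (1 / 4 : ℝ) (1 / 2) → X0 ∈ Icc (2 : ℝ) 4 →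
        SmSol m β q U → Ici X0 ⊆ U → Tendsto (Mj m β q 4) atTop (𝓝 0) →
        Apr m β q θ C t (Ici X0) → Apr m β q θ C' (max (t - 1) 0) (Ici X0) := by
  obtain ⟨K, hK, hgain⟩ := b2_gain 50
  have hKC : C ≤ K * C := by nlinarith
  refine ⟨81 * (32 * (K * C)), by linarith, fun θ hθ => ?_⟩
  obtain ⟨m1, hs⟩ := b2_small 4 hθ C one_pos
  refine ⟨m1 + 8, fun m hm β X0 q U hβ hX0 h hU hM hA => ?_⟩
  have h2 := hX0.1
  have ht0 : 0 ≤ t := by rcases ht with rfl | rfl | rfl <;> norm_num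
  have ht1 : t ≤ 5 / 2 := by rcases ht with rfl | rfl | rfl <;> norm_num
  have hw4 : wt t 4 = t := by rcases ht with rfl | rfl | rfl <;> norm_num [wt]
  obtain ⟨k1, ha0, ha1, -, k2, k3⟩ := b2_coef (show 8 ≤ m by omega) hβ 4
  have h4 := hgain _ _ _ _ _ X0 C t (by rw [k1]; norm_num; linarith) (k2.trans (by norm_num))
    (k3.trans (by norm_num)) ⟨by linarith, hX0.2⟩ ⟨ht0, ht1⟩
    (by rcases ht with rfl | rfl | rfl <;> norm_num [abs_of_nonneg, abs_of_nonpos])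
    (fun X hX => b2_lev (show 1 ≤ m by omega) h 4 X (hU hX)) hM
    (fun X hX => hw4 ▸ (hA X hX).2 4 le_rfl) (fun X hX => by
      have e := (hs m (by omega) _ U (wt t) X h.isOpen (b2_Gt_sm h) (hU hX) (by linarith)
        (b2_supA_wt ht0 (by linarith)) (hA X hX).1 (hA X hX).2 4 le_rfl).1
      rw [hw4] at e
      have : 0 ≤ X ^ t := Real.rpow_nonneg (by linarith) _
      exact e.trans (by nlinarith))
  refine fun X hX => ⟨(hA X hX).1, ?_⟩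
  refine b2_down (show 1 ≤ m by omega) h (by linarith) (Y := X) (fun Z hZ => hU hZ.1) ?_
    (fun j hj => ?_) (fun Z hZ => ?_) X ⟨hX, le_rfl⟩
  · rcases ht with rfl | rfl | rfl <;> norm_num
  · have e := (hA X0 self_mem_Ici).2 j (by omega)
    have : X0 ^ wt t j ≤ 32 := b2zero_pow hX0 (by
      have : (j : ℝ) ≤ 3 := by exact_mod_cast hj
      unfold wt
      split_ifs
      · norm_num
      · exact max_le (by linarith) (by norm_num))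
    nlinarith
  · have e := h4 Z hZ.1
    have : 0 ≤ Z ^ max (t - 1) 0 := Real.rpow_nonneg (by linarith [hZ.1]) _
    have : 0 ≤ K * C * Z ^ max (t - 1) 0 := by positivity
    linarith

theorem b2_zero (C : ℝ) (hC : 1 ≤ C) : ∃ C' : ℝ, 1 ≤ C' ∧ ∀ θ : ℝ, θ < 1 → ∃ m0 : ℕ, ∀ m ≥ m0,
    ∀ (β X0 : ℝ) (q : ℝ → ℂ) (U : Set ℝ), β ∈ Icc (1 / 4 : ℝ) (1 / 2) → X0 ∈ Icc (2 : ℝ) 4 →
      SmSol m β q U → Ici X0 ⊆ U → Tendsto (Mj m β q 4) atTop (𝓝 0) →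
      Apr m β q θ C (5 / 2) (Ici X0) → ∀ j ≤ 4, ∀ X, X0 ≤ X → ‖Gj m β q j X‖ ≤ C' := by
  obtain ⟨C1, hC1, H1⟩ := b2_zero_step C hC (t := 5 / 2) (Or.inl rfl)
  obtain ⟨C2, hC2, H2⟩ := b2_zero_step C1 hC1 (t := 3 / 2) (Or.inr (Or.inl rfl))
  obtain ⟨C3, hC3, H3⟩ := b2_zero_step C2 hC2 (t := 1 / 2) (Or.inr (Or.inr rfl))
  refine ⟨C3, hC3, fun θ hθ => ?_⟩
  obtain ⟨m1, H1⟩ := H1 θ hθ
  obtain ⟨m2, H2⟩ := H2 θ hθ
  obtain ⟨m3, H3⟩ := H3 θ hθ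
  refine ⟨m1 + m2 + m3, fun m hm β X0 q U hβ hX0 h hU hM hA j hj X hX => ?_⟩
  have a1 := H1 m (by omega) β X0 q U hβ hX0 h hU hM hA
  rw [show max (5 / 2 - 1 : ℝ) 0 = 3 / 2 by norm_num] at a1
  have a2 := H2 m (by omega) β X0 q U hβ hX0 h hU hM a1
  rw [show max (3 / 2 - 1 : ℝ) 0 = 1 / 2 by norm_num] at a2
  have a3 := H3 m (by omega) β X0 q U hβ hX0 h hU hM a2
  rw [show max (1 / 2 - 1 : ℝ) 0 = 0 by norm_num] at a3
  have e := (a3 X hX).2 j hj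
  have : wt 0 j = 0 := by
    have : (j : ℝ) ≤ 4 := by exact_mod_cast hj
    unfold wt
    split_ifs
    · rfl
    · exact max_eq_right (by linarith)
  simpa [this] using e

end Vale.Agent.P139
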