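import Vale.Agent.P139.B2.Green
import Vale.Agent.P139.B2.Desc
import Vale.Agent.P139.B2.Cont
import Vale.Agent.P139.B2.Zero
import Vale.Agent.P139.B2.Jet
import Vale.Agent.P139.B2.Symb
import Vale.Agent.P139.B2.Low

/-! P139 part B2: assembly. -/

noncomputable section

open MeasureTheory Filter Topology Set Complex
open scoped ComplexConjugate ContDiff

namespace Vale.Agent.P139

theorem b2_adm {m : ℕ} {β X0 κ : ℝ} {q : ℝ → ℂ} (h : Adm m β q X0 κ) : ExtDat β q X0 κ where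
  X0_mem := ⟨h.X0_mem.1, h.X0_mem.2.trans (by norm_num)⟩
  β_mem := ⟨le_trans (by norm_num [βlo]) h.β_mem.1, h.β_mem.2.trans (by norm_num [βhi])⟩
  low := h.low
  der := h.der.trans (by norm_num)
  en := h.en

theorem b2_wt_le (j : ℕ) (hj : j ≤ 4) : wt (5 / 2) j ≤ 5 / 2 := by
  have : (j : ℝ) ≤ 4 := by exact_mod_cast hj
  unfold wt
  split_ifs
  · norm_num
  · exact max_le (by linarith) (by norm_num)

theorem b2_den {m : ℕ} {β X0 k : ℝ} (hX : 1 ≤ X0) (hk : 0 < k)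
    (h : k ≤ ‖yF (nu0 m β - 5 / 2 + 4) (5 / 2) X0‖) :
    k ≤ ‖yF (nu0 m β - 5 / 2 + 4) (5 / 2) X0 * exp (I * X0) * ((X0 ^ (5 / 2 : ℝ) : ℝ) : ℂ)‖ := by
  have h1 : 1 ≤ X0 ^ (5 / 2 : ℝ) := Real.one_le_rpow hX (by norm_num)
  rw [norm_mul, norm_mul, norm_exp_I_mul_ofReal, mul_one, Complex.norm_real,
    Real.norm_of_nonneg (by linarith)]
  nlinarith

theorem b2_q_le {m : ℕ} {β X θ : ℝ} {q : ℝ → ℂ} (hX : 1 ≤ X) (hθ : θ < 1)
    (h : ‖Gt m β q X‖ ≤ θ) : normSq (q X) ^ m ≤ 1 := by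
  rw [b2_Gt_norm m β q (by linarith)] at h
  have h1 : 1 ≤ X ^ aa m := Real.one_le_rpow hX (by unfold aa; positivity)
  have h2 : ‖q X‖ ≤ 1 := by nlinarith [norm_nonneg (q X)]
  refine pow_le_one₀ (normSq_nonneg _) ?_
  rw [normSq_eq_norm_sq]
  exact pow_le_one₀ (norm_nonneg _) h2

theorem b2_all : ∃ C : ℝ, 0 < C ∧ ∀ κ : ℝ, 0 < κ → ∀ ε : ℝ, 0 < ε → ∃ m0 : ℕ, ∀ m : ℕ, m0 ≤ m →
    ∀ (S : Set (ℝ × ℝ)) (β X0 : ℝ × ℝ → ℝ) (q : ℝ × ℝ → ℝ → ℂ),
      ContinuousOn β S → ContinuousOn X0 S →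
      Continuous (fun y : (ℝ × ℝ) × ℝ => q y.1 y.2) →
      Continuous (fun y : (ℝ × ℝ) × ℝ => deriv (q y.1) y.2) →
      (∀ p ∈ S, Adm m (β p) (q p) (X0 p) κ) →
      ∃ M : ℝ × ℝ → ℂ, ContinuousOn M S ∧ ∀ p ∈ S,
        ‖M p - mis0 m (β p) (q p) (X0 p)‖ ≤ ε ∧
        (M p = 0 → ExtGood m (β p) (q p) (X0 p) ε C) := by
  obtain ⟨C0, hC0, hapri⟩ := b2_apri
  obtain ⟨C1, hC1, hzero⟩ := b2_zero C0 hC0
  obtain ⟨C2, hC2, hlow⟩ := b2_low C1 hC1
  obtain ⟨K1, hK1, htail⟩ := b2_Wr_tail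
  obtain ⟨K2, hK2, hdesc⟩ := b2_desc
  obtain ⟨k, hk, hyF⟩ := b2_yF_ge
  refine ⟨max C1 C2, lt_max_of_lt_left (by linarith), fun κ hκ ε hε => ?_⟩
  obtain ⟨θ, hθ, m1, hapri⟩ := hapri κ hκ
  have hD : 0 < 32 * K2 + K1 / k := by positivity
  set r := ε / (32 * K2 + K1 / k) with hr
  have hr0 : 0 < r := by positivity
  obtain ⟨m2, hs2⟩ := b2_small 4 hθ C0 hr0
  obtain ⟨m3, hzero⟩ := hzero θ hθ
  obtain ⟨m4, hs4⟩ := b2_small 4 hθ C1 (lt_min hε one_pos)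
  refine ⟨m1 + m2 + m3 + m4 + 8, fun m hm S β X0 q hβ hX0 hq hq' hA => ?_⟩
  have hm8 : 8 ≤ m := by omega
  have key : ∀ p ∈ S, Ici (X0 p) ⊆ {X | 0 < X ∧ normSq (q p X) ^ m < 4} ∧
      SmSol m (β p) (q p) {X | 0 < X ∧ normSq (q p X) ^ m < 4} ∧
      Apr m (β p) (q p) θ C0 (5 / 2) (Ici (X0 p)) := fun p hp =>
    hapri m (by omega) _ _ _ (hA p hp).sol (b2_adm (hA p hp))
  have hR : ∀ p ∈ S, ∀ X, X0 p ≤ X → ∀ j ≤ 4,
      ‖Rj m (β p) (q p) j X‖ ≤ r * X ^ wt (5 / 2) j := fun p hp X hX j hj => by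
    obtain ⟨hU, hsm, hapr⟩ := key p hp
    exact (hs2 m (by omega) _ _ (wt (5 / 2)) X hsm.isOpen (b2_Gt_sm hsm) (hU hX)
      (by linarith [(hA p hp).X0_mem.1]) (b2_supA_wt (by norm_num) (by norm_num))
      (hapr X hX).1 (hapr X hX).2 j hj).1
  have hw4 : wt (5 / 2) 4 = 5 / 2 := by norm_num [wt]
  have hT := fun p (hp : p ∈ S) => htail m (β p) (X0 p) r (q p) _ hm8 (b2_adm (hA p hp)).β_mem
    (by linarith [(hA p hp).X0_mem.1]) (key p hp).2.1 (key p hp).1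
    (fun X hX => hw4 ▸ hR p hp X hX 4 le_rfl)
  refine ⟨fun p => nmis m (β p) (q p) (X0 p), ?_, fun p hp => ?_⟩
  · refine b2_nmis_cont (B := K1 * r) (by omega) (fun p hp => ⟨(key p hp).2.1, fun X hX =>
      (key p hp).1 (le_trans (b2_adm (hA p hp)).X0_mem.2 hX), by linarith [(hA p hp).X0_mem.1],
      fun X hX => (hT p hp).2 X (le_trans (b2_adm (hA p hp)).X0_mem.2 hX)⟩) hβ hX0
      (fun X => ?_) (fun X => ?_)
    · exact (hq.comp (continuous_id.prodMk continuous_const)).continuousOn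
    · exact (hq'.comp (continuous_id.prodMk continuous_const)).continuousOn
  obtain ⟨hU, hsm, hapr⟩ := key p hp
  have hd := b2_adm (hA p hp)
  have h2 := hd.X0_mem.1
  obtain ⟨-, ha0, ha1, -⟩ := b2_coef hm8 hd.β_mem 0
  have hden := b2_den (by linarith) hk (hyF (nu0 m (β p) - 5 / 2 + 4) (X0 p)
    (by simp only [nu0, mem_Icc]; norm_num; constructor <;> linarith)
    (by simp only [nu0]; norm_num; rw [abs_of_nonneg] <;> linarith [hd.β_mem.1, hd.β_mem.2])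
    hd.X0_mem)
  constructor
  · have h32 : ∀ j ≤ 3, ‖Rj m (β p) (q p) j (X0 p)‖ ≤ 32 * r := fun j hj => by
      refine (hR p hp _ le_rfl j (by omega)).trans ?_
      have : X0 p ^ wt (5 / 2) j ≤ 32 := calc
        X0 p ^ wt (5 / 2) j ≤ X0 p ^ (5 / 2 : ℝ) :=
          Real.rpow_le_rpow_of_exponent_le (by linarith) (b2_wt_le j (by omega))
        _ ≤ (2 ^ 2 : ℝ) ^ (5 / 2 : ℝ) :=
          Real.rpow_le_rpow (by linarith) (by linarith [hd.X0_mem.2]) (by norm_num)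
        _ = 32 := by
          rw [← Real.rpow_natCast, ← Real.rpow_mul (by norm_num)]; norm_num
      nlinarith
    have e1 := hdesc m (β p) (X0 p) (32 * r) (q p) _ hm8 hd.β_mem hd.X0_mem hsm (hU self_mem_Ici) h32
    have e2 := (hT p hp).2 (X0 p) le_rfl
    have e3 : X0 p ^ (-(1 / 2) : ℝ) ≤ 1 :=
      Real.rpow_le_one_of_one_le_of_nonpos (by linarith) (by norm_num)
    have e4 : ‖nmis m (β p) (q p) (X0 p) - Wr m (β p) (q p) (X0 p) /
        (yF (nu0 m (β p) - 5 / 2 + 4) (5 / 2) (X0 p) * exp (I * X0 p) *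
          ((X0 p ^ (5 / 2 : ℝ) : ℝ) : ℂ))‖ ≤ K1 / k * r := by
      rw [nmis, ← sub_div, norm_div, div_le_iff₀ (by linarith)]
      have : K1 / k * r * k = K1 * r := by field_simp
      have h5 : 0 ≤ K1 / k * r := by positivity
      have h6 : 0 ≤ K1 * r := by positivity
      nlinarith
    have e5 : (32 * K2 + K1 / k) * r = ε := by rw [hr]; field_simp
    have := norm_sub_le_norm_sub_add_norm_sub (nmis m (β p) (q p) (X0 p)) _
      (mis0 m (β p) (q p) (X0 p)) |>.trans (add_le_add e4 e1)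
    linarith
  intro h0
  have hne : yF (nu0 m (β p) - 5 / 2 + 4) (5 / 2) (X0 p) * exp (I * X0 p) *
      ((X0 p ^ (5 / 2 : ℝ) : ℝ) : ℂ) ≠ 0 := norm_pos_iff.1 (by linarith)
  have hlim : limUnder atTop (Wr m (β p) (q p)) = 0 := (div_eq_zero_iff.1 h0).resolve_right hne
  have hM := b2_M_zero hm8 hd.β_mem hsm hU (B := C0)
    (fun X hX => hw4 ▸ (hapr X hX).2 4 le_rfl) (hlim ▸ (hT p hp).1)
  have hj := hzero m (by omega) _ _ _ _ hd.β_mem hd.X0_mem hsm hU hM hapr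
  have hP : ∀ X, X0 p ≤ X → normSq (q p X) ^ m ≤ 1 := fun X hX =>
    b2_q_le (by linarith) hθ (hapr X hX).1
  have hsm0 : SmSol m (β p) (q p) (Ioi 0) := b2_smsol (hA p hp).sol isOpen_Ioi Subset.rfl
    fun X hX => by
      rcases le_total X (X0 p) with h | h
      · exact ((hA p hp).inner X ⟨le_of_lt hX, h⟩).trans (by norm_num)
      · exact (hP X h).trans (by norm_num)
  have hs := fun X (hX : X0 p ≤ X) => hs4 m (by omega) _ _ (fun _ => 0) X hsm.isOpen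
    (b2_Gt_sm hsm) (hU hX) (by linarith) (b2_supA_zero 4) (hapr X hX).1
    (fun j hj4 => by simpa [Gj] using hj j hj4 X hX)
  simp only [Real.rpow_zero, mul_one] at hs
  have hjet := b2_jet hm8 hd.β_mem hd.X0_mem hsm0 hθ (fun X hX => (hapr X hX).1) ⟨C1, hj⟩ hM
  refine ⟨hP, hjet, b2_symb hsm0 hjet, fun j hj4 X hX => ⟨(hs X hX j hj4).2.2.1.trans
    (min_le_left _ _), (hs X hX j hj4).2.2.2.trans (min_le_left _ _)⟩,
    fun j hj4 X hX => (hj j hj4 X hX).trans (le_max_left _ _), fun X hX => ?_⟩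
  refine le_trans ?_ (hlow m _ _ _ _ _ hm8 hsm hd hU hj
    (fun j hj4 X hX => (hs X hX j hj4).2.1.trans (min_le_right _ _)) X hX)
  exact one_div_le_one_div_of_le (by linarith) (le_max_right _ _)

end Vale.Agent.P139
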