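import Vale.Agent.P139.B2.Int

/-! P139 B2: the linear estimate at level four.
Plan: `M = X^(-κ) e^(iX) h`, `Ĝ = g + i h / X²` (`b2_M_deriv`, `b2_hat_deriv`), so
`‖h‖ = X^(re κ) ‖M‖`, `g = Ĝ - i h / X²`, `‖g‖ ≤ X^(5/2) V` where `V = ‖M‖ + ‖Ĝ‖ / X^(5/2)`
(as `re κ - 2 ≤ 5/2`). Then `‖M'‖ ≤ s^(-3/2) (r + 50 V)`,
`‖Ĝ'‖ / s^(5/2) ≤ 16 s^(-5/4) V + s^(-2) (r + 50 V)` (as `re κ - 3 - 5/2 ≤ -5/4`). FTC on `[X0, X]`
(`intervalIntegral.integral_eq_sub_of_hasDerivAt`, integrands continuous), and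
`1 / X^(5/2) ≤ 1 / s^(5/2)` for `s ≤ X`, give
`V X ≤ 3 d + ∫ s^(-5/4) (2 r + 116 V) ≤ 3 d + 8 r + ∫ 116 s^(-5/4) V`; `b2_gron`. -/

noncomputable section

open MeasureTheory Filter Topology Set Complex
open scoped ComplexConjugate ContDiff

namespace Vale.Agent.P139

theorem b2_M_deriv {κ c : ℂ} {g h R : ℝ → ℂ} {S : Set ℝ} (H : Lev κ c g h R S) {X : ℝ}
    (hX : X ∈ S) (h0 : 0 < X) : HasDerivAt (fun Y : ℝ => (Y : ℂ) ^ (-κ) * exp (I * Y) * h Y)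
      ((X : ℂ) ^ (-κ) * exp (I * X) * (c * g X - R X)) X := by
  have hx : (X : ℂ) ≠ 0 := ofReal_ne_zero.2 h0.ne'
  have h1 : HasDerivAt (fun Y : ℝ => (Y : ℂ) ^ (-κ)) (-κ / X * (X : ℂ) ^ (-κ)) X := by
    by_cases hκ : -κ = 0
    · simp only [hκ, cpow_zero, zero_div, zero_mul]
      exact hasDerivAt_const X _
    · refine (hasDerivAt_ofReal_cpow_const h0.ne' hκ).congr_deriv ?_
      rw [cpow_sub _ _ hx, cpow_one]
      ring
  have h2 : HasDerivAt (fun Y : ℝ => exp (I * Y)) (exp (I * X) * I) X := by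
    simpa using ((hasDerivAt_id X).ofReal_comp.const_mul I).cexp
  refine ((h1.mul h2).mul (H X hX).2).congr_deriv ?_
  simp only [Pi.mul_apply]
  ring

theorem b2_M_norm (κ z : ℂ) {X : ℝ} (h0 : 0 < X) :
    ‖(X : ℂ) ^ (-κ) * exp (I * X) * z‖ = X ^ (-κ.re) * ‖z‖ := by
  rw [norm_mul, norm_mul, norm_cpow_eq_rpow_re_of_pos h0, norm_exp_I_mul_ofReal, mul_one, neg_re]

theorem b2_hat_deriv {κ c : ℂ} {g h R : ℝ → ℂ} {S : Set ℝ} (H : Lev κ c g h R S) {X : ℝ}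
    (hX : X ∈ S) (h0 : 0 < X) : HasDerivAt (fun Y : ℝ => g Y + I * h Y / Y ^ 2)
      (I * (κ - 2) * h X / X ^ 3 + I * (c * g X - R X) / X ^ 2) X := by
  have hx : (X : ℂ) ≠ 0 := ofReal_ne_zero.2 h0.ne'
  have h1 : HasDerivAt (fun Y : ℝ => (Y : ℂ) ^ 2) (2 * X) X := by
    simpa using ((hasDerivAt_id X).ofReal_comp).fun_pow 2
  refine ((H X hX).1.add (((H X hX).2.const_mul I).div h1 (pow_ne_zero 2 hx))).congr_deriv ?_
  field_simp
  linear_combination (-(X * h X)) * I_mul_I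

theorem b2lin_pw {s k : ℝ} (hs : 1 ≤ s) (hk : k ∈ Icc (4 : ℝ) (17 / 4)) :
    s ^ (-k) * s ^ (5 / 2 : ℝ) ≤ s ^ (-5 / 4 : ℝ) ∧ s ^ k / s ^ 2 ≤ s ^ (5 / 2 : ℝ) ∧
      s ^ k / s ^ 3 ≤ s ^ (5 / 2 : ℝ) * s ^ (-5 / 4 : ℝ) ∧ 1 / s ^ 2 ≤ s ^ (-5 / 4 : ℝ) := by
  have h0 : 0 < s := by linarith
  refine ⟨?_, ?_, ?_, ?_⟩
  · rw [← Real.rpow_add h0]
    exact Real.rpow_le_rpow_of_exponent_le hs (by linarith [hk.1])
  · rw [← Real.rpow_sub_natCast h0.ne']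
    exact Real.rpow_le_rpow_of_exponent_le hs (by push_cast; linarith [hk.2])
  · rw [← Real.rpow_sub_natCast h0.ne', ← Real.rpow_add h0]
    exact Real.rpow_le_rpow_of_exponent_le hs (by push_cast; linarith [hk.2])
  · rw [one_div, ← Real.rpow_natCast, ← Real.rpow_neg h0.le]
    exact Real.rpow_le_rpow_of_exponent_le hs (by push_cast; linarith)

/-- The pointwise bounds, `U = ‖M‖ + ‖Ĝ‖ / s^(5/2) + r`. -/
theorem b2lin_pt {κ c g h R : ℂ} {s r U : ℝ} (hk : κ.re ∈ Icc (4 : ℝ) (17 / 4)) (hκ : ‖κ‖ ≤ 14)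
    (hc : ‖c‖ ≤ 50) (hs : 1 ≤ s) (hr : 0 ≤ r) (hR : ‖R‖ ≤ r * s ^ (5 / 2 : ℝ))
    (hU : U = ‖(s : ℂ) ^ (-κ) * exp (I * s) * h‖ + ‖g + I * h / s ^ 2‖ / s ^ (5 / 2 : ℝ) + r) :
    ‖g‖ ≤ s ^ (5 / 2 : ℝ) * U ∧
      ‖(s : ℂ) ^ (-κ) * exp (I * s) * (c * g - R)‖ ≤ 50 * s ^ (-5 / 4 : ℝ) * U ∧
      ‖I * (κ - 2) * h / s ^ 3 + I * (c * g - R) / s ^ 2‖ ≤
        s ^ (5 / 2 : ℝ) * (66 * s ^ (-5 / 4 : ℝ) * U) := by
  have h0 : 0 < s := by linarith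
  obtain ⟨p1, p2, p3, p4⟩ := b2lin_pw hs hk
  have e1 : ‖h‖ = s ^ κ.re * ‖(s : ℂ) ^ (-κ) * exp (I * s) * h‖ := by
    rw [b2_M_norm κ h h0, ← mul_assoc, ← Real.rpow_add h0, add_neg_cancel, Real.rpow_zero, one_mul]
  rw [b2_M_norm κ (c * g - R) h0]
  have e2 : ‖g‖ ≤ ‖g + I * h / s ^ 2‖ + ‖h‖ / s ^ 2 := by
    have a1 := norm_sub_le (g + I * h / s ^ 2) (I * h / s ^ 2)
    rwa [add_sub_cancel_right, norm_div, norm_mul, norm_I, one_mul, norm_pow, norm_real,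
      Real.norm_of_nonneg h0.le] at a1
  have e3 : ‖I * (κ - 2) * h / s ^ 3 + I * (c * g - R) / s ^ 2‖ ≤
      16 * (‖h‖ / s ^ 3) + ‖c * g - R‖ * (1 / s ^ 2) := by
    refine (norm_add_le _ _).trans (add_le_add ?_ (le_of_eq ?_))
    · simp only [norm_div, norm_mul, norm_I, one_mul, norm_pow, norm_real,
        Real.norm_of_nonneg h0.le, mul_div_assoc]
      refine mul_le_mul_of_nonneg_right ((norm_sub_le _ _).trans ?_) (by positivity)
      rw [Complex.norm_two]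
      linarith
    · simp only [norm_div, norm_mul, norm_I, one_mul, norm_pow, norm_real,
        Real.norm_of_nonneg h0.le, mul_one_div]
  have e4 : ‖c * g - R‖ ≤ 50 * ‖g‖ + r * s ^ (5 / 2 : ℝ) := by
    refine (norm_sub_le _ _).trans (add_le_add ?_ hR)
    rw [norm_mul]
    exact mul_le_mul_of_nonneg_right hc (norm_nonneg _)
  generalize ‖(s : ℂ) ^ (-κ) * exp (I * s) * h‖ = m at *
  have hm : 0 ≤ m := by
    have a1 := norm_nonneg h
    rw [e1] at a1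
    exact nonneg_of_mul_nonneg_right a1 (Real.rpow_pos_of_pos h0 _)
  have hp : 0 < s ^ (5 / 2 : ℝ) := Real.rpow_pos_of_pos h0 _
  have hq : 0 < s ^ (-5 / 4 : ℝ) := Real.rpow_pos_of_pos h0 _
  have hn : 0 < s ^ (-κ.re) := Real.rpow_pos_of_pos h0 _
  have hG : 0 ≤ ‖g + I * h / s ^ 2‖ / s ^ (5 / 2 : ℝ) := by positivity
  have e5 : ‖g + I * h / s ^ 2‖ = s ^ (5 / 2 : ℝ) * (‖g + I * h / s ^ 2‖ / s ^ (5 / 2 : ℝ)) := by
    field_simp
  generalize ‖g + I * h / s ^ 2‖ / s ^ (5 / 2 : ℝ) = G at *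
  generalize s ^ (5 / 2 : ℝ) = p at *
  generalize s ^ (-5 / 4 : ℝ) = q at *
  have f1 : ‖h‖ / s ^ 2 ≤ p * m := by
    rw [e1, mul_div_right_comm]
    exact mul_le_mul_of_nonneg_right p2 hm
  have f2 : ‖h‖ / s ^ 3 ≤ p * q * m := by
    rw [e1, mul_div_right_comm]
    exact mul_le_mul_of_nonneg_right p3 hm
  have f3 : ‖g‖ ≤ p * (m + G) := by linarith
  have f4 : 0 ≤ p * r := by positivity
  have hU0 : 0 ≤ U := by linarith
  have f5 : ‖c * g - R‖ ≤ p * (50 * U) := by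
    rw [hU]
    linarith
  refine ⟨?_, ?_, ?_⟩
  · rw [hU]
    linarith
  · have a1 := mul_le_mul_of_nonneg_left f5 hn.le
    have a2 := mul_le_mul_of_nonneg_right p1 (show 0 ≤ 50 * U by positivity)
    linarith
  · have a1 := mul_le_mul f5 p4 (by positivity) (by positivity)
    have a2 := mul_le_mul_of_nonneg_left (show m ≤ U by linarith) (show 0 ≤ p * q by positivity)
    linarith

theorem b2lin_ftc {f f' : ℝ → ℂ} {B : ℝ → ℝ} {a b : ℝ} (hab : a ≤ b)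
    (hf : ∀ s ∈ Icc a b, HasDerivAt f (f' s) s) (hB : ∀ s ∈ Icc a b, ‖f' s‖ ≤ B s)
    (hc : ContinuousOn B (Icc a b)) : ‖f b‖ ≤ ‖f a‖ + ∫ s in a..b, B s := by
  have h1 := norm_sub_le_integral_of_norm_deriv_le_of_le hab
    (fun s hs => (hf s hs).continuousAt.continuousWithinAt)
    (fun s hs => (hf s (Ioo_subset_Icc_self hs)).differentiableAt.differentiableWithinAt)
    (ae_of_all _ fun s hs => by
      rw [(hf s (Ioo_subset_Icc_self hs)).deriv]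
      exact hB s (Ioo_subset_Icc_self hs)) (hc.intervalIntegrable_of_Icc hab)
  linarith [norm_sub_norm_le (f b) (f a)]

theorem b2_lin : ∃ K : ℝ, 1 ≤ K ∧ ∀ (κ c : ℂ) (g h R : ℝ → ℂ) (X0 Y d r : ℝ),
    κ.re ∈ Icc (4 : ℝ) (17 / 4) → ‖κ‖ ≤ 14 → ‖c‖ ≤ 50 → 1 ≤ X0 → 0 ≤ r →
    Lev κ c g h R (Icc X0 Y) → ContinuousOn R (Icc X0 Y) → ‖g X0‖ ≤ d → ‖h X0‖ ≤ d →
    (∀ X ∈ Icc X0 Y, ‖R X‖ ≤ r * X ^ (5 / 2 : ℝ)) →
    ∀ X ∈ Icc X0 Y, ‖g X‖ ≤ K * (d + r) * X ^ (5 / 2 : ℝ) := by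
  refine ⟨3 * Real.exp (4 * 116), by linarith [Real.add_one_le_exp (4 * 116)],
    fun κ c g h R X0 Y d r hk hκ hc h1 hr H _ hg hh hR => ?_⟩
  have hd : 0 ≤ d := (norm_nonneg _).trans hg
  have hp : ∀ s ∈ Icc X0 Y, 0 < s := fun s hs => by linarith [hs.1]
  obtain ⟨U, hU⟩ : ∃ U : ℝ → ℝ, U = fun s : ℝ => ‖(s : ℂ) ^ (-κ) * exp (I * s) * h s‖ +
    ‖g s + I * h s / s ^ 2‖ / s ^ (5 / 2 : ℝ) + r := ⟨_, rfl⟩
  have hP := fun s (hs : s ∈ Icc X0 Y) =>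
    b2lin_pt (g := g s) (h := h s) hk hκ hc (h1.trans hs.1) hr (hR s hs) (congrFun hU s)
  have hpow : ∀ t : ℝ, ContinuousOn (fun s : ℝ => s ^ t) (Icc X0 Y) := fun t =>
    continuousOn_id.rpow_const fun s hs => Or.inl (hp s hs).ne'
  have hUc : ContinuousOn U (Icc X0 Y) := by
    rw [hU]
    refine (ContinuousOn.add (ContinuousOn.norm fun s hs => ?_) ((ContinuousOn.norm
      fun s hs => ?_).div (hpow _) fun s hs => (Real.rpow_pos_of_pos (hp s hs) _).ne')).add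
      continuousOn_const
    · exact (b2_M_deriv H hs (hp s hs)).continuousAt.continuousWithinAt
    · exact (b2_hat_deriv H hs (hp s hs)).continuousAt.continuousWithinAt
  have hU0 : ∀ s ∈ Icc X0 Y, 0 ≤ U s := fun s hs => by
    have := Real.rpow_pos_of_pos (hp s hs) (5 / 2)
    rw [hU]
    positivity
  have hW : ContinuousOn (fun s : ℝ => s ^ (-5 / 4 : ℝ) * U s) (Icc X0 Y) := (hpow _).mul hUc
  have key := b2_gron (V := U) (A := 3 * d + r) (K := 116) h1 (by norm_num) (by positivity) hUc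
    fun X hX => by
    have hs : Icc X0 X ⊆ Icc X0 Y := Icc_subset_Icc_right hX.2
    have hX0 : X0 ∈ Icc X0 Y := ⟨le_rfl, hX.1.trans hX.2⟩
    have hq : 1 ≤ X ^ (5 / 2 : ℝ) := Real.one_le_rpow (h1.trans hX.1) (by norm_num)
    have a1 := b2lin_ftc (B := fun s => 50 * (s ^ (-5 / 4 : ℝ) * U s)) hX.1
      (fun s h2 => b2_M_deriv H (hs h2) (hp s (hs h2)))
      (fun s h2 => (hP s (hs h2)).2.1.trans_eq (mul_assoc _ _ _))
      (continuousOn_const.mul (hW.mono hs))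
    have a2 := b2lin_ftc (B := fun s => X ^ (5 / 2 : ℝ) * 66 * (s ^ (-5 / 4 : ℝ) * U s)) hX.1
      (fun s h2 => b2_hat_deriv H (hs h2) (hp s (hs h2)))
      (fun s h2 => (hP s (hs h2)).2.2.trans (by
        have b1 := Real.rpow_le_rpow (hp s (hs h2)).le h2.2 (show (0 : ℝ) ≤ 5 / 2 by norm_num)
        have b2 := Real.rpow_pos_of_pos (hp s (hs h2)) (-5 / 4)
        have b3 := hU0 s (hs h2)
        have b4 := mul_le_mul_of_nonneg_right b1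
          (show 0 ≤ 66 * s ^ (-5 / 4 : ℝ) * U s by positivity)
        linarith))
      (continuousOn_const.mul (hW.mono hs))
    have a3 : ‖(X0 : ℂ) ^ (-κ) * exp (I * X0) * h X0‖ ≤ d := by
      rw [b2_M_norm κ _ (hp _ hX0)]
      exact (mul_le_of_le_one_left (norm_nonneg _)
        (Real.rpow_le_one_of_one_le_of_nonpos h1 (by linarith [hk.1]))).trans hh
    have a4 : ‖g X0 + I * h X0 / X0 ^ 2‖ ≤ d + d := by
      refine (norm_add_le _ _).trans (add_le_add hg ?_)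
      rw [norm_div, norm_mul, norm_I, one_mul, norm_pow, norm_real,
        Real.norm_of_nonneg (hp _ hX0).le]
      exact (div_le_self (norm_nonneg _) (one_le_pow₀ h1)).trans hh
    simp only [mul_assoc, intervalIntegral.integral_const_mul] at a1 a2 ⊢
    have a5 : ‖g X + I * h X / X ^ 2‖ / X ^ (5 / 2 : ℝ) ≤
        d + d + 66 * ∫ s in X0..X, s ^ (-5 / 4 : ℝ) * U s := by
      rw [div_le_iff₀ (by linarith)]
      have b1 := mul_le_mul_of_nonneg_left hq (show 0 ≤ d + d by positivity)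
      linarith
    have a6 := congrFun hU X
    simp only [mul_assoc] at a3 a6
    linarith
  intro X hX
  have a1 := (hP X hX).1.trans (mul_le_mul_of_nonneg_left (key X hX)
    (Real.rpow_pos_of_pos (hp X hX) _).le)
  have a2 : 0 ≤ X ^ (5 / 2 : ℝ) * (r * Real.exp (4 * 116)) := by
    have := Real.rpow_pos_of_pos (hp X hX) (5 / 2)
    positivity
  linarith

end Vale.Agent.P139
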