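import Vale.Agent.P139.B2.Init
import Vale.Agent.P139.B2.Lin

/-! P139 B2: the a priori estimate in the exterior region. -/

noncomputable section

open MeasureTheory Filter Topology Set Complex
open scoped ComplexConjugate ContDiff

namespace Vale.Agent.P139

theorem b2_down {m : ℕ} {β X0 Y B t : ℝ} {q : ℝ → ℂ} {U : Set ℝ} (hm : 1 ≤ m)
    (h : SmSol m β q U) (h1 : 1 ≤ X0) (hY : Icc X0 Y ⊆ U)
    (ht : t = 5 / 2 ∨ t = 3 / 2 ∨ t = 1 / 2 ∨ t = 0) (h0 : ∀ j ≤ 3, ‖Gj m β q j X0‖ ≤ B)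
    (h4 : ∀ X ∈ Icc X0 Y, ‖Gj m β q 4 X‖ ≤ B * X ^ t) :
    ∀ X ∈ Icc X0 Y, ∀ j ≤ 4, ‖Gj m β q j X‖ ≤ 81 * B * X ^ wt t j := by
  have hB : 0 ≤ B := (norm_nonneg _).trans (h0 0 (by norm_num))
  have st : ∀ j ≤ 3, ∀ B' s : ℝ, B ≤ B' → 1 / 2 ≤ |s - 1| →
      (∀ X ∈ Icc X0 Y, ‖Gj m β q (j + 1) X‖ ≤ B' * X ^ s) →
      ∀ X ∈ Icc X0 Y, ‖Gj m β q j X‖ ≤ 3 * B' * X ^ max (s - 1) 0 := fun j hj B' s hB' hs hh =>
    b2_step h1 hs (fun X hX => (b2_lev hm h j X (hY hX)).1) ((h0 j hj).trans hB') hh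
  have e3 : max (t - 1) 0 = wt t 3 := by simp only [wt]; norm_num; ring_nf
  have e2 : max (wt t 3 - 1) 0 = wt t 2 := by
    rcases ht with rfl | rfl | rfl | rfl <;> norm_num [wt]
  have e1 : max (wt t 2 - 1) 0 = wt t 1 := by
    rcases ht with rfl | rfl | rfl | rfl <;> norm_num [wt]
  have e0 : max (wt t 1 - 1) 0 = wt t 0 := by norm_num [wt]
  have e4 : wt t 4 = t := by rcases ht with rfl | rfl | rfl | rfl <;> norm_num [wt]
  have g3 := st 3 le_rfl B t le_rfl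
    (by rcases ht with rfl | rfl | rfl | rfl <;> norm_num [abs_of_nonneg, abs_of_nonpos]) h4
  rw [e3] at g3
  have g2 := st 2 (by norm_num) _ _ (by linarith)
    (by rcases ht with rfl | rfl | rfl | rfl <;> norm_num [wt, abs_of_nonneg, abs_of_nonpos]) g3
  rw [e2] at g2
  have g1 := st 1 (by norm_num) _ _ (by linarith)
    (by rcases ht with rfl | rfl | rfl | rfl <;> norm_num [wt, abs_of_nonneg, abs_of_nonpos]) g2
  rw [e1] at g1
  have g0 := st 0 (by norm_num) _ _ (by linarith) (by norm_num [wt]) g1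
  rw [e0] at g0
  intro X hX j hj
  have hp : 0 ≤ B * X ^ wt t j := mul_nonneg hB (Real.rpow_nonneg (by linarith [hX.1]) _)
  interval_cases j
  · linarith [g0 X hX]
  · linarith [g1 X hX]
  · linarith [g2 X hX]
  · linarith [g3 X hX]
  · rw [e4] at hp ⊢
    linarith [h4 X hX]

theorem b2apri_wt (t : ℝ) (j : ℕ) : 0 ≤ wt t j := by
  unfold wt
  split_ifs
  · exact le_rfl
  · exact le_max_right _ _

theorem b2apri_q {m : ℕ} {β X θ : ℝ} {q : ℝ → ℂ} (hX : 1 ≤ X) (h : ‖Gt m β q X‖ ≤ θ) :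
    ‖q X‖ ≤ θ := by
  rw [b2_Gt_norm m β q (by linarith)] at h
  have h1 : 1 ≤ X ^ aa m := Real.one_le_rpow hX (by unfold aa; positivity)
  nlinarith [norm_nonneg (q X)]

theorem b2_improve : ∃ C : ℝ, 1 ≤ C ∧ ∀ c : ℝ, 0 < c → ∃ θ : ℝ, θ < 1 ∧ ∀ θ' : ℝ, θ' < 1 →
    ∃ m0 : ℕ, ∀ m ≥ m0, ∀ (β X0 : ℝ) (q : ℝ → ℂ) (U : Set ℝ), SmSol m β q U → ExtDat β q X0 c →
      X0 ∈ U → Apr m β q θ C (5 / 2) {X0} ∧ ∀ Y : ℝ, Icc X0 Y ⊆ U →
        Apr m β q θ' (2 * C) (5 / 2) (Icc X0 Y) → Apr m β q θ C (5 / 2) (Icc X0 Y) := by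
  obtain ⟨d, hd1, hinit⟩ := b2_init 4
  obtain ⟨K, hK, hlin⟩ := b2_lin
  have hB : d ≤ K * (d + 1) := by nlinarith
  refine ⟨81 * (K * (d + 1)), by linarith, fun c hc => ?_⟩
  set C := 81 * (K * (d + 1)) with hC
  have hC1 : 1 ≤ C := by linarith
  obtain ⟨θ0, hθ0, hG⟩ := b2_G_lt hc
  refine ⟨(1 + θ0) / 2, by linarith, fun θ' hθ' => ?_⟩
  set R := max 4 (2 * C / (1 - θ0)) with hR
  have hR4 : 4 ≤ R := le_max_left _ _
  have hCR : C / R ≤ (1 - θ0) / 2 := by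
    have : 2 * C / (1 - θ0) ≤ R := le_max_right _ _
    rw [div_le_iff₀ (by linarith)] at this
    rw [div_le_iff₀ (by linarith)]
    linarith
  obtain ⟨m1, hG⟩ := hG R
  obtain ⟨m2, hinit⟩ := hinit c hc
  obtain ⟨m3, hs⟩ := b2_small 4 hθ' (2 * C) one_pos
  refine ⟨m1 + m2 + m3 + 8, fun m hm β X0 q U h hd hX0 => ?_⟩
  have h2 := hd.X0_mem.1
  have hi := hinit m (by omega) β X0 q U h hd hX0
  constructor
  · rintro X rfl
    have hq1 : ‖q X‖ ≤ 1 := by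
      have e := hd.en
      have hb := hd.β_mem.1
      have : β * ‖q X‖ ^ 2 ≤ β * 1 := by nlinarith [sq_nonneg ‖deriv q X‖]
      have := le_of_mul_le_mul_left this (by linarith)
      nlinarith [norm_nonneg (q X)]
    refine ⟨(hG m (by omega) β X X q U h hd (by simpa using hX0) (by simpa using hq1) X
      (by simp) (hd.X0_mem.2.trans hR4)).trans (by linarith), fun j hj => ?_⟩
    have := Real.one_le_rpow (show 1 ≤ X by linarith) (b2apri_wt (5 / 2) j)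
    have := hi j (by omega)
    nlinarith
  intro Y hY hA
  obtain ⟨k1, ha0, ha1, -, k2, k3⟩ := b2_coef (show 8 ≤ m by omega) hd.β_mem 4
  have hw4 : wt (5 / 2) 4 = 5 / 2 := by norm_num [wt]
  have h4 := hlin _ _ _ _ _ X0 Y d 1 (by rw [k1]; constructor <;> norm_num <;> linarith)
    (k2.trans (by norm_num)) (k3.trans (by norm_num)) (by linarith) zero_le_one
    (fun X hX => b2_lev (show 1 ≤ m by omega) h 4 X (hY hX))
    ((b2_Du_sm h.isOpen (b2_R0_sm h) 4).continuousOn.mono hY) (hi 4 (by norm_num))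
    (hi 5 le_rfl) (fun X hX => hw4 ▸ (hs m (by omega) _ U (wt (5 / 2)) X h.isOpen (b2_Gt_sm h)
      (hY hX) (by linarith [hX.1]) (b2_supA_wt (by norm_num) (by norm_num)) (hA X hX).1
      (hA X hX).2 4 le_rfl).1)
  have hj := b2_down (show 1 ≤ m by omega) h (by linarith) hY (Or.inl rfl)
    (fun j hj => (hi j (by omega)).trans hB) h4
  have hq : ∀ X ∈ Icc X0 Y, ‖q X‖ ≤ 1 := fun X hX =>
    (b2apri_q (by linarith [hX.1]) (hA X hX).1).trans hθ'.le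
  have hG := hG m (by omega) β X0 Y q U h hd hY hq
  refine fun X hX => ⟨?_, hj X hX⟩
  rcases le_total X R with hXR | hXR
  · linarith [hG X hX hXR]
  have hsub : Icc R X ⊆ Icc X0 Y := Icc_subset_Icc (hd.X0_mem.2.trans hR4) hX.2
  have e := b2_tail (C := C) (show 0 < R by linarith) hXR
    (fun s hs => (b2_lev (show 1 ≤ m by omega) h 0 s (hY (hsub hs))).1)
    (fun s hs => by simpa [wt] using hj s (hsub hs) 1 (by norm_num))
  have e2 := hG R (hsub ⟨le_rfl, hXR⟩) le_rfl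
  have e3 := norm_sub_norm_le (Gt m β q X) (Gt m β q R)
  have e' : ‖Gt m β q X - Gt m β q R‖ ≤ C / R := e
  linarith

theorem b2_apri : ∃ C : ℝ, 1 ≤ C ∧ ∀ c : ℝ, 0 < c → ∃ θ : ℝ, θ < 1 ∧ ∃ m0 : ℕ, ∀ m ≥ m0,
    ∀ (β X0 : ℝ) (q : ℝ → ℂ), Sol m β q → ExtDat β q X0 c →
      Ici X0 ⊆ {X | 0 < X ∧ normSq (q X) ^ m < 4} ∧
      SmSol m β q {X | 0 < X ∧ normSq (q X) ^ m < 4} ∧ Apr m β q θ C (5 / 2) (Ici X0) := by
  obtain ⟨C, hC, H⟩ := b2_improve
  refine ⟨C, hC, fun c hc => ?_⟩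
  obtain ⟨θ, hθ, H⟩ := H c hc
  obtain ⟨m0, H⟩ := H ((1 + θ) / 2) (by linarith)
  refine ⟨θ, hθ, m0, fun m hm β X0 q hs hd => ?_⟩
  set U := {X | 0 < X ∧ normSq (q X) ^ m < 4} with hU
  have hqc : Continuous q := hs.d1.continuous
  have hUo : IsOpen U := (isOpen_lt continuous_const continuous_id).inter
    (isOpen_lt ((continuous_normSq.comp hqc).pow m) continuous_const)
  have h : SmSol m β q U := b2_smsol hs hUo (fun X hX => hX.1) (fun X hX => hX.2.le)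
  have h2 := hd.X0_mem.1
  have hmem : ∀ X, 0 < X → ‖q X‖ ≤ 1 → X ∈ U := fun X hX h1 => ⟨hX, lt_of_le_of_lt
    (pow_le_one₀ (normSq_nonneg _) (by
      rw [normSq_eq_norm_sq]; exact pow_le_one₀ (norm_nonneg _) h1)) (by norm_num)⟩
  have hX0 : X0 ∈ U := hmem X0 (by linarith) (by
    have e := hd.en
    have hb := hd.β_mem.1
    have : β * ‖q X0‖ ^ 2 ≤ β * 1 := by nlinarith [sq_nonneg ‖deriv q X0‖]
    have := le_of_mul_le_mul_left this (by linarith)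
    nlinarith [norm_nonneg (q X0)])
  obtain ⟨H0, H⟩ := H m hm β X0 q U h hd hX0
  have hc : ∀ j, ∀ Y ∈ U, ContinuousAt (fun X => ‖Gj m β q j X‖) Y := fun j Y hY =>
    ((b2_Du_sm hUo (b2_Gt_sm h) j).continuousOn.continuousAt (hUo.mem_nhds hY)).norm
  have hp : ∀ s Y : ℝ, 0 < Y → ContinuousAt (fun X : ℝ => X ^ s) Y := fun s Y hY =>
    Real.continuousAt_rpow_const _ _ (Or.inl hY.ne')
  have main := b2_real_ind (a := X0) (P := fun X => X ∈ U ∧ ‖Gt m β q X‖ ≤ θ ∧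
    ∀ j ≤ 4, ‖Gj m β q j X‖ ≤ C * X ^ wt (5 / 2) j) ⟨hX0, H0 X0 rfl⟩ ?_ ?_
  · exact ⟨fun X hX => (main X hX).1, h, fun X hX => (main X hX).2⟩
  · intro Y hY hP
    have hev : ∀ᶠ X in 𝓝[<] Y, X ∈ Ico X0 Y := Ico_mem_nhdsLT hY
    have lim : ∀ f g : ℝ → ℝ, ContinuousAt f Y → ContinuousAt g Y →
        (∀ X ∈ Ico X0 Y, f X ≤ g X) → f Y ≤ g Y := fun f g hf hg hfg =>
      le_of_tendsto_of_tendsto (hf.tendsto.mono_left nhdsWithin_le_nhds)
        (hg.tendsto.mono_left nhdsWithin_le_nhds) (hev.mono hfg)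
    have hYU : Y ∈ U := hmem Y (by linarith) (lim _ (fun _ => 1) hqc.norm.continuousAt
      continuousAt_const fun X hX => (b2apri_q (by linarith [hX.1]) (hP X hX).2.1).trans hθ.le)
    exact ⟨hYU, lim _ (fun _ => θ) (hc 0 Y hYU) continuousAt_const fun X hX => (hP X hX).2.1,
      fun j hj => lim _ (fun X => C * X ^ wt (5 / 2) j) (hc j Y hYU)
        (continuousAt_const.mul (hp _ Y (by linarith))) fun X hX => (hP X hX).2.2 j hj⟩
  · intro Y hY hP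
    obtain ⟨hYU, hY0, hYj⟩ := hP Y ⟨hY, le_rfl⟩
    have e1 : ∀ᶠ X in 𝓝 Y, ‖Gt m β q X‖ < (1 + θ) / 2 :=
      (hc 0 Y hYU).eventually_lt continuousAt_const (show ‖Gt m β q Y‖ < _ by linarith)
    have e2 : ∀ᶠ X in 𝓝 Y, ∀ j ∈ Finset.range 5,
        ‖Gj m β q j X‖ < 2 * C * X ^ wt (5 / 2) j := by
      refine (eventually_all_finset _).2 fun j hj => (hc j Y hYU).eventually_lt
        (continuousAt_const.mul (hp _ Y (by linarith))) ?_
      have := hYj j (by simpa [Nat.lt_succ_iff] using hj)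
      have := Real.one_le_rpow (show 1 ≤ Y by linarith) (b2apri_wt (5 / 2) j)
      nlinarith
    obtain ⟨δ, hδ, hb⟩ := Metric.eventually_nhds_iff.1 ((e1.and e2).and (hUo.mem_nhds hYU))
    have hnear : ∀ X ∈ Icc X0 (Y + δ / 2), X ∈ Icc X0 Y ∨ dist X Y < δ := fun X hX => by
      rcases le_total X Y with h' | h'
      · exact Or.inl ⟨hX.1, h'⟩
      · exact Or.inr (by rw [Real.dist_eq, abs_of_nonneg (by linarith)]; linarith [hX.2])
    have hsub : Icc X0 (Y + δ / 2) ⊆ U := fun X hX =>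
      (hnear X hX).elim (fun h' => (hP X h').1) fun h' => (hb h').2
    refine ⟨δ / 2, by linarith, fun X hX => ⟨hsub hX, H _ hsub (fun Z hZ => ?_) X hX⟩⟩
    rcases hnear Z hZ with h' | h'
    · refine ⟨by linarith [(hP Z h').2.1], fun j hj => ?_⟩
      have := (hP Z h').2.2 j hj
      have := Real.one_le_rpow (show 1 ≤ Z by linarith [h'.1]) (b2apri_wt (5 / 2) j)
      nlinarith
    · exact ⟨(hb h').1.1.le, fun j hj =>
        ((hb h').1.2 j (by simpa [Nat.lt_succ_iff] using hj)).le⟩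

end Vale.Agent.P139
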