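import Vale.Agent.P139.B.Def

/-! P139 part B2 (exterior of the profile): definitions. -/

noncomputable section

open MeasureTheory Filter Topology Set Complex
open scoped ComplexConjugate ContDiff

namespace Vale.Agent.P139

/-- The data at the free boundary `X0`. -/
structure ExtDat (β : ℝ) (q : ℝ → ℂ) (X0 c : ℝ) : Prop where
  X0_mem : X0 ∈ Icc (2 : ℝ) 4
  β_mem : β ∈ Icc (1 / 4 : ℝ) (1 / 2)
  low : 1 / 2 ≤ ‖q X0‖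
  der : ‖deriv q X0‖ ≤ 1 / 16
  en : X0 * ‖deriv q X0‖ ^ 2 + β * ‖q X0‖ ^ 2 ≤ β * (1 - c)

/-- A smooth solution of the true profile equation on an open set `U ⊆ (0, ∞)`. -/
structure SmSol (m : ℕ) (β : ℝ) (q : ℝ → ℂ) (U : Set ℝ) : Prop where
  isOpen : IsOpen U
  pos : U ⊆ Ioi 0
  sm : ContDiffOn ℝ ∞ q U
  ode : ∀ X ∈ U, X * deriv (deriv q) X + (6 + I * X) * deriv q X + (β + I * aa m) * q X =
    (normSq (q X) : ℂ) ^ m * q X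

/-- `G_j`. -/
def Gj (m : ℕ) (β : ℝ) (q : ℝ → ℂ) (j : ℕ) : ℝ → ℂ := Du^[j] (Gt m β q)

/-- `R_j`. -/
def Rj (m : ℕ) (β : ℝ) (q : ℝ → ℂ) (j : ℕ) : ℝ → ℂ :=
  Du^[j] fun X => (normSq (Gt m β q X) : ℂ) ^ m * Gt m β q X

/-- The weighted jet norm. -/
def JN (n : ℕ) (σ : ℝ) (θ : ℕ → ℝ) (f : ℝ → ℂ) (X : ℝ) : ℝ :=
  ∑ j ∈ Finset.range (n + 1), σ ^ j * X ^ (-θ j) * ‖Du^[j] f X‖ / j.factorial

/-- Superadditive weights. -/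
def SupA (n : ℕ) (θ : ℕ → ℝ) : Prop := θ 0 = 0 ∧ ∀ i j, i + j ≤ n → θ i + θ j ≤ θ (i + j)

/-- The weights `(0, 0, (t-2)₊, (t-1)₊, t)`. -/
def wt (t : ℝ) (j : ℕ) : ℝ := if j ≤ 1 then 0 else max (t + j - 4) 0

/-- The ladder `y_j = (-1)^j X^(-(ν₀ - 5/2 + j)) G_j` of `y = X^(5/2) q`. -/
def yj (m : ℕ) (β : ℝ) (q : ℝ → ℂ) (j : ℕ) (X : ℝ) : ℂ :=
  (-1) ^ j * (X : ℂ) ^ (-(nu0 m β - 5 / 2 + j)) * Gj m β q j X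

/-- The source of level `j`. -/
def sj (m : ℕ) (β : ℝ) (q : ℝ → ℂ) (j : ℕ) (X : ℝ) : ℂ :=
  (-1) ^ j * (X : ℂ) ^ (-(nu0 m β - 5 / 2 + j + 1)) * Rj m β q j X

/-- The Green expression of level four. -/
def Wr (m : ℕ) (β : ℝ) (q : ℝ → ℂ) (X : ℝ) : ℂ :=
  (Lam (yj m β q 4) X * yF (nu0 m β - 5 / 2 + 4) (5 / 2) X -
    yj m β q 4 X * Lam (yF (nu0 m β - 5 / 2 + 4) (5 / 2)) X) * exp (I * X)

/-- The normalised mismatch. -/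
def nmis (m : ℕ) (β : ℝ) (q : ℝ → ℂ) (X0 : ℝ) : ℂ :=
  limUnder atTop (Wr m β q) /
    (yF (nu0 m β - 5 / 2 + 4) (5 / 2) X0 * exp (I * X0) * ((X0 ^ (5 / 2 : ℝ) : ℝ) : ℂ))

/-- `κ_j`. -/
def kap (m : ℕ) (β : ℝ) (j : ℕ) : ℂ := 2 * nu0 m β + 2 * j - 4

/-- `c_j`. -/
def cc (m : ℕ) (β : ℝ) (j : ℕ) : ℂ := (nu0 m β + j) * (nu0 m β + j - 5)

/-- `M_j = X^(-κ_j) e^(iX) G_(j+1)`. -/
def Mj (m : ℕ) (β : ℝ) (q : ℝ → ℂ) (j : ℕ) (X : ℝ) : ℂ :=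
  (X : ℂ) ^ (-kap m β j) * exp (I * X) * Gj m β q (j + 1) X

/-- `g, h` solve the level equation `υ² D h + (κ υ - i) h = R - c g`, `D g = h` on `S`. -/
def Lev (κ c : ℂ) (g h R : ℝ → ℂ) (S : Set ℝ) : Prop :=
  ∀ X ∈ S, HasDerivAt g (-h X / X ^ 2) X ∧ HasDerivAt h ((κ / X - I) * h X + c * g X - R X) X

/-- The a priori bounds on `S`: `|G| ≤ θ` and weighted bounds for the jets. -/
def Apr (m : ℕ) (β : ℝ) (q : ℝ → ℂ) (θ C t : ℝ) (S : Set ℝ) : Prop :=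
  ∀ X ∈ S, ‖Gt m β q X‖ ≤ θ ∧ ∀ j ≤ 4, ‖Gj m β q j X‖ ≤ C * X ^ wt t j

end Vale.Agent.P139
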