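import Vale.Agent.P139.B2.Def

/-! P139 B2: calculus of `Du f X = -X² * deriv f X` on an open set `U`. -/

noncomputable section

open MeasureTheory Filter Topology Set Complex
open scoped ComplexConjugate ContDiff

namespace Vale.Agent.P139

variable {f g : ℝ → ℂ} {U : Set ℝ} {X : ℝ}

theorem b2_Du_sm (hU : IsOpen U) (hf : ContDiffOn ℝ ∞ f U) (j : ℕ) :
    ContDiffOn ℝ ∞ (Du^[j] f) U := by
  induction j with
  | zero => exact hf
  | succ j ih =>
    rw [Function.iterate_succ_apply']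
    exact ((ofRealCLM.contDiff.pow 2).neg.contDiffOn).mul (ih.deriv_of_isOpen hU (by simp))

theorem b2du_diff (hU : IsOpen U) (hf : ContDiffOn ℝ ∞ f U) (j : ℕ) (hX : X ∈ U) :
    HasDerivAt (Du^[j] f) (deriv (Du^[j] f) X) X :=
  (((b2_Du_sm hU hf j).contDiffAt (hU.mem_nhds hX)).differentiableAt (by simp)).hasDerivAt

theorem b2du_succ (f : ℝ → ℂ) (j : ℕ) (X : ℝ) :
    Du^[j + 1] f X = -(X : ℂ) ^ 2 * deriv (Du^[j] f) X := by
  rw [Function.iterate_succ_apply']
  rfl

theorem b2_Du_deriv (hU : IsOpen U) (hf : ContDiffOn ℝ ∞ f U) (j : ℕ) (hX : X ∈ U) (h0 : X ≠ 0) :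
    HasDerivAt (Du^[j] f) (-Du^[j + 1] f X / X ^ 2) X := by
  have : (X : ℂ) ≠ 0 := by exact_mod_cast h0
  refine (b2du_diff hU hf j hX).congr_deriv ?_
  rw [b2du_succ]
  field_simp

/-- The induction step. -/
theorem b2du_step (hU : IsOpen U) {j : ℕ} {F : ℝ → ℂ} {F' : ℂ} (hX : X ∈ U)
    (h : ∀ Y ∈ U, Du^[j] f Y = F Y) (hF : HasDerivAt F F' X) :
    Du^[j + 1] f X = -(X : ℂ) ^ 2 * F' := by
  rw [b2du_succ, (hF.congr_of_eventuallyEq (eventually_of_mem (hU.mem_nhds hX) h)).deriv]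

theorem b2_Du_congr (hU : IsOpen U) (h : EqOn f g U) (j : ℕ) : EqOn (Du^[j] f) (Du^[j] g) U := by
  induction j with
  | zero => exact h
  | succ j ih =>
    intro X hX
    rw [b2du_succ, b2du_succ, (ih.eventuallyEq_of_mem (hU.mem_nhds hX)).deriv_eq]

theorem b2_Du_add (hU : IsOpen U) (hf : ContDiffOn ℝ ∞ f U) (hg : ContDiffOn ℝ ∞ g U) (j : ℕ)
    (hX : X ∈ U) : Du^[j] (fun Y => f Y + g Y) X = Du^[j] f X + Du^[j] g X := by
  induction j generalizing X with
  | zero => rfl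
  | succ j ih =>
    rw [b2du_step hU hX (fun Y hY => ih hY) ((b2du_diff hU hf j hX).add (b2du_diff hU hg j hX)),
      b2du_succ, b2du_succ]
    ring

theorem b2_Du_cmul (hU : IsOpen U) (hf : ContDiffOn ℝ ∞ f U) (c : ℂ) (j : ℕ) (hX : X ∈ U) :
    Du^[j] (fun Y => c * f Y) X = c * Du^[j] f X := by
  induction j generalizing X with
  | zero => rfl
  | succ j ih =>
    rw [b2du_step hU hX (fun Y hY => ih hY) ((b2du_diff hU hf j hX).const_mul c), b2du_succ]
    ring

theorem b2_Du_conj (hU : IsOpen U) (hf : ContDiffOn ℝ ∞ f U) (j : ℕ) (hX : X ∈ U) :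
    Du^[j] (fun Y => conj (f Y)) X = conj (Du^[j] f X) := by
  induction j generalizing X with
  | zero => rfl
  | succ j ih =>
    rw [b2du_step hU hX (fun Y hY => ih hY) (b2du_diff hU hf j hX).star, b2du_succ]
    simp

theorem b2_conj_sm (hf : ContDiffOn ℝ ∞ f U) : ContDiffOn ℝ ∞ (fun Y => conj (f Y)) U :=
  conjCLE.contDiff.comp_contDiffOn hf

theorem b2_Du_one (j : ℕ) (X : ℝ) :
    Du^[j] (fun _ => (1 : ℂ)) X = if j = 0 then 1 else 0 := by
  induction j generalizing X with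
  | zero => rfl
  | succ j ih =>
    rw [b2du_step isOpen_univ (mem_univ X) (fun Y _ => ih Y) (hasDerivAt_const X _)]
    simp

/-- Leibniz. -/
theorem b2_Du_mul (hU : IsOpen U) (hf : ContDiffOn ℝ ∞ f U) (hg : ContDiffOn ℝ ∞ g U) (j : ℕ)
    (hX : X ∈ U) : Du^[j] (fun Y => f Y * g Y) X =
      ∑ i ∈ Finset.range (j + 1), (j.choose i : ℂ) * Du^[i] f X * Du^[j - i] g X := by
  induction j generalizing X with
  | zero => simp
  | succ j ih =>
    rw [b2du_step hU hX (fun Y hY => ih hY) (HasDerivAt.fun_sum fun i _ =>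
      ((b2du_diff hU hf i hX).const_mul (j.choose i : ℂ)).mul (b2du_diff hU hg (j - i) hX))]
    simp only [mul_assoc]
    rw [Finset.sum_choose_succ_mul (fun a b => Du^[a] f X * Du^[b] g X), Finset.mul_sum,
      ← Finset.sum_add_distrib]
    refine Finset.sum_congr rfl fun i hi => ?_
    rw [show j + 1 - i = j - i + 1 by have := Finset.mem_range.1 hi; omega, b2du_succ, b2du_succ]
    ring

theorem b2_Du_inv (hU : IsOpen U) (h0 : U ⊆ Ioi 0) (hf : ContDiffOn ℝ ∞ f U) (k : ℕ)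
    (hX : X ∈ U) : Du^[k] (fun Y => (Y : ℂ)⁻¹ * f Y) X =
      (X : ℂ)⁻¹ * Du^[k] f X + k * Du^[k - 1] f X := by
  induction k generalizing X with
  | zero => simp
  | succ k ih =>
    have hX0 : (X : ℂ) ≠ 0 := by exact_mod_cast (ne_of_gt (h0 hX))
    have hi : HasDerivAt (fun Y : ℝ => (Y : ℂ)⁻¹) (-1 / (X : ℂ) ^ 2) X := by
      simpa using (ofRealCLM.hasDerivAt (x := X)).fun_inv hX0
    rw [b2du_step hU hX (fun Y hY => ih hY) ((hi.mul (b2du_diff hU hf k hX)).add
      ((b2du_diff hU hf (k - 1) hX).const_mul (k : ℂ))), b2du_succ, Nat.add_sub_cancel]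
    rcases k with _ | k
    · simp only [Nat.cast_zero, zero_mul, add_zero, zero_add, Nat.cast_one]
      field_simp
      ring
    · rw [Nat.add_sub_cancel, b2du_succ f k]
      push_cast
      field_simp
      ring

end Vale.Agent.P139
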