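import Vale.Agent.P139.B2.Ode

/-! P139 B2: energy and flux.
Plan: `E = X ‖q'‖² + β ‖q‖² - normSq q ^ (m+1) / (m+1)` has
`E' = -11 ‖q'‖² - 2 a re (i q conj q') ≤ a² ‖q‖² / 11 ≤ a²` when `‖q‖ ≤ 1` (write `‖z‖² = normSq z`,
`X q'' = -(6 + iX) q' - (β + i a) q + |q|^(2m) q`), so `E X ≤ E X0 + a² (X - X0)`, and
`β ‖q X‖² ≤ E X + 1/(m+1)`, `E X0 ≤ β (1 - c)`, `β ≥ 1/4`.
`b2_G_lt`: `‖G‖ = X^a ‖q‖` (`b2_Gt_norm`), `c ≤ 3/4` from `low` and `en`; `θ = √(1 - c/4)`: choose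
`m0` with `4 (a² R + 1/(m+1)) ≤ c/2` and `R^(2a) (1 - c/2) ≤ 1 - c/4` (`R^a → 1`).
Flux: `F = X^6 (‖q‖² + 2 im (q' conj q))`, `F' = (6 - 2a) X^5 ‖q‖² ≥ 0`,
`F X0 ≥ 64 ‖q‖ (‖q‖ - 2‖q'‖) ≥ 12`. From `b2_G1`:
`F = X^(6-2a) (‖G‖² (1 + 2β/X) - 2 im (G_1 conj G) / X²) ≤ 2 X^6 ‖G‖² + 2 X^4 ‖G‖ ‖G_1‖`. -/

noncomputable section

open MeasureTheory Filter Topology Set Complex
open scoped ComplexConjugate ContDiff

namespace Vale.Agent.P139

variable {m : ℕ} {β X0 Y c : ℝ} {q : ℝ → ℂ} {U : Set ℝ}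

theorem b2energy_anti {f f' : ℝ → ℝ} {a b : ℝ} (hd : ∀ x ∈ Icc a b, HasDerivAt f (f' x) x)
    (h : ∀ x ∈ Icc a b, f' x ≤ 0) : ∀ x ∈ Icc a b, f x ≤ f a := by
  intro x hx
  have h1 : AntitoneOn f (Icc a b) :=
    antitoneOn_of_hasDerivWithinAt_nonpos (convex_Icc a b)
      (fun y hy => (hd y hy).continuousAt.continuousWithinAt)
      (fun y hy => (hd y (interior_subset hy)).hasDerivWithinAt)
      fun y hy => h y (interior_subset hy)
  exact h1 ⟨le_rfl, hx.1.trans hx.2⟩ hx hx.1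

theorem b2energy_re {f : ℝ → ℂ} {f' : ℂ} {X : ℝ} (h : HasDerivAt f f' X) :
    HasDerivAt (fun Y => (f Y).re) f'.re X :=
  reCLM.hasFDerivAt.comp_hasDerivAt X h

theorem b2energy_im {f : ℝ → ℂ} {f' : ℂ} {X : ℝ} (h : HasDerivAt f f' X) :
    HasDerivAt (fun Y => (f Y).im) f'.im X :=
  imCLM.hasFDerivAt.comp_hasDerivAt X h

theorem b2energy_ns {f : ℝ → ℂ} {f' : ℂ} {X : ℝ} (h : HasDerivAt f f' X) :
    HasDerivAt (fun Y => normSq (f Y)) (2 * ((f X).re * f'.re + (f X).im * f'.im)) X := by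
  have h1 := ((b2energy_re h).fun_mul (b2energy_re h)).fun_add
    ((b2energy_im h).fun_mul (b2energy_im h))
  simp only [normSq_apply]
  exact h1.congr_deriv (by ring)

theorem b2energy_d {X : ℝ} (h : SmSol m β q U) (hX : X ∈ U) :
    HasDerivAt q (deriv q X) X ∧ HasDerivAt (deriv q) (deriv (deriv q) X) X := by
  have h1 := (contDiffOn_infty_iff_deriv_of_isOpen h.isOpen).1 h.sm
  have h2 := (contDiffOn_infty_iff_deriv_of_isOpen h.isOpen).1 h1.2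
  exact ⟨(h1.1.differentiableAt (h.isOpen.mem_nhds hX)).hasDerivAt,
    (h2.1.differentiableAt (h.isOpen.mem_nhds hX)).hasDerivAt⟩

theorem b2energy_ode {X : ℝ} (h : SmSol m β q U) (hX : X ∈ U) :
    X * (deriv (deriv q) X).re = normSq (q X) ^ m * (q X).re - 6 * (deriv q X).re +
        X * (deriv q X).im - β * (q X).re + aa m * (q X).im ∧
      X * (deriv (deriv q) X).im = normSq (q X) ^ m * (q X).im - 6 * (deriv q X).im -
        X * (deriv q X).re - β * (q X).im - aa m * (q X).re := by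
  have h1 := h.ode X hX
  rw [← ofReal_pow] at h1
  generalize normSq (q X) ^ m = P at h1 ⊢
  have h2 := congrArg re h1
  have h3 := congrArg im h1
  simp at h2 h3
  constructor <;> linarith

theorem b2energy_aa (hm : 1 ≤ m) : 0 < aa m ∧ aa m ≤ 1 / 2 := by
  have : (1 : ℝ) ≤ m := by exact_mod_cast hm
  unfold aa
  exact ⟨by positivity, one_div_le_one_div_of_le (by norm_num) (by linarith)⟩

theorem b2energy_E {X : ℝ} (h : SmSol m β q U) (hX : X ∈ U) :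
    HasDerivAt (fun Y => Y * normSq (deriv q Y) + β * normSq (q Y) -
      normSq (q Y) ^ (m + 1) / (m + 1) - aa m ^ 2 * Y)
      (-11 * normSq (deriv q X) +
        2 * aa m * ((deriv q X).re * (q X).im - (deriv q X).im * (q X).re) - aa m ^ 2) X := by
  obtain ⟨d1, d2⟩ := b2energy_d h hX
  obtain ⟨o1, o2⟩ := b2energy_ode h hX
  have h1 := (((((hasDerivAt_id' X).fun_mul (b2energy_ns d2)).fun_add
    ((b2energy_ns d1).const_mul β)).fun_sub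
      (((b2energy_ns d1).fun_pow (m + 1)).div_const ((m : ℝ) + 1))).fun_sub
        ((hasDerivAt_id' X).const_mul (aa m ^ 2)))
  refine h1.congr_deriv ?_
  have h2 : (m : ℝ) + 1 ≠ 0 := by positivity
  rw [Nat.add_sub_cancel, Nat.cast_succ, mul_assoc ((m : ℝ) + 1), mul_div_cancel_left₀ _ h2,
    normSq_apply (deriv q X)]
  linear_combination 2 * (deriv q X).re * o1 + 2 * (deriv q X).im * o2

theorem b2energy_F {X : ℝ} (h : SmSol m β q U) (hX : X ∈ U) :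
    HasDerivAt (fun Y => -(Y ^ 6 * (normSq (q Y) +
      2 * ((deriv q Y).im * (q Y).re - (deriv q Y).re * (q Y).im))))
      (-((6 - 2 * aa m) * X ^ 5 * normSq (q X))) X := by
  obtain ⟨d1, d2⟩ := b2energy_d h hX
  obtain ⟨o1, o2⟩ := b2energy_ode h hX
  have h1 := ((hasDerivAt_pow 6 X).fun_mul ((b2energy_ns d1).fun_add
    ((((b2energy_im d2).fun_mul (b2energy_re d1)).fun_sub
      ((b2energy_re d2).fun_mul (b2energy_im d1))).const_mul 2))).fun_neg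
  refine h1.congr_deriv ?_
  generalize normSq (q X) ^ m = P at o1 o2
  rw [normSq_apply (q X)]
  norm_num
  linear_combination 2 * X ^ 5 * (q X).im * o1 - 2 * X ^ 5 * (q X).re * o2

theorem b2_energy (hm : 1 ≤ m) (h : SmSol m β q U) (hd : ExtDat β q X0 c) (hY : Icc X0 Y ⊆ U)
    (h1 : ∀ X ∈ Icc X0 Y, ‖q X‖ ≤ 1) :
    ∀ X ∈ Icc X0 Y, ‖q X‖ ^ 2 ≤ 1 - c + 4 * (aa m ^ 2 * X + 1 / (m + 1)) := by
  intro X hX
  have hN : ∀ Z ∈ Icc X0 Y, normSq (q Z) ≤ 1 := fun Z hZ => by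
    rw [normSq_eq_norm_sq]
    exact pow_le_one₀ (norm_nonneg _) (h1 Z hZ)
  have key := b2energy_anti (fun Z hZ => b2energy_E h (hY hZ)) (fun Z hZ => by
    have a1 := hN Z hZ
    rw [normSq_apply] at a1 ⊢
    have a2 := mul_le_mul_of_nonneg_left a1 (sq_nonneg (aa m))
    nlinarith [sq_nonneg ((deriv q Z).re - aa m * (q Z).im),
      sq_nonneg ((deriv q Z).im + aa m * (q Z).re), mul_self_nonneg (deriv q Z).re,
      mul_self_nonneg (deriv q Z).im]) X hX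
  have hm1 : (0 : ℝ) < m + 1 := by positivity
  have hX0 : 0 ≤ X0 := by linarith [hd.X0_mem.1]
  have b1 : normSq (q X) ^ (m + 1) / (m + 1) ≤ 1 / (m + 1) :=
    div_le_div_of_nonneg_right (pow_le_one₀ (normSq_nonneg _) (hN X hX)) hm1.le
  have b2 : 0 ≤ normSq (q X0) ^ (m + 1) / (m + 1) :=
    div_nonneg (pow_nonneg (normSq_nonneg _) _) hm1.le
  have b3 := hd.en
  rw [← normSq_eq_norm_sq, ← normSq_eq_norm_sq] at b3
  have b4 := mul_nonneg (hX0.trans hX.1) (normSq_nonneg (deriv q X))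
  have b5 := mul_nonneg (sq_nonneg (aa m)) hX0
  have b6 : 0 ≤ aa m ^ 2 * X + 1 / (m + 1) :=
    add_nonneg (mul_nonneg (sq_nonneg _) (hX0.trans hX.1)) (by positivity)
  have hβ := hd.β_mem.1
  have b7 : β * normSq (q X) ≤ β * (1 - c) + (aa m ^ 2 * X + 1 / (m + 1)) := by
    linarith
  rw [← normSq_eq_norm_sq]
  refine le_of_mul_le_mul_left ?_ (by linarith : 0 < β)
  nlinarith [mul_le_mul_of_nonneg_right hβ b6]

theorem b2_G_lt {c : ℝ} (hc : 0 < c) : ∃ θ : ℝ, θ < 1 ∧ ∀ R : ℝ, ∃ m0 : ℕ, ∀ m ≥ m0,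
    ∀ (β X0 Y : ℝ) (q : ℝ → ℂ) (U : Set ℝ), SmSol m β q U → ExtDat β q X0 c → Icc X0 Y ⊆ U →
      (∀ X ∈ Icc X0 Y, ‖q X‖ ≤ 1) → ∀ X ∈ Icc X0 Y, X ≤ R → ‖Gt m β q X‖ ≤ θ := by
  refine ⟨√(1 - c / 4), by rw [Real.sqrt_lt' one_pos]; linarith, fun R => ?_⟩
  have hR : (0 : ℝ) < max R 1 := lt_of_lt_of_le one_pos (le_max_right _ _)
  have t1 : Tendsto aa atTop (𝓝 0) := by
    refine (tendsto_const_div_atTop_nhds_zero_nat (1 / 2 : ℝ)).congr fun m => ?_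
    rw [aa, div_div]
  have t2 : Tendsto (fun m : ℕ => 4 * (aa m ^ 2 * max R 1 + 1 / ((m : ℝ) + 1))) atTop
      (𝓝 (4 * (0 ^ 2 * max R 1 + 0))) :=
    (((t1.pow 2).mul_const _).add tendsto_one_div_add_atTop_nhds_zero_nat).const_mul 4
  have t3 : Tendsto (fun m : ℕ => (max R 1 ^ aa m) ^ 2 * (1 - c / 2)) atTop
      (𝓝 ((max R 1 ^ (0 : ℝ)) ^ 2 * (1 - c / 2))) :=
    (((Real.continuousAt_const_rpow hR.ne').tendsto.comp t1).pow 2).mul_const _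
  have e2 := t2.eventually (gt_mem_nhds (show _ < c / 2 by norm_num; exact hc))
  have e3 := t3.eventually (gt_mem_nhds (show _ < 1 - c / 4 by rw [Real.rpow_zero]; linarith))
  obtain ⟨m0, hm0⟩ := eventually_atTop.1 ((eventually_ge_atTop 1).and (e2.and e3))
  refine ⟨m0, fun m hm β X0 Y q U h hd hY h1 X hX hXR => ?_⟩
  obtain ⟨a1, a2, a3⟩ := hm0 m hm
  have hX0 : 0 < X := by linarith [hd.X0_mem.1, hX.1]
  have hXR' : X ≤ max R 1 := hXR.trans (le_max_left _ _)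
  have b1 := b2_energy a1 h hd hY h1 X hX
  have b2 := mul_le_mul_of_nonneg_left hXR' (sq_nonneg (aa m))
  have b3 : ‖q X‖ ^ 2 ≤ 1 - c / 2 := by linarith
  have b4 : X ^ aa m ≤ max R 1 ^ aa m := Real.rpow_le_rpow hX0.le hXR' (b2energy_aa a1).1.le
  refine Real.le_sqrt_of_sq_le ?_
  rw [b2_Gt_norm m β q hX0, mul_pow]
  exact (mul_le_mul (pow_le_pow_left₀ (Real.rpow_nonneg hX0.le _) b4 2) b3 (sq_nonneg _)
    (sq_nonneg _)).trans a3.le

theorem b2_flux (hm : 1 ≤ m) (h : SmSol m β q U) (hd : ExtDat β q X0 c) (hU : Ici X0 ⊆ U) :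
    ∀ X, X0 ≤ X → 8 ≤ X ^ 6 * (‖q X‖ ^ 2 + 2 * (deriv q X * conj (q X)).im) := by
  intro X hX
  have hX0 := hd.X0_mem.1
  have ha := (b2energy_aa hm).2
  have key := b2energy_anti (a := X0) (b := X) (fun Z hZ => b2energy_F h (hU hZ.1))
    (fun Z hZ => neg_nonpos.2 (mul_nonneg (mul_nonneg (by linarith)
      (pow_nonneg (by linarith [hZ.1]) 5)) (normSq_nonneg _))) X ⟨hX, le_rfl⟩
  have e : ∀ Z, normSq (q Z) + 2 * ((deriv q Z).im * (q Z).re - (deriv q Z).re * (q Z).im) =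
      ‖q Z‖ ^ 2 + 2 * (deriv q Z * conj (q Z)).im := by
    intro Z
    rw [normSq_eq_norm_sq, mul_im, conj_re, conj_im]
    ring
  simp only [e, neg_le_neg_iff] at key
  refine le_trans ?_ key
  have b1 : |(deriv q X0 * conj (q X0)).im| ≤ 1 / 16 * ‖q X0‖ := by
    refine (abs_im_le_norm _).trans ?_
    rw [norm_mul, norm_conj]
    exact mul_le_mul_of_nonneg_right hd.der (norm_nonneg _)
  have b2 : 3 / 16 ≤ ‖q X0‖ ^ 2 + 2 * (deriv q X0 * conj (q X0)).im := by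
    nlinarith [neg_abs_le (deriv q X0 * conj (q X0)).im, hd.low]
  have b3 : (2 : ℝ) ^ 6 ≤ X0 ^ 6 := pow_le_pow_left₀ (by norm_num) hX0 6
  nlinarith [mul_le_mul b3 b2 (by norm_num) (by positivity)]

theorem b2_fluxG (hm : 1 ≤ m) (h : SmSol m β q U) (hd : ExtDat β q X0 c) (hU : Ici X0 ⊆ U) :
    ∀ X, X0 ≤ X → 4 ≤ X ^ 6 * ‖Gt m β q X‖ ^ 2 + X ^ 4 * ‖Gt m β q X‖ * ‖Gj m β q 1 X‖ := by
  intro X hX
  have hX2 : 2 ≤ X := hd.X0_mem.1.trans hX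
  have hX0 : 0 < X := by linarith
  have b1 := b2_flux hm h hd hU X hX
  have hre : (nu0 m β).re = aa m := by simp [nu0]
  have him : (nu0 m β).im = -β := by simp [nu0]
  set w := deriv q X + nu0 m β * q X / X with hw
  have b2 : ‖Gj m β q 1 X‖ = X ^ 2 * (X ^ aa m * ‖w‖) := by
    rw [b2_G1 h (hU hX), norm_mul, norm_mul, norm_neg, norm_pow, norm_real,
      Real.norm_of_nonneg hX0.le, norm_cpow_eq_rpow_re_of_pos hX0, hre]
  have b3 : (deriv q X * conj (q X)).im = (w * conj (q X)).im + β * ‖q X‖ ^ 2 / X := by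
    have e : w * conj (q X) = deriv q X * conj (q X) + nu0 m β * ((‖q X‖ ^ 2 / X : ℝ) : ℂ) := by
      rw [hw, ← normSq_eq_norm_sq, ofReal_div, ← mul_conj]
      ring
    rw [e, add_im, im_mul_ofReal, him]
    ring
  have b4 : (w * conj (q X)).im ≤ ‖w‖ * ‖q X‖ := by
    refine (le_abs_self _).trans ((abs_im_le_norm _).trans_eq ?_)
    rw [norm_mul, norm_conj]
  have b5 : β * ‖q X‖ ^ 2 / X ≤ ‖q X‖ ^ 2 / 2 := by
    rw [div_le_div_iff₀ hX0 two_pos]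
    nlinarith [hd.β_mem.2, sq_nonneg ‖q X‖]
  have b6 : 4 ≤ X ^ 6 * (‖q X‖ ^ 2 + ‖w‖ * ‖q X‖) := by
    have := mul_le_mul_of_nonneg_left (show ‖q X‖ ^ 2 + 2 * (deriv q X * conj (q X)).im ≤
      2 * (‖q X‖ ^ 2 + ‖w‖ * ‖q X‖) by linarith) (pow_nonneg hX0.le 6)
    linarith
  have b7 : 1 ≤ (X ^ aa m) ^ 2 :=
    one_le_pow₀ (Real.one_le_rpow (by linarith) (b2energy_aa hm).1.le)
  rw [b2, b2_Gt_norm m β q hX0]
  calc (4 : ℝ) ≤ 1 * (X ^ 6 * (‖q X‖ ^ 2 + ‖w‖ * ‖q X‖)) := by rwa [one_mul]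
    _ ≤ (X ^ aa m) ^ 2 * (X ^ 6 * (‖q X‖ ^ 2 + ‖w‖ * ‖q X‖)) :=
        mul_le_mul_of_nonneg_right b7 (by positivity)
    _ = _ := by ring

end Vale.Agent.P139
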