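import Vale.Agent.P139.B2.Lad
import Vale.Agent.P139.B2.YF
import Vale.Agent.P139.B2.Int

/-! P139 B2: the Green expression converges at infinity. -/

noncomputable section

open MeasureTheory Filter Topology Set Complex
open scoped ComplexConjugate ContDiff

namespace Vale.Agent.P139

theorem b2green_nu (m : ℕ) (β : ℝ) : (nu0 m β - 5 / 2 + 4).re = aa m + 3 / 2 ∧
    (nu0 m β - 5 / 2 + 4).im = -β := by
  simp only [nu0]
  norm_num
  ring

theorem b2_Wr_tail : ∃ K : ℝ, 1 ≤ K ∧ ∀ (m : ℕ) (β X0 r : ℝ) (q : ℝ → ℂ) (U : Set ℝ), 8 ≤ m →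
    β ∈ Icc (1 / 4 : ℝ) (1 / 2) → 1 ≤ X0 → SmSol m β q U → Ici X0 ⊆ U →
    (∀ X, X0 ≤ X → ‖Rj m β q 4 X‖ ≤ r * X ^ (5 / 2 : ℝ)) →
    Tendsto (Wr m β q) atTop (𝓝 (limUnder atTop (Wr m β q))) ∧
      ∀ X, X0 ≤ X → ‖limUnder atTop (Wr m β q) - Wr m β q X‖ ≤ K * r * X ^ (-(1 / 2) : ℝ) := by
  obtain ⟨K, hK, hy⟩ := b2_yF_le
  refine ⟨2 * K, by linarith, fun m β X0 r q U hm hβ h1 h hU hR => ?_⟩
  obtain ⟨-, ha0, ha1, -⟩ := b2_coef hm hβ 0
  obtain ⟨n1, n2⟩ := b2green_nu m β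
  have hr : 0 ≤ r := by
    have := (norm_nonneg _).trans (hR X0 le_rfl)
    exact nonneg_of_mul_nonneg_left this (Real.rpow_pos_of_pos (by linarith) _)
  have H := b2_cauchy (B := K * r) (p := 1 / 2) (show 0 < X0 by linarith) (by norm_num)
    (fun s hs => b2_Wr_deriv (show 1 ≤ m by omega) h (hU hs)) fun s hs => by
      have hs0 : 0 < s := by linarith
      have e1 := hy (nu0 m β - 5 / 2 + 4) s (by rw [n1]; constructor <;> linarith)
        (by rw [n2, abs_neg, abs_of_nonneg] <;> linarith [hβ.1, hβ.2]) (by linarith)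
      rw [norm_mul, norm_mul, norm_exp_I_mul_ofReal, mul_one, (b2_yj_norm m β q 4 hs0).2]
      refine (mul_le_mul (mul_le_mul_of_nonneg_left (hR s hs) (by positivity)) e1 (norm_nonneg _)
        (by positivity)).trans ?_
      rw [n1, show ∀ a b c : ℝ, a * (r * b) * (K * c) = K * r * (a * b * c) by intros; ring,
        ← Real.rpow_add hs0, ← Real.rpow_add hs0]
      exact mul_le_mul_of_nonneg_left (Real.rpow_le_rpow_of_exponent_le (by linarith)
        (by push_cast; linarith)) (by positivity)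
  exact ⟨H.1, fun X hX => (H.2 X hX).trans (le_of_eq (by ring))⟩

theorem b2_M_zero {m : ℕ} {β X0 B : ℝ} {q : ℝ → ℂ} {U : Set ℝ} (hm : 8 ≤ m)
    (hβ : β ∈ Icc (1 / 4 : ℝ) (1 / 2)) (h : SmSol m β q U) (hU : Ici X0 ⊆ U)
    (h4 : ∀ X, X0 ≤ X → ‖Gj m β q 4 X‖ ≤ B * X ^ (5 / 2 : ℝ))
    (hW : Tendsto (Wr m β q) atTop (𝓝 0)) : Tendsto (Mj m β q 4) atTop (𝓝 0) := by
  obtain ⟨K, hK, hy⟩ := b2_yF_le
  obtain ⟨-, ha0, ha1, -⟩ := b2_coef hm hβ 0
  obtain ⟨n1, n2⟩ := b2green_nu m β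
  set ν := nu0 m β - 5 / 2 + 4 with hν
  have hΓ : Gamma (((5 / 2 : ℝ) : ℂ) + ν) ≠ 0 :=
    Gamma_ne_zero_of_re_pos (by rw [add_re, ofReal_re, n1]; linarith)
  have hT := yF_tendsto (ν := ν) (ℓ := 5 / 2) (by rw [n1]; linarith)
  have hS : Tendsto (fun X : ℝ => I * (5 / 2 - ν) * yj m β q 4 X * yF (ν + 1) (5 / 2) X *
      exp (I * X)) atTop (𝓝 0) := by
    have ht : Tendsto (fun X : ℝ => ‖5 / 2 - ν‖ * |B| * K * X⁻¹) atTop (𝓝 0) := by
      simpa using tendsto_inv_atTop_zero.const_mul (‖5 / 2 - ν‖ * |B| * K)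
    refine squeeze_zero_norm' (((eventually_ge_atTop X0).and (eventually_ge_atTop 1)).mono
      fun X hX => ?_) ht
    have hX0 : 0 < X := by linarith [hX.2]
    have e1 := hy (ν + 1) X (by rw [add_re, n1, one_re]; constructor <;> linarith)
      (by rw [add_im, n2, one_im, add_zero, abs_neg, abs_of_nonneg] <;> linarith [hβ.1, hβ.2]) hX.2
    have e2 : ‖Gj m β q 4 X‖ ≤ |B| * X ^ (5 / 2 : ℝ) := (h4 X hX.1).trans
      (mul_le_mul_of_nonneg_right (le_abs_self B) (by positivity))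
    rw [norm_mul, norm_mul, norm_mul, norm_mul, norm_exp_I_mul_ofReal, mul_one, norm_I, one_mul,
      (b2_yj_norm m β q 4 hX0).1]
    refine (mul_le_mul (mul_le_mul_of_nonneg_left (mul_le_mul_of_nonneg_left e2 (by positivity))
      (norm_nonneg _)) e1 (norm_nonneg _) (by positivity)).trans ?_
    rw [add_re, n1, one_re, show ∀ a b c d : ℝ, d * (a * (|B| * b)) * (K * c) =
      d * |B| * K * (a * b * c) by intros; ring, ← Real.rpow_add hX0, ← Real.rpow_add hX0,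
      ← Real.rpow_neg_one]
    exact mul_le_mul_of_nonneg_left (Real.rpow_le_rpow_of_exponent_le hX.2
      (by push_cast; linarith)) (by positivity)
  have := (hS.sub hW).div hT hΓ
  rw [sub_zero, zero_div] at this
  refine this.congr' (((eventually_ge_atTop X0).and (hT.eventually_ne hΓ)).mono fun X hX => ?_)
  simp only [Pi.div_apply]
  rw [b2_Wr_eq (show 1 ≤ m by omega) h (hU hX.1), div_eq_iff hX.2]
  ring

end Vale.Agent.P139
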