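import Vale.Agent.P139.B2.Pow
import Vale.Agent.P139.B2.Energy

/-! P139 B2: the jets at `X0` are bounded by a universal constant. -/

noncomputable section

open MeasureTheory Filter Topology Set Complex
open scoped ComplexConjugate ContDiff

namespace Vale.Agent.P139

theorem b2init_q {β X0 c : ℝ} {q : ℝ → ℂ} (hc : 0 < c) (hd : ExtDat β q X0 c) : ‖q X0‖ ≤ 1 := by
  have e := hd.en
  have hb := hd.β_mem.1
  have h2 := hd.X0_mem.1
  have : β * ‖q X0‖ ^ 2 ≤ β * 1 := by nlinarith [sq_nonneg ‖deriv q X0‖]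
  have := le_of_mul_le_mul_left this (by linarith)
  nlinarith [norm_nonneg (q X0)]

theorem b2init_G {c : ℝ} (hc : 0 < c) : ∃ θ : ℝ, θ < 1 ∧ ∃ m0 : ℕ, ∀ m ≥ m0,
    ∀ (β X0 : ℝ) (q : ℝ → ℂ) (U : Set ℝ), SmSol m β q U → ExtDat β q X0 c → X0 ∈ U →
      ‖Gt m β q X0‖ ≤ θ := by
  obtain ⟨θ, hθ, H⟩ := b2_G_lt hc
  obtain ⟨m0, H⟩ := H 4
  exact ⟨θ, hθ, m0, fun m hm β X0 q U h hd hX => H m hm β X0 X0 q U h hd (by simpa using hX)
    (by simpa using b2init_q hc hd) X0 (by simp) hd.X0_mem.2⟩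

theorem b2_init (n : ℕ) : ∃ d : ℝ, 1 ≤ d ∧ ∀ c : ℝ, 0 < c → ∃ m0 : ℕ, ∀ m ≥ m0,
    ∀ (β X0 : ℝ) (q : ℝ → ℂ) (U : Set ℝ), SmSol m β q U → ExtDat β q X0 c → X0 ∈ U →
      ∀ j ≤ n + 1, ‖Gj m β q j X0‖ ≤ d := by
  induction n with
  | zero =>
    refine ⟨128, by norm_num, fun c hc => ?_⟩
    obtain ⟨θ, hθ, m0, H⟩ := b2init_G hc
    refine ⟨m0 + 8, fun m hm β X0 q U h hd hX j hj => ?_⟩
    have h2 := hd.X0_mem.1
    have h4 := hd.X0_mem.2
    interval_cases j
    · exact (H m (by omega) β X0 q U h hd hX).trans (by linarith)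
    obtain ⟨-, ha0, ha1, hν, -⟩ := b2_coef (show 8 ≤ m by omega) hd.β_mem 0
    have e1 : ‖(X0 : ℂ) ^ nu0 m β‖ ≤ 4 := by
      rw [norm_cpow_eq_rpow_re_of_pos (by linarith)]
      calc X0 ^ (nu0 m β).re ≤ X0 ^ (1 : ℝ) := Real.rpow_le_rpow_of_exponent_le (by linarith)
            ((re_le_norm _).trans hν)
        _ ≤ 4 := by rwa [Real.rpow_one]
    have e2 : ‖deriv q X0 + nu0 m β * q X0 / X0‖ ≤ 2 := by
      refine (norm_add_le _ _).trans ?_
      have : ‖nu0 m β * q X0 / X0‖ ≤ 1 := by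
        rw [norm_div, norm_mul, Complex.norm_real, Real.norm_of_nonneg (by linarith),
          div_le_one (by linarith)]
        nlinarith [b2init_q hc hd, norm_nonneg (q X0), norm_nonneg (nu0 m β)]
      linarith [hd.der]
    rw [b2_G1 h hX, norm_mul, norm_mul, norm_neg, norm_pow, Complex.norm_real,
      Real.norm_of_nonneg (by linarith)]
    have e3 := mul_le_mul e1 e2 (norm_nonneg _) (by norm_num)
    have e4 : X0 ^ 2 ≤ 16 := by nlinarith
    exact (mul_le_mul e4 e3 (by positivity) (by norm_num)).trans (by norm_num)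
  | succ n ih =>
    obtain ⟨d, hd1, H⟩ := ih
    have hn : (0 : ℝ) ≤ n := n.cast_nonneg
    set D := 16 * (1 + (n + 1) * (n + 6) * d + (2 * n + 7) * d) with hD
    have p1 : 0 ≤ ((n : ℝ) + 1) * (n + 6) * d := by positivity
    have hdD : d ≤ D := by nlinarith
    refine ⟨D, by linarith, fun c hc => ?_⟩
    obtain ⟨m1, H⟩ := H c hc
    obtain ⟨θ, hθ, m2, HG⟩ := b2init_G hc
    obtain ⟨m3, hs⟩ := b2_small n hθ d one_pos
    refine ⟨m1 + m2 + m3 + 8, fun m hm β X0 q U h hd hX j hj => ?_⟩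
    have H := H m (by omega) β X0 q U h hd hX
    rcases Nat.lt_or_ge j (n + 2) with hj' | hj'
    · exact (H j (by omega)).trans hdD
    obtain rfl : j = n + 2 := by omega
    have h2 := hd.X0_mem.1
    have h4 := hd.X0_mem.2
    obtain ⟨-, -, -, -, k2, k3⟩ := b2_coef (show 8 ≤ m by omega) hd.β_mem n
    have hR : ‖Rj m β q n X0‖ ≤ 1 := by
      simpa [Rj] using (hs m (by omega) _ U (fun _ => 0) X0 h.isOpen (b2_Gt_sm h) hX (by linarith)
        (b2_supA_zero n) (HG m (by omega) β X0 q U h hd hX)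
        (fun j hj => by simpa [Gj] using H j (by omega)) n le_rfl).1
    have e1 : ‖kap m β n / X0 - I‖ ≤ 2 * n + 7 := by
      refine (norm_sub_le _ _).trans ?_
      rw [norm_div, Complex.norm_real, Real.norm_of_nonneg (by linarith), norm_I]
      have := div_le_self (norm_nonneg (kap m β n)) (show 1 ≤ X0 by linarith)
      linarith
    have e2 := mul_le_mul k3 (H n (by omega)) (norm_nonneg _) (by positivity)
    have e3 := mul_le_mul e1 (H (n + 1) le_rfl) (norm_nonneg _) (by positivity)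
    rw [← norm_mul] at e2 e3
    rw [b2_rec (show 1 ≤ m by omega) h n hX, norm_mul, norm_pow, Complex.norm_real,
      Real.norm_of_nonneg (by linarith)]
    have e4 : X0 ^ 2 ≤ 16 := by nlinarith
    refine mul_le_mul e4 ?_ (norm_nonneg _) (by norm_num)
    refine (norm_sub_le _ _).trans (add_le_add ((norm_sub_le _ _).trans ?_) e3)
    linarith

end Vale.Agent.P139
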