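import Vale.Agent.P139.B2.Ode

/-! P139 B2: the ladder `y_j` and the Green expression.
Plan: `ν_j = ν₀ - 5/2 + j`, `y_j = (-1)^j X^(-ν_j) G_j`; `G_j' = -G_(j+1)/X²` (`b2_lev`) gives
`b2_yj_deriv`. So `Λ y_j = y_(j+1) - ν_j y_j` on `U` (open), and
`Λ Λ y_j = y_(j+2) - ν_(j+1) y_(j+1) - ν_j (y_(j+1) - ν_j y_j)`; `b2_yj_ode` is `b2_rec` times
`(-1)^j X^(-ν_j - 2)` (`cpow_add`, `cpow_sub`). `b2_Wr_deriv`: `X W' = (ΛΛy f - y ΛΛf) e + i X W`, use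
`b2_yj_ode` and `yF_ode`, `yF_contDiff`. `b2_Wr_eq`: `yF_up` and `b2_yj_lam`. -/

noncomputable section

open MeasureTheory Filter Topology Set Complex
open scoped ComplexConjugate ContDiff

namespace Vale.Agent.P139

variable {m : ℕ} {β X : ℝ} {q : ℝ → ℂ} {U : Set ℝ}

theorem b2lad_cpow (hX : 0 < X) (c : ℂ) :
    HasDerivAt (fun Y : ℝ => (Y : ℂ) ^ c) (c * (X : ℂ) ^ c / X) X := by
  have h0 : (X : ℂ) ≠ 0 := ofReal_ne_zero.2 hX.ne'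
  refine (hasStrictDerivAt_cpow_const (c := c)
    (ofReal_mem_slitPlane.2 hX)).hasDerivAt.comp_ofReal.congr_deriv ?_
  rw [cpow_sub _ _ h0, cpow_one, mul_div_assoc]

theorem b2lad_shift (hX : 0 < X) (c : ℂ) : (X : ℂ) ^ (-(c + 1)) = (X : ℂ) ^ (-c) / X := by
  rw [neg_add', cpow_sub _ _ (ofReal_ne_zero.2 hX.ne'), cpow_one]

theorem b2lad_succ (hX : 0 < X) (j : ℕ) : yj m β q (j + 1) X =
    -((-1) ^ j * (X : ℂ) ^ (-(nu0 m β - 5 / 2 + j)) / X * Gj m β q (j + 1) X) := by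
  rw [yj, Nat.cast_succ, ← add_assoc, b2lad_shift hX]
  ring

theorem b2lad_lam {g : ℝ → ℂ} (hg : DifferentiableAt ℝ g X) (hX : 0 < X) :
    HasDerivAt g (Lam g X / X) X := by
  rw [Lam, mul_div_cancel_left₀ _ (ofReal_ne_zero.2 hX.ne')]
  exact hg.hasDerivAt

theorem b2lad_val {g : ℝ → ℂ} {d : ℂ} (hg : HasDerivAt g (d / X) X) (hX : 0 < X) :
    Lam g X = d := by
  rw [Lam, hg.deriv, mul_div_cancel₀ _ (ofReal_ne_zero.2 hX.ne')]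

theorem b2lad_pos (m : ℕ) (β : ℝ) : 0 < (5 / 2 : ℝ) + (nu0 m β - 5 / 2 + 4).re := by
  have h : 0 ≤ aa m := by unfold aa; positivity
  have e : (nu0 m β - 5 / 2 + 4).re = aa m - 5 / 2 + 4 := by simp [nu0]
  rw [e]
  linarith

theorem b2_yj_deriv (hm : 1 ≤ m) (h : SmSol m β q U) (j : ℕ) (hX : X ∈ U) :
    HasDerivAt (yj m β q j)
      ((yj m β q (j + 1) X - (nu0 m β - 5 / 2 + j) * yj m β q j X) / X) X := by
  have hX0 : 0 < X := h.pos hX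
  have h0 : (X : ℂ) ≠ 0 := ofReal_ne_zero.2 hX0.ne'
  have h1 := (((b2lad_cpow hX0 (-(nu0 m β - 5 / 2 + j))).const_mul ((-1) ^ j)).fun_mul
    (b2_lev hm h j X hX).1)
  refine h1.congr_deriv ?_
  rw [b2lad_succ hX0, yj]
  field_simp
  ring

theorem b2_yj_lam (hm : 1 ≤ m) (h : SmSol m β q U) (j : ℕ) (hX : X ∈ U) :
    yj m β q (j + 1) X = Lam (yj m β q j) X + (nu0 m β - 5 / 2 + j) * yj m β q j X := by
  rw [b2lad_val (b2_yj_deriv hm h j hX) (h.pos hX), sub_add_cancel]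

theorem b2_yj_ode (hm : 1 ≤ m) (h : SmSol m β q U) (j : ℕ) (hX : X ∈ U) :
    DifferentiableAt ℝ (Lam (yj m β q j)) X ∧
    Lam (Lam (yj m β q j)) X - (5 / 2) ^ 2 * yj m β q j X +
      I * X * (Lam (yj m β q j) X + (nu0 m β - 5 / 2 + j) * yj m β q j X) = X * sj m β q j X := by
  have hX0 : 0 < X := h.pos hX
  have h0 : (X : ℂ) ≠ 0 := ofReal_ne_zero.2 hX0.ne'
  have e : Lam (yj m β q j) =ᶠ[𝓝 X] fun Y =>
      yj m β q (j + 1) Y - (nu0 m β - 5 / 2 + j) * yj m β q j Y := by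
    filter_upwards [h.isOpen.mem_nhds hX] with Y hY
    exact b2lad_val (b2_yj_deriv hm h j hY) (h.pos hY)
  have h1 := ((b2_yj_deriv hm h (j + 1) hX).fun_sub
    ((b2_yj_deriv hm h j hX).const_mul (nu0 m β - 5 / 2 + j))).congr_of_eventuallyEq e
  rw [← mul_div_assoc, ← sub_div] at h1
  refine ⟨h1.differentiableAt, ?_⟩
  rw [b2lad_val h1 hX0, ← b2_yj_lam hm h j hX, b2lad_succ hX0 (j + 1), b2lad_succ hX0 j,
    b2_rec hm h j hX, sj, yj, Nat.cast_succ, ← add_assoc, b2lad_shift hX0, kap, cc]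
  field_simp
  ring

theorem b2_y0 (h : SmSol m β q U) (hX : X ∈ U) :
    yj m β q 0 X = ((X ^ (5 / 2 : ℝ) : ℝ) : ℂ) * q X ∧
    Lam (yj m β q 0) X = ((X ^ (5 / 2 : ℝ) : ℝ) : ℂ) * (X * deriv q X + 5 / 2 * q X) := by
  have key : ∀ Y ∈ U, yj m β q 0 Y = (Y : ℂ) ^ (5 / 2 : ℂ) * q Y := fun Y hY => by
    have h0 : (Y : ℂ) ≠ 0 := ofReal_ne_zero.2 (h.pos hY).ne'
    simp only [yj, Gj, Gt, Function.iterate_zero, id, pow_zero, one_mul, Nat.cast_zero]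
    rw [← mul_assoc, ← cpow_add _ _ h0]
    congr 2
    ring
  have hX0 : 0 < X := h.pos hX
  have h0 : (X : ℂ) ≠ 0 := ofReal_ne_zero.2 hX0.ne'
  have e0 : ((X ^ (5 / 2 : ℝ) : ℝ) : ℂ) = (X : ℂ) ^ (5 / 2 : ℂ) := by
    rw [ofReal_cpow hX0.le]
    norm_num
  have e : yj m β q 0 =ᶠ[𝓝 X] fun Y => (Y : ℂ) ^ (5 / 2 : ℂ) * q Y :=
    Filter.mem_of_superset (h.isOpen.mem_nhds hX) key
  have hq : DifferentiableAt ℝ q X :=
    (h.sm.contDiffAt (h.isOpen.mem_nhds hX)).differentiableAt (by simp)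
  have h1 := ((b2lad_cpow hX0 (5 / 2)).fun_mul hq.hasDerivAt).congr_of_eventuallyEq e
  rw [e0]
  refine ⟨key X hX, ?_⟩
  rw [Lam, h1.deriv]
  field_simp
  ring

theorem b2_yj_norm (m : ℕ) (β : ℝ) (q : ℝ → ℂ) (j : ℕ) (hX : 0 < X) :
    ‖yj m β q j X‖ = X ^ (-(aa m - 5 / 2 + j)) * ‖Gj m β q j X‖ ∧
    ‖sj m β q j X‖ = X ^ (-(aa m - 5 / 2 + j + 1)) * ‖Rj m β q j X‖ := by
  have e1 : (-(nu0 m β - 5 / 2 + j)).re = -(aa m - 5 / 2 + j) := by simp [nu0]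
  have e2 : (-(nu0 m β - 5 / 2 + j + 1)).re = -(aa m - 5 / 2 + j + 1) := by simp [nu0]
  simp only [yj, sj, norm_mul, norm_pow, norm_neg, norm_one, one_pow, one_mul,
    norm_cpow_eq_rpow_re_of_pos hX, e1, e2, and_self]

theorem b2_Wr_deriv (hm : 1 ≤ m) (h : SmSol m β q U) (hX : X ∈ U) : HasDerivAt (Wr m β q)
    (sj m β q 4 X * yF (nu0 m β - 5 / 2 + 4) (5 / 2) X * exp (I * X)) X := by
  have hX0 : 0 < X := h.pos hX
  have h0 : (X : ℂ) ≠ 0 := ofReal_ne_zero.2 hX0.ne'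
  have hp := b2lad_pos m β
  have c1 := yF_contDiff hp
  have c2 := c1.deriv_of_isOpen (m := ∞) isOpen_Ioi (by simp)
  have d1 := (c1.contDiffAt (Ioi_mem_nhds hX0)).differentiableAt (by simp)
  have d2 : DifferentiableAt ℝ (Lam (yF (nu0 m β - 5 / 2 + 4) (5 / 2))) X :=
    ofRealCLM.differentiableAt.fun_mul
      ((c2.contDiffAt (Ioi_mem_nhds hX0)).differentiableAt (by simp))
  obtain ⟨d3, o1⟩ := b2_yj_ode hm h 4 hX
  have o2 := yF_ode hp hX0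
  have d4 := (b2_yj_deriv hm h 4 hX).differentiableAt
  have d5 : HasDerivAt (fun Y : ℝ => exp (I * Y)) (exp (I * X) * (I * 1)) X :=
    ((hasDerivAt_id (X : ℂ)).const_mul I).cexp.comp_ofReal
  refine ((((b2lad_lam d3 hX0).fun_mul (b2lad_lam d1 hX0)).fun_sub
    ((b2lad_lam d4 hX0).fun_mul (b2lad_lam d2 hX0))).fun_mul d5).congr_deriv ?_
  push_cast at o1 o2
  generalize yF (nu0 m β - 5 / 2 + 4) (5 / 2) = f at o2 ⊢
  field_simp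
  linear_combination f X * o1 - yj m β q 4 X * o2

theorem b2_Wr_eq (hm : 1 ≤ m) (h : SmSol m β q U) (hX : X ∈ U) : Wr m β q X =
    -(Mj m β q 4 X * ((X : ℂ) ^ (nu0 m β - 5 / 2 + 4) * yF (nu0 m β - 5 / 2 + 4) (5 / 2) X)) +
      I * (5 / 2 - (nu0 m β - 5 / 2 + 4)) * yj m β q 4 X *
        yF (nu0 m β - 5 / 2 + 4 + 1) (5 / 2) X * exp (I * X) := by
  have hX0 : 0 < X := h.pos hX
  have h0 : (X : ℂ) ≠ 0 := ofReal_ne_zero.2 hX0.ne'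
  have o1 := b2_yj_lam hm h 4 hX
  have o2 := yF_up (b2lad_pos m β) hX0
  have o3 : yj m β q (4 + 1) X = -((X : ℂ) ^ (-kap m β 4) * (X : ℂ) ^ (nu0 m β - 5 / 2 + 4) *
      Gj m β q (4 + 1) X) := by
    rw [yj, ← cpow_add _ _ h0, show -kap m β 4 + (nu0 m β - 5 / 2 + 4) =
      -(nu0 m β - 5 / 2 + ((4 + 1 : ℕ) : ℂ)) by rw [kap]; push_cast; ring]
    ring
  rw [Wr, Mj]
  push_cast at o1 o2
  linear_combination exp (I * X) * (yF (nu0 m β - 5 / 2 + 4) (5 / 2) X * (o3 - o1) -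
    yj m β q 4 X * o2)

end Vale.Agent.P139
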