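import Vale.Agent.P139.B2.Du

/-! P139 B2: the weighted jet norm is submultiplicative; jets of high powers are small.
Plan: `b2_JN_mul`: Leibniz `b2_Du_mul`, `choose i / j! = 1 / (i! (j-i)!)`,
`X ^ (-θ j) ≤ X ^ (-θ i) * X ^ (-θ (j-i))` (`1 ≤ X`, `SupA`), and
`∑_(j ≤ n) ∑_(i ≤ j) a i * b (j-i) ≤ (∑ a) (∑ b)` for nonnegative terms. `b2_JN_pow`: induction on
`a`, `b` (`JN 1 = 1` by `b2_Du_one`, `JN (conj G) = JN G` by `b2_Du_conj`).
`b2_pow`: take `σ ∈ (0,1]` with `n σ |C| ≤ (1-θ)/2`, so `JN G ≤ θ' = (1 + max θ 0)/2`; a single term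
is at most the sum, `A = n! / σ ^ n`.
`b2_small`: `(normSq z : ℂ) = z * conj z`; `(m+1) A θ'^(2m) → 0`
(`tendsto_self_mul_const_pow_of_lt_one`); use `b2_Du_cmul`, and `m ≥ 1` for
`(m - 1 + 2) + (m - 1) = 2 m`. -/

noncomputable section

open MeasureTheory Filter Topology Set Complex
open scoped ComplexConjugate ContDiff

namespace Vale.Agent.P139

variable {f g G : ℝ → ℂ} {U : Set ℝ} {X σ : ℝ} {n : ℕ} {w : ℕ → ℝ}

/-- one term of the jet norm -/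
def b2pow_t (σ : ℝ) (w : ℕ → ℝ) (f : ℝ → ℂ) (X : ℝ) (j : ℕ) : ℝ :=
  σ ^ j * X ^ (-w j) * ‖Du^[j] f X‖ / j.factorial

theorem b2pow_t_nonneg (hσ : 0 ≤ σ) (h0 : 0 ≤ X) (f : ℝ → ℂ) (j : ℕ) :
    0 ≤ b2pow_t σ w f X j := by
  have := Real.rpow_nonneg h0 (-w j)
  unfold b2pow_t
  positivity

theorem b2pow_nonneg (hσ : 0 ≤ σ) (h0 : 0 ≤ X) (f : ℝ → ℂ) : 0 ≤ JN n σ w f X :=
  Finset.sum_nonneg fun j _ => b2pow_t_nonneg hσ h0 f j

theorem b2_JN_mul (hU : IsOpen U) (hf : ContDiffOn ℝ ∞ f U) (hg : ContDiffOn ℝ ∞ g U)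
    (hX : X ∈ U) (h1 : 1 ≤ X) (hσ : 0 ≤ σ) (hw : SupA n w) :
    JN n σ w (fun Y => f Y * g Y) X ≤ JN n σ w f X * JN n σ w g X := by
  have h0 : 0 < X := by linarith
  have key : ∀ j ∈ Finset.range (n + 1), b2pow_t σ w (fun Y => f Y * g Y) X j ≤
      ∑ i ∈ Finset.range (j + 1), b2pow_t σ w f X i * b2pow_t σ w g X (j - i) := by
    intro j hj
    have hj' : j ≤ n := Nat.lt_succ_iff.1 (Finset.mem_range.1 hj)
    have hp := Real.rpow_pos_of_pos h0 (-w j)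
    rw [b2pow_t, b2_Du_mul hU hf hg j hX]
    refine le_trans (div_le_div_of_nonneg_right (mul_le_mul_of_nonneg_left (norm_sum_le _ _)
      (by positivity)) (by positivity)) ?_
    rw [Finset.mul_sum, Finset.sum_div]
    refine Finset.sum_le_sum fun i hi => ?_
    obtain ⟨k, rfl⟩ := Nat.exists_eq_add_of_le (Nat.lt_succ_iff.1 (Finset.mem_range.1 hi))
    have e1 : X ^ (-w (i + k)) ≤ X ^ (-w i) * X ^ (-w k) := by
      rw [← Real.rpow_add h0]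
      exact Real.rpow_le_rpow_of_exponent_le h1 (by linarith [hw.2 i k hj'])
    have e2 : (((i + k).factorial : ℕ) : ℝ) = (i + k).choose i * i.factorial * k.factorial := by
      rw [← Nat.choose_mul_factorial_mul_factorial (Nat.le_add_right i k), Nat.add_sub_cancel_left]
      push_cast
      rfl
    have e3 : (0 : ℝ) < (i + k).choose i := by
      exact_mod_cast Nat.choose_pos (Nat.le_add_right i k)
    rw [Nat.add_sub_cancel_left, norm_mul, norm_mul, Complex.norm_natCast, b2pow_t, b2pow_t, e2]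
    calc σ ^ (i + k) * X ^ (-w (i + k)) * (((i + k).choose i : ℝ) * ‖Du^[i] f X‖ * ‖Du^[k] g X‖) /
          (((i + k).choose i : ℝ) * i.factorial * k.factorial)
        ≤ σ ^ (i + k) * (X ^ (-w i) * X ^ (-w k)) *
            (((i + k).choose i : ℝ) * ‖Du^[i] f X‖ * ‖Du^[k] g X‖) /
          (((i + k).choose i : ℝ) * i.factorial * k.factorial) := by gcongr
      _ = _ := by
          field_simp
          ring
  refine (Finset.sum_le_sum key).trans ?_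
  rw [Finset.sum_range_diag_flip (n + 1) fun i k => b2pow_t σ w f X i * b2pow_t σ w g X k]
  refine le_trans (Finset.sum_le_sum fun i _ => ?_)
    (Finset.sum_mul_sum _ _ (b2pow_t σ w f X) (b2pow_t σ w g X)).ge
  exact Finset.sum_le_sum_of_subset_of_nonneg (Finset.range_subset_range.2 (Nat.sub_le _ _))
    fun k _ _ => mul_nonneg (b2pow_t_nonneg hσ h0.le _ _) (b2pow_t_nonneg hσ h0.le _ _)

theorem b2pow_pow (hU : IsOpen U) (hG : ContDiffOn ℝ ∞ G U) (hX : X ∈ U) (h1 : 1 ≤ X)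
    (hσ : 0 ≤ σ) (hw : SupA n w) (a : ℕ) :
    JN n σ w (fun Y => G Y ^ a) X ≤ JN n σ w G X ^ a := by
  induction a with
  | zero =>
    simp only [pow_zero, JN, b2_Du_one]
    rw [Finset.sum_range_succ']
    simp [hw.1]
  | succ a ih =>
    simp only [pow_succ]
    exact (b2_JN_mul hU (hG.pow a) hG hX h1 hσ hw).trans
      (mul_le_mul_of_nonneg_right ih (b2pow_nonneg hσ (by linarith) _))

theorem b2_JN_pow (hU : IsOpen U) (hG : ContDiffOn ℝ ∞ G U) (hX : X ∈ U) (h1 : 1 ≤ X)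
    (hσ : 0 ≤ σ) (hw : SupA n w) (a b : ℕ) :
    JN n σ w (fun Y => G Y ^ a * conj (G Y) ^ b) X ≤ JN n σ w G X ^ (a + b) := by
  have h0 : 0 ≤ X := by linarith
  have hc := b2_conj_sm hG
  have e : JN n σ w (fun Y => conj (G Y)) X = JN n σ w G X :=
    Finset.sum_congr rfl fun j _ => by rw [b2_Du_conj hU hG j hX, Complex.norm_conj]
  refine (b2_JN_mul hU (hG.pow a) (hc.pow b) hX h1 hσ hw).trans ?_
  rw [pow_add]
  refine mul_le_mul (b2pow_pow hU hG hX h1 hσ hw a) ?_ (b2pow_nonneg hσ h0 _)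
    (pow_nonneg (b2pow_nonneg hσ h0 _) a)
  rw [← e]
  exact b2pow_pow hU hc hX h1 hσ hw b

theorem b2_pow (n : ℕ) {θ : ℝ} (hθ : θ < 1) (C : ℝ) : ∃ A θ' : ℝ, 0 ≤ A ∧ 0 ≤ θ' ∧ θ' < 1 ∧
    ∀ (G : ℝ → ℂ) (U : Set ℝ) (w : ℕ → ℝ) (X : ℝ), IsOpen U → ContDiffOn ℝ ∞ G U → X ∈ U →
      1 ≤ X → SupA n w → ‖G X‖ ≤ θ → (∀ j ≤ n, ‖Du^[j] G X‖ ≤ C * X ^ w j) →
      ∀ a b : ℕ, ∀ j ≤ n,
        ‖Du^[j] (fun Y => G Y ^ a * conj (G Y) ^ b) X‖ ≤ A * θ' ^ (a + b) * X ^ w j := by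
  obtain ⟨θ0, hθ0⟩ : ∃ θ0, θ0 = max θ 0 := ⟨_, rfl⟩
  have t0 : 0 ≤ θ0 := hθ0 ▸ le_max_right _ _
  have t1 : θ0 < 1 := hθ0 ▸ max_lt hθ one_pos
  have t2 : θ ≤ θ0 := hθ0 ▸ le_max_left _ _
  have hC := abs_nonneg C
  have hn : (0 : ℝ) ≤ n := Nat.cast_nonneg n
  have hD : 0 < 2 * (n * |C| + 1) := by positivity
  obtain ⟨σ, hσ⟩ : ∃ σ, σ = (1 - θ0) / (2 * (n * |C| + 1)) := ⟨_, rfl⟩
  have s0 : 0 < σ := hσ ▸ div_pos (by linarith) hD
  have s2 : σ * (2 * (n * |C| + 1)) = 1 - θ0 := hσ ▸ div_mul_cancel₀ _ hD.ne'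
  have s3 : 0 ≤ σ * (n * |C|) := by positivity
  have s1 : σ ≤ 1 := by nlinarith
  refine ⟨n.factorial / σ ^ n, (1 + θ0) / 2, by positivity, by linarith, by linarith,
    fun G U w X hU hG hX h1 hw h2 h3 a b j hj => ?_⟩
  have h0 : 0 < X := by linarith
  have h4 : JN n σ w G X ≤ (1 + θ0) / 2 := by
    have h5 : ∀ i ∈ Finset.range n, b2pow_t σ w G X (i + 1) ≤ σ * |C| := by
      intro i hi
      have hp := Real.rpow_pos_of_pos h0 (w (i + 1))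
      have h6 : ‖Du^[i + 1] G X‖ ≤ |C| * X ^ w (i + 1) :=
        (h3 (i + 1) (Finset.mem_range.1 hi)).trans
          (mul_le_mul_of_nonneg_right (le_abs_self C) hp.le)
      have h7 : σ ^ (i + 1) ≤ σ := pow_le_of_le_one s0.le s1 (Nat.succ_ne_zero i)
      have h8 : (1 : ℝ) ≤ (i + 1).factorial := by exact_mod_cast Nat.factorial_pos (i + 1)
      rw [b2pow_t, Real.rpow_neg h0.le]
      refine (div_le_self (by positivity) h8).trans ?_
      calc σ ^ (i + 1) * (X ^ w (i + 1))⁻¹ * ‖Du^[i + 1] G X‖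
          ≤ σ * (X ^ w (i + 1))⁻¹ * (|C| * X ^ w (i + 1)) := by gcongr
        _ = σ * |C| := by field_simp
    have h6 := Finset.sum_le_sum h5
    rw [Finset.sum_const, Finset.card_range, nsmul_eq_mul] at h6
    have h7 : b2pow_t σ w G X 0 = ‖G X‖ := by simp [b2pow_t, hw.1]
    have h8 : JN n σ w G X = ∑ i ∈ Finset.range n, b2pow_t σ w G X (i + 1) + b2pow_t σ w G X 0 :=
      Finset.sum_range_succ' (b2pow_t σ w G X) n
    rw [h8, h7]
    linarith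
  have h5 : b2pow_t σ w (fun Y => G Y ^ a * conj (G Y) ^ b) X j ≤ ((1 + θ0) / 2) ^ (a + b) :=
    (Finset.single_le_sum (f := b2pow_t σ w (fun Y => G Y ^ a * conj (G Y) ^ b) X)
      (fun i _ => b2pow_t_nonneg s0.le h0.le _ i) (Finset.mem_range.2 (Nat.lt_succ_of_le hj))).trans
      ((b2_JN_pow hU hG hX h1 s0.le hw a b).trans
        (pow_le_pow_left₀ (b2pow_nonneg s0.le h0.le _) h4 _))
  have hp := Real.rpow_pos_of_pos h0 (w j)
  have h6 : (j.factorial : ℝ) ≤ n.factorial := by exact_mod_cast Nat.factorial_le hj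
  have h7 : σ ^ n ≤ σ ^ j := pow_le_pow_of_le_one s0.le s1 hj
  have h8 : (0 : ℝ) < j.factorial := by exact_mod_cast Nat.factorial_pos j
  rw [b2pow_t, Real.rpow_neg h0.le] at h5
  calc ‖Du^[j] (fun Y => G Y ^ a * conj (G Y) ^ b) X‖
      = j.factorial / σ ^ j * (σ ^ j * (X ^ w j)⁻¹ *
          ‖Du^[j] (fun Y => G Y ^ a * conj (G Y) ^ b) X‖ / j.factorial) * X ^ w j := by
        field_simp
    _ ≤ n.factorial / σ ^ n * ((1 + θ0) / 2) ^ (a + b) * X ^ w j := by gcongr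

theorem b2_small (n : ℕ) {θ ε : ℝ} (hθ : θ < 1) (C : ℝ) (hε : 0 < ε) : ∃ m0 : ℕ, ∀ m ≥ m0,
    ∀ (G : ℝ → ℂ) (U : Set ℝ) (w : ℕ → ℝ) (X : ℝ), IsOpen U → ContDiffOn ℝ ∞ G U → X ∈ U →
      1 ≤ X → SupA n w → ‖G X‖ ≤ θ → (∀ j ≤ n, ‖Du^[j] G X‖ ≤ C * X ^ w j) → ∀ j ≤ n,
        ‖Du^[j] (fun Y => (normSq (G Y) : ℂ) ^ m * G Y) X‖ ≤ ε * X ^ w j ∧
        ‖Du^[j] (fun Y => (normSq (G Y) : ℂ) ^ m) X‖ ≤ ε * X ^ w j ∧
        ‖Du^[j] (fun Y => ((m : ℂ) + 1) * (normSq (G Y) : ℂ) ^ m) X‖ ≤ ε * X ^ w j ∧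
        ‖Du^[j] (fun Y => (m : ℂ) * (normSq (G Y) : ℂ) ^ (m - 1) * G Y ^ 2) X‖ ≤ ε * X ^ w j := by
  obtain ⟨A, θ', hA, t0, t1, h⟩ := b2_pow n hθ C
  have t : Tendsto (fun m : ℕ => A * (m * θ' ^ m + θ' ^ m)) atTop (𝓝 (A * (0 + 0))) :=
    ((tendsto_self_mul_const_pow_of_lt_one t0 t1).add
      (tendsto_pow_atTop_nhds_zero_of_lt_one t0 t1)).const_mul A
  obtain ⟨m0, hm0⟩ := eventually_atTop.1 (t.eventually (gt_mem_nhds (by simpa using hε)))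
  refine ⟨m0, fun m hm G U w X hU hG hX h1 hw h2 h3 j hj => ?_⟩
  have hp := Real.rpow_pos_of_pos (by linarith : 0 < X) (w j)
  have key : ∀ (c : ℝ) (a b : ℕ), 0 ≤ c → c ≤ m + 1 → m ≤ a + b →
      ‖Du^[j] (fun Y => (c : ℂ) * (G Y ^ a * conj (G Y) ^ b)) X‖ ≤ ε * X ^ w j := by
    intro c a b c0 c1 hab
    have h4 := h G U w X hU hG hX h1 hw h2 h3 a b j hj
    have h5 : θ' ^ (a + b) ≤ θ' ^ m := pow_le_pow_of_le_one t0 t1.le hab
    have h6 := (hm0 m hm).le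
    rw [b2_Du_cmul hU ((hG.pow a).mul ((b2_conj_sm hG).pow b)) c j hX, norm_mul, norm_real,
      Real.norm_of_nonneg c0]
    calc c * ‖Du^[j] (fun Y => G Y ^ a * conj (G Y) ^ b) X‖
        ≤ (m + 1) * (A * θ' ^ m * X ^ w j) := by
          refine mul_le_mul c1 (h4.trans ?_) (norm_nonneg _) (by positivity)
          gcongr
      _ = A * (m * θ' ^ m + θ' ^ m) * X ^ w j := by ring
      _ ≤ ε * X ^ w j := mul_le_mul_of_nonneg_right h6 hp.le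
  have hm1 : (0 : ℝ) ≤ m := Nat.cast_nonneg m
  have e1 : (fun Y => (normSq (G Y) : ℂ) ^ m * G Y) =
      fun Y => ((1 : ℝ) : ℂ) * (G Y ^ (m + 1) * conj (G Y) ^ m) := by
    funext Y
    rw [← Complex.mul_conj]
    push_cast
    ring
  have e2 : (fun Y => (normSq (G Y) : ℂ) ^ m) =
      fun Y => ((1 : ℝ) : ℂ) * (G Y ^ m * conj (G Y) ^ m) := by
    funext Y
    rw [← Complex.mul_conj]
    push_cast
    ring
  have e3 : (fun Y => ((m : ℂ) + 1) * (normSq (G Y) : ℂ) ^ m) =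
      fun Y => ((m + 1 : ℝ) : ℂ) * (G Y ^ m * conj (G Y) ^ m) := by
    funext Y
    rw [← Complex.mul_conj]
    push_cast
    ring
  have e4 : (fun Y => (m : ℂ) * (normSq (G Y) : ℂ) ^ (m - 1) * G Y ^ 2) =
      fun Y => ((m : ℝ) : ℂ) * (G Y ^ (m - 1 + 2) * conj (G Y) ^ (m - 1)) := by
    funext Y
    rw [← Complex.mul_conj]
    push_cast
    ring
  rw [e1, e2, e3, e4]
  exact ⟨key 1 _ _ zero_le_one (by linarith) (by omega), key 1 _ _ zero_le_one (by linarith)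
    (by omega), key _ _ _ (by linarith) le_rfl (by omega), key _ _ _ hm1 (by linarith) (by omega)⟩

/-- Non uniform version (for a fixed `m`). -/
theorem b2_Rbound (n m : ℕ) {θ : ℝ} (hθ : θ < 1) (C : ℝ) : ∃ A : ℝ, 0 ≤ A ∧
    ∀ (G : ℝ → ℂ) (U : Set ℝ) (w : ℕ → ℝ) (X : ℝ), IsOpen U → ContDiffOn ℝ ∞ G U → X ∈ U →
      1 ≤ X → SupA n w → ‖G X‖ ≤ θ → (∀ j ≤ n, ‖Du^[j] G X‖ ≤ C * X ^ w j) → ∀ j ≤ n,
        ‖Du^[j] (fun Y => (normSq (G Y) : ℂ) ^ m * G Y) X‖ ≤ A * X ^ w j := by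
  obtain ⟨A, θ', hA, t0, t1, h⟩ := b2_pow n hθ C
  refine ⟨A, hA, fun G U w X hU hG hX h1 hw h2 h3 j hj => ?_⟩
  have e1 : (fun Y => (normSq (G Y) : ℂ) ^ m * G Y) =
      fun Y => G Y ^ (m + 1) * conj (G Y) ^ m := by
    funext Y
    rw [← Complex.mul_conj]
    ring
  rw [e1]
  exact (h G U w X hU hG hX h1 hw h2 h3 _ _ j hj).trans (mul_le_mul_of_nonneg_right
    (mul_le_of_le_one_right hA (pow_le_one₀ t0 t1.le)) (Real.rpow_nonneg (by linarith) _))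

theorem b2_supA_wt {t : ℝ} (h0 : 0 ≤ t) (h4 : t ≤ 4) : SupA 4 (wt t) := by
  have w0 : wt t 0 = 0 := by simp [wt]
  have w1 : wt t 1 = 0 := by simp [wt]
  have w2 : wt t 2 = max (t - 2) 0 := by
    rw [wt, if_neg (by norm_num)]; congr 1; push_cast; ring
  have w3 : wt t 3 = max (t - 1) 0 := by
    rw [wt, if_neg (by norm_num)]; congr 1; push_cast; ring
  have w4 : wt t 4 = t := by
    rw [wt, if_neg (by norm_num), max_eq_left (by push_cast; linarith)]; push_cast; ring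
  have l1 : max (t - 2) 0 ≤ max (t - 1) 0 := max_le_max (by linarith) le_rfl
  have l2 : max (t - 1) 0 ≤ t := max_le (by linarith) h0
  have l3 : max (t - 2) 0 ≤ t / 2 := max_le (by linarith) (by linarith)
  have l4 : 0 ≤ max (t - 2) 0 := le_max_right _ _
  refine ⟨w0, fun i j hij => ?_⟩
  have hi : i ≤ 4 := by omega
  have hj : j ≤ 4 - i := by omega
  interval_cases i <;> interval_cases j <;> simp only [Nat.reduceAdd, w0, w1, w2, w3, w4] <;>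
    linarith

theorem b2_supA_zero (n : ℕ) : SupA n fun _ => 0 := by
  exact ⟨rfl, fun _ _ _ => by simp⟩

end Vale.Agent.P139
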